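import Mathlib

namespace Vale.Agent.Lib.BangPlank

open Set MeasureTheory Pointwise

variable {E : Type*} [NormedAddCommGroup E] [InnerProductSpace ℝ E]

/-- Flipping one sign in a signed sum. -/
theorem sum_flip {ι : Type*} [Fintype ι] [DecidableEq ι] {M : Type*} [AddCommGroup M]
    [Module ℝ M] (f : ι → ℝ) (a : ι → M) (i : ι) :
    ∑ j, (if j = i then -f i else f j) • a j = ∑ j, f j • a j - (2 * f i) • a i := by
  have h : ∀ j, (if j = i then -f i else f j) • a j
      = f j • a j - (if j = i then (2 * f i) • a i else 0) := by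
    intro j
    by_cases hj : j = i
    · subst hj
      rw [if_pos rfl, if_pos rfl, neg_smul, two_mul, add_smul]
      abel
    · rw [if_neg hj, if_neg hj, sub_zero]
  rw [Finset.sum_congr rfl (fun j _ => h j), Finset.sum_sub_distrib, Finset.sum_ite_eq']
  simp

/-- Bang's lemma: signs can be chosen so that the signed sum of the vectors `w i • u i` avoids
the interior of every plank `|⟪x, u i⟫ - m i| < w i`. -/
theorem bang_lemma {ι : Type*} [Fintype ι] (u : ι → E) (hu : ∀ i, ‖u i‖ = 1) (w m : ι → ℝ)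
    (hw : ∀ i, 0 ≤ w i) :
    ∃ ε : ι → ℝ, (∀ i, ε i = 1 ∨ ε i = -1) ∧
      ∀ i, w i ≤ |inner ℝ (∑ j, ε j • w j • u j) (u i) - m i| := by
  classical
  obtain ⟨S, hS⟩ : ∃ S : Finset (ι → ℝ), S = Fintype.piFinset (fun _ => ({1, -1} : Finset ℝ)) :=
    ⟨_, rfl⟩
  have hSne : S.Nonempty := ⟨fun _ => 1, by rw [hS, Fintype.mem_piFinset]; intro _; simp⟩
  obtain ⟨ε, hεS, hmax⟩ := S.exists_max_image
    (fun ε : ι → ℝ => ‖∑ j, ε j • w j • u j‖ ^ 2 - 2 * ∑ j, ε j • (w j * m j)) hSne
  have hε : ∀ i, ε i = 1 ∨ ε i = -1 := by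
    intro i
    have h := Fintype.mem_piFinset.mp (hS ▸ hεS) i
    simpa using h
  refine ⟨ε, hε, ?_⟩
  intro i
  have hflipS : (fun j => if j = i then -ε i else ε j) ∈ S := by
    rw [hS, Fintype.mem_piFinset]
    intro j
    by_cases hj : j = i
    · subst hj
      rcases hε j with h | h <;> simp [h]
    · rw [if_neg hj]
      exact Fintype.mem_piFinset.mp (hS ▸ hεS) j
  have h1 := hmax _ hflipS
  beta_reduce at h1
  rw [sum_flip (fun j => ε j) (fun j => w j • u j) i,
    sum_flip (fun j => ε j) (fun j => w j * m j) i] at h1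
  obtain ⟨x, hx⟩ : ∃ x : E, x = ∑ j, ε j • w j • u j := ⟨_, rfl⟩
  rw [← hx] at h1 ⊢
  have hsq : ε i ^ 2 = 1 := by rcases hε i with h | h <;> simp [h]
  have hn : ‖x - (2 * ε i) • w i • u i‖ ^ 2
      = ‖x‖ ^ 2 - 4 * ε i * w i * inner ℝ x (u i) + 4 * w i ^ 2 := by
    rw [norm_sub_sq_real, inner_smul_right, inner_smul_right, norm_smul, norm_smul, hu i,
      Real.norm_eq_abs, Real.norm_eq_abs, mul_one, mul_pow, sq_abs, sq_abs, mul_pow, hsq]
    ring
  rw [hn] at h1
  simp only [smul_eq_mul] at h1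
  have key : w i ^ 2 ≤ ε i * w i * (inner ℝ x (u i) - m i) := by linarith
  rcases (hw i).eq_or_lt with h0 | hpos
  · rw [← h0]
    exact abs_nonneg _
  · have h2 : w i ≤ ε i * (inner ℝ x (u i) - m i) := by nlinarith
    rcases hε i with h | h
    · rw [h, one_mul] at h2
      exact h2.trans (le_abs_self _)
    · rw [h] at h2
      exact le_trans (by linarith) (neg_le_abs _)

/-- `K` has a chord of length `L` in every direction of `D`. -/
def Chord (D : Set E) (K : Set E) (L : ℝ) : Prop := ∀ v ∈ D, ∃ p, p ∈ K ∧ p + L • v ∈ K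

theorem chord_shrink {D K : Set E} (hK : Convex ℝ K) {L w : ℝ} (hch : Chord D K L) {u : E}
    (hu : u ∈ D) (hw : 0 ≤ w) (hwL : 2 * w < L) :
    Chord D {x | x + w • u ∈ K ∧ x - w • u ∈ K} (L - 2 * w) := by
  obtain ⟨a, ha, hb⟩ := hch u hu
  intro v hv
  obtain ⟨p, hp, hq⟩ := hch v hv
  have hL : 0 < L := by linarith
  obtain ⟨lam, hlam⟩ : ∃ lam : ℝ, lam = 2 * w / L := ⟨_, rfl⟩
  have hlam0 : 0 ≤ lam := by rw [hlam]; positivity
  have hlam1 : lam ≤ 1 := by rw [hlam]; exact (div_le_one hL).mpr hwL.le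
  have hwl : w = lam * L / 2 := by rw [hlam]; field_simp
  have h1 : (1 - lam) + lam = 1 := by ring
  refine ⟨(1 - lam) • p + lam • (a + (L / 2) • u), ⟨?_, ?_⟩, ⟨?_, ?_⟩⟩
  · have e : (1 - lam) • p + lam • (a + (L / 2) • u) + w • u
        = (1 - lam) • p + lam • (a + L • u) := by
      rw [hwl]
      module
    rw [e]
    exact hK hp hb (by linarith) hlam0 h1
  · have e : (1 - lam) • p + lam • (a + (L / 2) • u) - w • u
        = (1 - lam) • p + lam • a := by
      rw [hwl]
      module
    rw [e]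
    exact hK hp ha (by linarith) hlam0 h1
  · have e : (1 - lam) • p + lam • (a + (L / 2) • u) + (L - 2 * w) • v + w • u
        = (1 - lam) • (p + L • v) + lam • (a + L • u) := by
      rw [hwl]
      module
    rw [e]
    exact hK hq hb (by linarith) hlam0 h1
  · have e : (1 - lam) • p + lam • (a + (L / 2) • u) + (L - 2 * w) • v - w • u
        = (1 - lam) • (p + L • v) + lam • a := by
      rw [hwl]
      module
    rw [e]
    exact hK hq ha (by linarith) hlam0 h1

theorem shrink_convex {K : Set E} (hK : Convex ℝ K) (w : ℝ) (u : E) :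
    Convex ℝ {x | x + w • u ∈ K ∧ x - w • u ∈ K} := by
  intro x hx y hy a b ha hb hab
  constructor
  · have e : a • x + b • y + w • u = a • (x + w • u) + b • (y + w • u) := by
      calc a • x + b • y + w • u = a • x + b • y + (a + b) • w • u := by rw [hab, one_smul]
        _ = a • (x + w • u) + b • (y + w • u) := by
            rw [add_smul, smul_add, smul_add]
            abel
    rw [e]
    exact hK hx.1 hy.1 ha hb hab
  · have e : a • x + b • y - w • u = a • (x - w • u) + b • (y - w • u) := by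
      calc a • x + b • y - w • u = a • x + b • y - (a + b) • w • u := by rw [hab, one_smul]
        _ = a • (x - w • u) + b • (y - w • u) := by
            rw [add_smul, smul_sub, smul_sub]
            abel
    rw [e]
    exact hK hx.2 hy.2 ha hb hab

theorem exists_translate {ι : Type*} [DecidableEq ι] (D : Set E) (u : ι → E)
    (hu : ∀ i, u i ∈ D) (w : ι → ℝ) (hw : ∀ i, 0 ≤ w i) (s : Finset ι) :
    ∀ (K : Set E) (L : ℝ), Convex ℝ K → K.Nonempty → Chord D K L → 2 * ∑ i ∈ s, w i < L →
      ∃ x₀, ∀ ε : ι → ℝ, (∀ i, ε i = 1 ∨ ε i = -1) → x₀ + ∑ i ∈ s, ε i • w i • u i ∈ K := by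
  induction s using Finset.induction_on with
  | empty =>
    intro K L hK hne hch hL
    obtain ⟨x₀, hx₀⟩ := hne
    exact ⟨x₀, fun ε _ => by simpa using hx₀⟩
  | insert i s hi ih =>
    intro K L hK hne hch hL
    rw [Finset.sum_insert hi] at hL
    have hs0 : 0 ≤ ∑ j ∈ s, w j := Finset.sum_nonneg (fun j _ => hw j)
    have hch' := chord_shrink hK hch (hu i) (hw i) (by linarith)
    have hne' : ({x | x + w i • u i ∈ K ∧ x - w i • u i ∈ K}).Nonempty := by
      obtain ⟨p, hp, _⟩ := hch' (u i) (hu i)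
      exact ⟨p, hp⟩
    obtain ⟨x₀, hx₀⟩ := ih _ (L - 2 * w i) (shrink_convex hK (w i) (u i)) hne' hch'
      (by linarith)
    refine ⟨x₀, fun ε hε => ?_⟩
    rw [Finset.sum_insert hi]
    have h := hx₀ ε hε
    rcases hε i with h1 | h1
    · have e : x₀ + (ε i • w i • u i + ∑ j ∈ s, ε j • w j • u j)
          = x₀ + ∑ j ∈ s, ε j • w j • u j + w i • u i := by
        rw [h1, one_smul]
        abel
      rw [e]
      exact h.1
    · have e : x₀ + (ε i • w i • u i + ∑ j ∈ s, ε j • w j • u j)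
          = x₀ + ∑ j ∈ s, ε j • w j • u j - w i • u i := by
        rw [h1, neg_smul, one_smul]
        abel
      rw [e]
      exact h.2

/-- Bang's plank theorem in chord form: a convex set with chords of length `L` in all directions
of `D` is not covered by open planks with normals in `D` of total width less than `L`. -/
theorem plank_chord {ι : Type*} [Fintype ι] (D : Set E) (hD : ∀ v ∈ D, ‖v‖ = 1) {K : Set E}
    (hK : Convex ℝ K) (hne : K.Nonempty) {L : ℝ} (hch : Chord D K L) (u : ι → E)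
    (hu : ∀ i, u i ∈ D) (w m : ι → ℝ) (hw : ∀ i, 0 ≤ w i) (hL : 2 * ∑ i, w i < L) :
    ∃ x ∈ K, ∀ i, w i ≤ |inner ℝ x (u i) - m i| := by
  classical
  obtain ⟨x₀, hx₀⟩ := exists_translate D u hu w hw Finset.univ K L hK hne hch hL
  obtain ⟨ε, hε, hb⟩ := bang_lemma u (fun i => hD _ (hu i)) w
    (fun i => m i - inner ℝ x₀ (u i)) hw
  refine ⟨_, hx₀ ε hε, fun i => ?_⟩
  have h := hb i
  rw [inner_add_left]
  have e : inner ℝ x₀ (u i) + inner ℝ (∑ j, ε j • w j • u j) (u i) - m i
      = inner ℝ (∑ j, ε j • w j • u j) (u i) - (m i - inner ℝ x₀ (u i)) := by ring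
  rw [e]
  exact h

theorem component_interval {U : Set ℝ} (hfin : volume U ≠ ⊤) {y : ℝ} (hy : y ∈ U) :
    ∃ a b : ℝ, ordConnectedComponent U y ⊆ Icc a b ∧
      ENNReal.ofReal (b - a) ≤ volume (ordConnectedComponent U y) := by
  have hyJ : y ∈ ordConnectedComponent U y := self_mem_ordConnectedComponent.mpr hy
  have hJ : (ordConnectedComponent U y).OrdConnected := inferInstance
  have hJfin : volume (ordConnectedComponent U y) ≠ ⊤ :=
    ne_top_of_le_ne_top hfin (measure_mono ordConnectedComponent_subset)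
  have habove : BddAbove (ordConnectedComponent U y) := by
    by_contra h
    apply hJfin
    have hsub : Ici y ⊆ ordConnectedComponent U y := by
      intro z hz
      obtain ⟨z', hz', hlt⟩ := not_bddAbove_iff.mp h z
      exact hJ.out hyJ hz' ⟨hz, hlt.le⟩
    exact top_unique (by rw [← Real.volume_Ici (a := y)]; exact measure_mono hsub)
  have hbelow : BddBelow (ordConnectedComponent U y) := by
    by_contra h
    apply hJfin
    have hsub : Iic y ⊆ ordConnectedComponent U y := by
      intro z hz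
      obtain ⟨z', hz', hlt⟩ := not_bddBelow_iff.mp h z
      exact hJ.out hz' hyJ ⟨hlt.le, hz⟩
    exact top_unique (by rw [← Real.volume_Iic (a := y)]; exact measure_mono hsub)
  refine ⟨sInf _, sSup _, subset_Icc_csInf_csSup hbelow habove, ?_⟩
  rw [← Real.volume_Ioo]
  exact measure_mono (IsConnected.Ioo_csInf_csSup_subset ⟨⟨y, hyJ⟩, hJ.isPreconnected⟩ hbelow habove)

theorem component_open {G : Set ℝ} (hG : IsOpen G) (x : ℝ) :
    IsOpen (ordConnectedComponent G x) := by
  rw [isOpen_iff_mem_nhds]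
  intro y hy
  have hyG : y ∈ G := ordConnectedComponent_subset hy
  have h1 : ordConnectedComponent G y ∈ nhds y :=
    ordConnectedComponent_mem_nhds.mpr (hG.mem_nhds hyG)
  have h2 : ordConnectedComponent G x = ordConnectedComponent G y :=
    ordConnectedComponent_eq hy
  rw [h2]
  exact h1

theorem tsum_components_le {G : Set ℝ} (hG : IsOpen G) :
    ∑' x : ordConnectedSection G, volume (ordConnectedComponent G (x : ℝ)) ≤ volume G := by
  have hdisj : (ordConnectedSection G).PairwiseDisjoint (ordConnectedComponent G) := by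
    intro x hx x' hx' hne'
    rw [Function.onFun, Set.disjoint_left]
    intro z hz hz'
    apply hne'
    refine eq_of_mem_ordConnectedSection_of_uIcc_subset hx hx' ?_
    exact (uIcc_subset_uIcc_union_uIcc (b := z)).trans
      (union_subset hz (by rw [uIcc_comm]; exact hz'))
  have hcount : (ordConnectedSection G).Countable :=
    hdisj.countable_of_isOpen (fun x _ => component_open hG x)
      (fun x hx => ⟨x, self_mem_ordConnectedComponent.mpr (ordConnectedSection_subset hx)⟩)
  rw [← measure_biUnion hcount hdisj (fun x _ => (component_open hG x).measurableSet)]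
  exact measure_mono (iUnion₂_subset (fun x _ => ordConnectedComponent_subset))

/-- Bang's plank theorem for generalized planks `{x | ⟪x, u i⟫ ∈ S i}` with arbitrary sets
`S i` of reals: if they cover a compact convex set with chords of length `L` in all directions
of `D`, then the total (outer) measure of the `S i` is at least `L`. -/
theorem plank_sets {ι : Type*} [Fintype ι] (D : Set E) (hD : ∀ v ∈ D, ‖v‖ = 1) {K : Set E}
    (hK : Convex ℝ K) (hKc : IsCompact K) (hne : K.Nonempty) {L : ℝ} (hch : Chord D K L)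
    (u : ι → E) (hu : ∀ i, u i ∈ D) (S : ι → Set ℝ)
    (hcov : ∀ x ∈ K, ∃ i, inner ℝ x (u i) ∈ S i) :
    ENNReal.ofReal L ≤ ∑ i, volume (S i) := by
  by_contra hcon
  rw [not_le] at hcon
  obtain ⟨r, hr0, hr⟩ := ENNReal.lt_iff_exists_add_pos_lt.mp hcon
  have hSfin : ∀ i, volume (S i) ≠ ⊤ := by
    intro i
    have h1 : volume (S i) ≤ ∑ j, volume (S j) :=
      Finset.single_le_sum (f := fun j => volume (S j)) (fun _ _ => bot_le)
        (Finset.mem_univ i)
    exact ne_top_of_le_ne_top (ne_top_of_lt hcon) h1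
  obtain ⟨δ, hδ0, hδ⟩ := ENNReal.exists_pos_sum_of_countable (ε := (r : ENNReal))
    (by simpa using hr0.ne') ι
  rw [tsum_fintype] at hδ
  have hU : ∀ i, ∃ U : Set ℝ, S i ⊆ U ∧ IsOpen U ∧ volume U < volume (S i) + δ i := by
    intro i
    obtain ⟨U, hSU, hUo, hUlt⟩ := (S i).exists_isOpen_lt_add (hSfin i)
      (ε := (δ i : ENNReal)) (by simpa using (hδ0 i).ne')
    exact ⟨U, hSU, hUo, hUlt⟩
  choose U hSU hUo hUlt using hU
  have hUsum : ∑ i, volume (U i) < ENNReal.ofReal L := by
    calc ∑ i, volume (U i) ≤ ∑ i, (volume (S i) + δ i) :=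
          Finset.sum_le_sum (fun i _ => (hUlt i).le)
      _ = ∑ i, volume (S i) + ∑ i, (δ i : ENNReal) := Finset.sum_add_distrib
      _ ≤ ∑ i, volume (S i) + r := by gcongr
      _ < ENNReal.ofReal L := hr
  have hUfin : ∀ i, volume (U i) ≠ ⊤ := by
    intro i
    have h1 : volume (U i) ≤ ∑ j, volume (U j) :=
      Finset.single_le_sum (f := fun j => volume (U j)) (fun _ _ => bot_le)
        (Finset.mem_univ i)
    exact ne_top_of_le_ne_top (ne_top_of_lt hUsum) h1
  have hO : ∀ j : (Σ i : ι, ordConnectedSection (U i)),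
      IsOpen {x : E | inner ℝ x (u j.1) ∈ ordConnectedComponent (U j.1) (j.2 : ℝ)} := by
    intro j
    exact (component_open (hUo j.1) _).preimage (by fun_prop)
  have hsub : K ⊆ ⋃ j : (Σ i : ι, ordConnectedSection (U i)),
      {x : E | inner ℝ x (u j.1) ∈ ordConnectedComponent (U j.1) (j.2 : ℝ)} := by
    intro x hx
    obtain ⟨i, hi⟩ := hcov x hx
    have hiU : inner ℝ x (u i) ∈ U i := hSU i hi
    refine mem_iUnion.mpr ⟨⟨i, ⟨ordConnectedProj (U i) ⟨_, hiU⟩, mem_range_self _⟩⟩, ?_⟩
    show inner ℝ x (u i) ∈ ordConnectedComponent (U i) (ordConnectedProj (U i) ⟨_, hiU⟩)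
    rw [ordConnectedComponent_ordConnectedProj]
    exact self_mem_ordConnectedComponent.mpr hiU
  obtain ⟨T, hT⟩ := hKc.elim_finite_subcover _ hO hsub
  have hI : ∀ j : (Σ i : ι, ordConnectedSection (U i)), ∃ a b : ℝ,
      ordConnectedComponent (U j.1) (j.2 : ℝ) ⊆ Icc a b ∧
      ENNReal.ofReal (b - a) ≤ volume (ordConnectedComponent (U j.1) (j.2 : ℝ)) :=
    fun j => component_interval (hUfin j.1) (ordConnectedSection_subset j.2.2)
  choose a b hab hvol using hI
  have hle : ∀ j, a j ≤ b j := by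
    intro j
    have h1 := hab j (self_mem_ordConnectedComponent.mpr (ordConnectedSection_subset j.2.2))
    exact h1.1.trans h1.2
  have hsumT : ∑ j ∈ T, ENNReal.ofReal (b j - a j) ≤ ∑ i, volume (U i) := by
    calc ∑ j ∈ T, ENNReal.ofReal (b j - a j)
        ≤ ∑ j ∈ T, volume (ordConnectedComponent (U j.1) (j.2 : ℝ)) :=
          Finset.sum_le_sum (fun j _ => hvol j)
      _ ≤ ∑' j : (Σ i : ι, ordConnectedSection (U i)),
            volume (ordConnectedComponent (U j.1) (j.2 : ℝ)) := ENNReal.sum_le_tsum T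
      _ = ∑' i, ∑' y : ordConnectedSection (U i),
            volume (ordConnectedComponent (U i) (y : ℝ)) :=
          ENNReal.tsum_sigma (fun i (y : ordConnectedSection (U i)) =>
            volume (ordConnectedComponent (U i) (y : ℝ)))
      _ = ∑ i, ∑' y : ordConnectedSection (U i),
            volume (ordConnectedComponent (U i) (y : ℝ)) := tsum_fintype _
      _ ≤ ∑ i, volume (U i) := Finset.sum_le_sum (fun i _ => tsum_components_le (hUo i))
  have hL0 : 0 < L := by
    by_contra h
    rw [ENNReal.ofReal_of_nonpos (not_lt.mp h)] at hcon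
    exact not_lt_zero hcon
  have hreal : ∑ j ∈ T, (b j - a j) < L := by
    have h1 : ENNReal.ofReal (∑ j ∈ T, (b j - a j)) < ENNReal.ofReal L := by
      rw [ENNReal.ofReal_sum_of_nonneg (fun j _ => sub_nonneg.mpr (hle j))]
      exact lt_of_le_of_lt hsumT hUsum
    exact (ENNReal.ofReal_lt_ofReal_iff hL0).mp h1
  obtain ⟨η, hη⟩ : ∃ η : ℝ, η = (L - ∑ j ∈ T, (b j - a j)) / (2 * (T.card + 1)) := ⟨_, rfl⟩
  have hη0 : 0 < η := by
    rw [hη]
    exact div_pos (by linarith) (by positivity)
  have hη2 : 2 * (T.card : ℝ) * η + 2 * η = L - ∑ j ∈ T, (b j - a j) := by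
    rw [hη]
    field_simp
  obtain ⟨x, hxK, hx⟩ := plank_chord D hD hK hne hch (fun j : T => u j.1.1) (fun j => hu _)
    (fun j : T => (b j.1 - a j.1) / 2 + η) (fun j : T => (a j.1 + b j.1) / 2)
    (fun j => by have := hle j.1; linarith) (by
      rw [Finset.sum_add_distrib, Finset.sum_const, Finset.card_univ, Fintype.card_coe,
        ← Finset.sum_div, Finset.sum_coe_sort T (fun j => b j - a j), nsmul_eq_mul]
      linarith)
  obtain ⟨j, hjT, hxj⟩ := mem_iUnion₂.mp (hT hxK)
  have h1 := hab j hxj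
  have h2 := hx ⟨j, hjT⟩
  have h3 : |inner ℝ x (u j.1) - (a j + b j) / 2| ≤ (b j - a j) / 2 := by
    rw [abs_le]
    constructor <;> linarith [h1.1, h1.2]
  simp only at h2
  linarith

/-- Widths give chords: a flat compact convex set (lying in a hyperplane orthogonal to `n`)
whose width in every unit direction orthogonal to `n` is at least `W` has a chord of length `W`
in every such direction. -/
theorem chord_of_width [CompleteSpace E] {n : E} (hn : ‖n‖ = 1) {K : Set E} (hK : Convex ℝ K)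
    (hKc : IsCompact K) (hne : K.Nonempty)
    (hflat : ∀ p ∈ K, ∀ q ∈ K, inner ℝ (q - p) n = 0) {W : ℝ} (hW : 0 ≤ W)
    (hwidth : ∀ θ : E, ‖θ‖ = 1 → inner ℝ θ n = 0 → ∃ p ∈ K, ∃ q ∈ K, W ≤ inner ℝ (q - p) θ) :
    Chord {v | ‖v‖ = 1 ∧ inner ℝ v n = 0} K W := by
  rintro v ⟨hv1, hvn⟩
  by_contra hcon
  have hnot : W • v ∉ K - K := by
    rintro ⟨q, hq, p, hp, hqp⟩
    apply hcon
    refine ⟨p, hp, ?_⟩
    have hqp' : q - p = W • v := hqp
    have e : p + W • v = q := by
      rw [← hqp']
      abel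
    rw [e]
    exact hq
  have hcl : IsClosed (K - K) := by
    rw [sub_eq_add_neg]
    exact (hKc.add hKc.neg).isClosed
  obtain ⟨f, c, hf, hc⟩ := geometric_hahn_banach_closed_point (hK.sub hK) hcl hnot
  obtain ⟨p₀, hp₀⟩ := hne
  have hc0 : 0 < c := by
    have h := hf (p₀ - p₀) (Set.sub_mem_sub hp₀ hp₀)
    rwa [sub_self, map_zero] at h
  obtain ⟨z, hz⟩ : ∃ z : E, ∀ x, inner ℝ z x = f x :=
    ⟨(InnerProductSpace.toDual ℝ E).symm f, fun x => InnerProductSpace.toDual_symm_apply⟩
  obtain ⟨z', hz'⟩ : ∃ z' : E, z' = z - (inner ℝ z n) • n := ⟨_, rfl⟩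
  have hz'n : inner ℝ z' n = 0 := by
    rw [hz', inner_sub_left, real_inner_smul_left, real_inner_self_eq_norm_sq, hn]
    simp
  have hz'x : ∀ x : E, inner ℝ x n = 0 → inner ℝ z' x = inner ℝ z x := by
    intro x hx
    rw [hz', inner_sub_left, real_inner_smul_left, real_inner_comm x n, hx]
    simp
  have hfv : c < W * inner ℝ z' v := by
    rw [hz'x v hvn, hz, ← smul_eq_mul, ← map_smul]
    exact hc
  have hz'0 : z' ≠ 0 := by
    rintro h0
    rw [h0, inner_zero_left, mul_zero] at hfv
    linarith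
  have hnz : 0 < ‖z'‖ := norm_pos_iff.mpr hz'0
  obtain ⟨p, hp, q, hq, hpq⟩ := hwidth (‖z'‖⁻¹ • z')
    (by rw [norm_smul, norm_inv, norm_norm, inv_mul_cancel₀ hnz.ne'])
    (by rw [real_inner_smul_left, hz'n, mul_zero])
  have h1 : inner ℝ (q - p) z' = f (q - p) := by
    rw [real_inner_comm, hz'x _ (hflat p hp q hq), hz]
  have h2 : f (q - p) < c := hf _ (Set.sub_mem_sub hq hp)
  have h3 : inner ℝ z' v ≤ ‖z'‖ := by
    have h := real_inner_le_norm z' v
    rwa [hv1, mul_one] at h
  rw [real_inner_smul_right, h1] at hpq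
  have h4 : W * ‖z'‖ ≤ f (q - p) := by
    rw [← div_eq_inv_mul, le_div_iff₀ hnz] at hpq
    exact hpq
  nlinarith [mul_le_mul_of_nonneg_left h3 hW]

end Vale.Agent.Lib.BangPlank
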