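import Mathlib
import Vale.Agent.Lib.BangPlank

namespace Vale.Agent.Lib.BangDir

open Set MeasureTheory Vale.Agent.Lib.BangPlank

universe u

variable {E : Type*} [NormedAddCommGroup E] [InnerProductSpace ℝ E]

/-- `K` has, for every index `i`, a chord of length `c * ℓ i` in the direction `ν i`. -/
def ChordI {ι : Type*} (ν : ι → E) (ℓ : ι → ℝ) (K : Set E) (c : ℝ) : Prop :=
  ∀ i, ∃ p, p ∈ K ∧ p + (c * ℓ i) • ν i ∈ K

theorem chordI_shrink {ι : Type*} {ν : ι → E} {ℓ : ι → ℝ} {K : Set E} (hK : Convex ℝ K)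
    {c w : ℝ} (hch : ChordI ν ℓ K c) (k : ι) (hℓ : 0 < ℓ k) (hw : 0 ≤ w)
    (hwL : 2 * w < c * ℓ k) :
    ChordI ν ℓ {x | x + w • ν k ∈ K ∧ x - w • ν k ∈ K} (c - 2 * w / ℓ k) := by
  obtain ⟨a, ha, hb⟩ := hch k
  intro i
  obtain ⟨p, hp, hq⟩ := hch i
  have hL : 0 < c * ℓ k := by linarith
  have hc0 : 0 < c := by
    by_contra h
    have h2 : c * ℓ k ≤ 0 := mul_nonpos_of_nonpos_of_nonneg (not_lt.mp h) hℓ.le
    linarith
  obtain ⟨lam, hlam⟩ : ∃ lam : ℝ, lam = 2 * w / (c * ℓ k) := ⟨_, rfl⟩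
  have hlam0 : 0 ≤ lam := by rw [hlam]; positivity
  have hlam1 : lam ≤ 1 := by rw [hlam]; exact (div_le_one hL).mpr hwL.le
  have hwl : w = lam * (c * ℓ k) / 2 := by rw [hlam]; field_simp
  have hcc : (c - 2 * w / ℓ k) * ℓ i = (1 - lam) * (c * ℓ i) := by
    rw [hlam]
    field_simp
  have h1 : (1 - lam) + lam = 1 := by ring
  refine ⟨(1 - lam) • p + lam • (a + ((c * ℓ k) / 2) • ν k), ⟨?_, ?_⟩, ⟨?_, ?_⟩⟩
  · have e : (1 - lam) • p + lam • (a + ((c * ℓ k) / 2) • ν k) + w • ν k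
        = (1 - lam) • p + lam • (a + (c * ℓ k) • ν k) := by
      rw [hwl]
      module
    rw [e]
    exact hK hp hb (by linarith) hlam0 h1
  · have e : (1 - lam) • p + lam • (a + ((c * ℓ k) / 2) • ν k) - w • ν k
        = (1 - lam) • p + lam • a := by
      rw [hwl]
      module
    rw [e]
    exact hK hp ha (by linarith) hlam0 h1
  · have e : (1 - lam) • p + lam • (a + ((c * ℓ k) / 2) • ν k)
          + ((c - 2 * w / ℓ k) * ℓ i) • ν i + w • ν k
        = (1 - lam) • (p + (c * ℓ i) • ν i) + lam • (a + (c * ℓ k) • ν k) := by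
      rw [hcc, hwl]
      module
    rw [e]
    exact hK hq hb (by linarith) hlam0 h1
  · have e : (1 - lam) • p + lam • (a + ((c * ℓ k) / 2) • ν k)
          + ((c - 2 * w / ℓ k) * ℓ i) • ν i - w • ν k
        = (1 - lam) • (p + (c * ℓ i) • ν i) + lam • a := by
      rw [hcc, hwl]
      module
    rw [e]
    exact hK hq ha (by linarith) hlam0 h1

theorem exists_translateI {ι J : Type*} [DecidableEq J] (ν : ι → E) (ℓ : ι → ℝ)
    (hℓ : ∀ i, 0 < ℓ i) (idx : J → ι) (w : J → ℝ) (hw : ∀ j, 0 ≤ w j) (s : Finset J) :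
    ∀ (K : Set E) (c : ℝ), Convex ℝ K → K.Nonempty → ChordI ν ℓ K c →
      2 * ∑ j ∈ s, w j / ℓ (idx j) < c →
      ∃ x₀, ∀ ε : J → ℝ, (∀ j, ε j = 1 ∨ ε j = -1) →
        x₀ + ∑ j ∈ s, ε j • w j • ν (idx j) ∈ K := by
  induction s using Finset.induction_on with
  | empty =>
    intro K c hK hne hch hL
    obtain ⟨x₀, hx₀⟩ := hne
    exact ⟨x₀, fun ε _ => by simpa using hx₀⟩
  | insert j s hj ih =>
    intro K c hK hne hch hL
    rw [Finset.sum_insert hj] at hL
    have hs0 : 0 ≤ ∑ k ∈ s, w k / ℓ (idx k) :=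
      Finset.sum_nonneg (fun k _ => div_nonneg (hw k) (hℓ _).le)
    have hwj : 2 * w j < c * ℓ (idx j) := by
      have h1 : 2 * (w j / ℓ (idx j)) < c := by linarith
      have h2 : 2 * (w j / ℓ (idx j)) = 2 * w j / ℓ (idx j) := by ring
      rw [h2, div_lt_iff₀ (hℓ _)] at h1
      exact h1
    have hch' := chordI_shrink hK hch (idx j) (hℓ _) (hw j) hwj
    have hne' : ({x | x + w j • ν (idx j) ∈ K ∧ x - w j • ν (idx j) ∈ K}).Nonempty := by
      obtain ⟨p, hp, _⟩ := hch' (idx j)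
      exact ⟨p, hp⟩
    obtain ⟨x₀, hx₀⟩ := ih _ (c - 2 * w j / ℓ (idx j))
      (shrink_convex hK (w j) (ν (idx j))) hne' hch' (by
        have h2 : 2 * (w j / ℓ (idx j)) = 2 * w j / ℓ (idx j) := by ring
        linarith)
    refine ⟨x₀, fun ε hε => ?_⟩
    rw [Finset.sum_insert hj]
    have h := hx₀ ε hε
    rcases hε j with h1 | h1
    · have e : x₀ + (ε j • w j • ν (idx j) + ∑ k ∈ s, ε k • w k • ν (idx k))
          = x₀ + ∑ k ∈ s, ε k • w k • ν (idx k) + w j • ν (idx j) := by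
        rw [h1, one_smul]
        abel
      rw [e]
      exact h.1
    · have e : x₀ + (ε j • w j • ν (idx j) + ∑ k ∈ s, ε k • w k • ν (idx k))
          = x₀ + ∑ k ∈ s, ε k • w k • ν (idx k) - w j • ν (idx j) := by
        rw [h1, neg_smul, one_smul]
        abel
      rw [e]
      exact h.2

/-- Bang's plank theorem in chord form with direction-dependent chord lengths: if the convex
set `K` has a chord of length `c * ℓ i` in the direction `ν i` for every `i`, then `K` is not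
covered by open planks with normals `ν (idx j)` and half-widths `w j` such that
`2 * ∑ j, w j / ℓ (idx j) < c`. -/
theorem plankI {ι J : Type*} [Fintype J] (ν : ι → E) (hν : ∀ i, ‖ν i‖ = 1) (ℓ : ι → ℝ)
    (hℓ : ∀ i, 0 < ℓ i) {K : Set E} (hK : Convex ℝ K) (hne : K.Nonempty) {c : ℝ}
    (hch : ChordI ν ℓ K c) (idx : J → ι) (w m : J → ℝ) (hw : ∀ j, 0 ≤ w j)
    (hL : 2 * ∑ j, w j / ℓ (idx j) < c) :
    ∃ x ∈ K, ∀ j, w j ≤ |inner ℝ x (ν (idx j)) - m j| := by
  classical
  obtain ⟨x₀, hx₀⟩ := exists_translateI ν ℓ hℓ idx w hw Finset.univ K c hK hne hch hL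
  obtain ⟨ε, hε, hb⟩ := bang_lemma (fun j => ν (idx j)) (fun j => hν _) w
    (fun j => m j - inner ℝ x₀ (ν (idx j))) hw
  refine ⟨_, hx₀ ε hε, fun j => ?_⟩
  have h := hb j
  rw [inner_add_left]
  have e : inner ℝ x₀ (ν (idx j)) + inner ℝ (∑ k, ε k • w k • ν (idx k)) (ν (idx j)) - m j
      = inner ℝ (∑ k, ε k • w k • ν (idx k)) (ν (idx j)) - (m j - inner ℝ x₀ (ν (idx j))) := by
    ring
  rw [e]
  exact h

/-- From finitely many planks to generalized planks `{x | ⟪x, u i⟫ ∈ S i}` with arbitrary sets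
`S i` of reals: if no finite family of open planks with normals among the `u i` and total
width less than `L` covers the compact set `K`, then the total (outer) measure of sets `S i`
whose generalized planks cover `K` is at least `L`. -/
theorem sets_of_planks {ι : Type u} [Fintype ι] {K : Set E} (hKc : IsCompact K) (u : ι → E)
    {L : ℝ}
    (H : ∀ (J : Type u) [Fintype J] (idx : J → ι) (w m : J → ℝ), (∀ j, 0 ≤ w j) →
      2 * ∑ j, w j < L → ∃ x ∈ K, ∀ j, w j ≤ |inner ℝ x (u (idx j)) - m j|)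
    (S : ι → Set ℝ) (hcov : ∀ x ∈ K, ∃ i, inner ℝ x (u i) ∈ S i) :
    ENNReal.ofReal L ≤ ∑ i, volume (S i) := by
  by_contra hcon
  rw [not_le] at hcon
  obtain ⟨r, hr0, hr⟩ := ENNReal.lt_iff_exists_add_pos_lt.mp hcon
  have hSfin : ∀ i, volume (S i) ≠ ⊤ := by
    intro i
    have h1 : volume (S i) ≤ ∑ j, volume (S j) :=
      Finset.single_le_sum (f := fun j => volume (S j)) (fun _ _ => bot_le)
        (Finset.mem_univ i)
    exact ne_top_of_le_ne_top (ne_top_of_lt hcon) h1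
  obtain ⟨δ, hδ0, hδ⟩ := ENNReal.exists_pos_sum_of_countable (ε := (r : ENNReal))
    (by simpa using hr0.ne') ι
  rw [tsum_fintype] at hδ
  have hU : ∀ i, ∃ U : Set ℝ, S i ⊆ U ∧ IsOpen U ∧ volume U < volume (S i) + δ i := by
    intro i
    obtain ⟨U, hSU, hUo, hUlt⟩ := (S i).exists_isOpen_lt_add (hSfin i)
      (ε := (δ i : ENNReal)) (by simpa using (hδ0 i).ne')
    exact ⟨U, hSU, hUo, hUlt⟩
  choose U hSU hUo hUlt using hU
  have hUsum : ∑ i, volume (U i) < ENNReal.ofReal L := by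
    calc ∑ i, volume (U i) ≤ ∑ i, (volume (S i) + δ i) :=
          Finset.sum_le_sum (fun i _ => (hUlt i).le)
      _ = ∑ i, volume (S i) + ∑ i, (δ i : ENNReal) := Finset.sum_add_distrib
      _ ≤ ∑ i, volume (S i) + r := by gcongr
      _ < ENNReal.ofReal L := hr
  have hUfin : ∀ i, volume (U i) ≠ ⊤ := by
    intro i
    have h1 : volume (U i) ≤ ∑ j, volume (U j) :=
      Finset.single_le_sum (f := fun j => volume (U j)) (fun _ _ => bot_le)
        (Finset.mem_univ i)
    exact ne_top_of_le_ne_top (ne_top_of_lt hUsum) h1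
  have hO : ∀ j : (Σ i : ι, ordConnectedSection (U i)),
      IsOpen {x : E | inner ℝ x (u j.1) ∈ ordConnectedComponent (U j.1) (j.2 : ℝ)} := by
    intro j
    exact (component_open (hUo j.1) _).preimage (by fun_prop)
  have hsub : K ⊆ ⋃ j : (Σ i : ι, ordConnectedSection (U i)),
      {x : E | inner ℝ x (u j.1) ∈ ordConnectedComponent (U j.1) (j.2 : ℝ)} := by
    intro x hx
    obtain ⟨i, hi⟩ := hcov x hx
    have hiU : inner ℝ x (u i) ∈ U i := hSU i hi
    refine mem_iUnion.mpr ⟨⟨i, ⟨ordConnectedProj (U i) ⟨_, hiU⟩, mem_range_self _⟩⟩, ?_⟩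
    show inner ℝ x (u i) ∈ ordConnectedComponent (U i) (ordConnectedProj (U i) ⟨_, hiU⟩)
    rw [ordConnectedComponent_ordConnectedProj]
    exact self_mem_ordConnectedComponent.mpr hiU
  obtain ⟨T, hT⟩ := hKc.elim_finite_subcover _ hO hsub
  have hI : ∀ j : (Σ i : ι, ordConnectedSection (U i)), ∃ a b : ℝ,
      ordConnectedComponent (U j.1) (j.2 : ℝ) ⊆ Icc a b ∧
      ENNReal.ofReal (b - a) ≤ volume (ordConnectedComponent (U j.1) (j.2 : ℝ)) :=
    fun j => component_interval (hUfin j.1) (ordConnectedSection_subset j.2.2)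
  choose a b hab hvol using hI
  have hle : ∀ j, a j ≤ b j := by
    intro j
    have h1 := hab j (self_mem_ordConnectedComponent.mpr (ordConnectedSection_subset j.2.2))
    exact h1.1.trans h1.2
  have hsumT : ∑ j ∈ T, ENNReal.ofReal (b j - a j) ≤ ∑ i, volume (U i) := by
    calc ∑ j ∈ T, ENNReal.ofReal (b j - a j)
        ≤ ∑ j ∈ T, volume (ordConnectedComponent (U j.1) (j.2 : ℝ)) :=
          Finset.sum_le_sum (fun j _ => hvol j)
      _ ≤ ∑' j : (Σ i : ι, ordConnectedSection (U i)),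
            volume (ordConnectedComponent (U j.1) (j.2 : ℝ)) := ENNReal.sum_le_tsum T
      _ = ∑' i, ∑' y : ordConnectedSection (U i),
            volume (ordConnectedComponent (U i) (y : ℝ)) :=
          ENNReal.tsum_sigma (fun i (y : ordConnectedSection (U i)) =>
            volume (ordConnectedComponent (U i) (y : ℝ)))
      _ = ∑ i, ∑' y : ordConnectedSection (U i),
            volume (ordConnectedComponent (U i) (y : ℝ)) := tsum_fintype _
      _ ≤ ∑ i, volume (U i) := Finset.sum_le_sum (fun i _ => tsum_components_le (hUo i))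
  have hL0 : 0 < L := by
    by_contra h
    rw [ENNReal.ofReal_of_nonpos (not_lt.mp h)] at hcon
    exact not_lt_zero hcon
  have hreal : ∑ j ∈ T, (b j - a j) < L := by
    have h1 : ENNReal.ofReal (∑ j ∈ T, (b j - a j)) < ENNReal.ofReal L := by
      rw [ENNReal.ofReal_sum_of_nonneg (fun j _ => sub_nonneg.mpr (hle j))]
      exact lt_of_le_of_lt hsumT hUsum
    exact (ENNReal.ofReal_lt_ofReal_iff hL0).mp h1
  obtain ⟨η, hη⟩ : ∃ η : ℝ, η = (L - ∑ j ∈ T, (b j - a j)) / (2 * (T.card + 1)) := ⟨_, rfl⟩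
  have hη0 : 0 < η := by
    rw [hη]
    exact div_pos (by linarith) (by positivity)
  have hη2 : 2 * (T.card : ℝ) * η + 2 * η = L - ∑ j ∈ T, (b j - a j) := by
    rw [hη]
    field_simp
  obtain ⟨x, hxK, hx⟩ := H T (fun j : T => j.1.1)
    (fun j : T => (b j.1 - a j.1) / 2 + η) (fun j : T => (a j.1 + b j.1) / 2)
    (fun j => by have := hle j.1; linarith) (by
      rw [Finset.sum_add_distrib, Finset.sum_const, Finset.card_univ, Fintype.card_coe,
        ← Finset.sum_div, Finset.sum_coe_sort T (fun j => b j - a j), nsmul_eq_mul]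
      linarith)
  obtain ⟨j, hjT, hxj⟩ := mem_iUnion₂.mp (hT hxK)
  have h1 := hab j hxj
  have h2 := hx ⟨j, hjT⟩
  have h3 : |inner ℝ x (u j.1) - (a j + b j) / 2| ≤ (b j - a j) / 2 := by
    rw [abs_le]
    constructor <;> linarith [h1.1, h1.2]
  simp only at h2
  linarith

/-- Generalized planks with direction-dependent chord lengths: if the compact convex set `K` has
a chord of length `c * ℓ i` in the direction `ν i` for every `i` and is covered by the sets
`{x | ⟪x, ν i⟫ ∈ S i}`, then `c ≤ ∑ i, |S i| / ℓ i`. -/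
theorem plank_setsI {ι : Type u} [Fintype ι] (ν : ι → E) (hν : ∀ i, ‖ν i‖ = 1) (ℓ : ι → ℝ)
    (hℓ : ∀ i, 0 < ℓ i) {K : Set E} (hK : Convex ℝ K) (hKc : IsCompact K) (hne : K.Nonempty)
    {c : ℝ} (hch : ChordI ν ℓ K c) (S : ι → Set ℝ)
    (hcov : ∀ x ∈ K, ∃ i, inner ℝ x (ν i) ∈ S i) :
    ENNReal.ofReal c ≤ ∑ i, volume (S i) / ENNReal.ofReal (ℓ i) := by
  have h := sets_of_planks hKc (fun i => (ℓ i)⁻¹ • ν i) (L := c)
    (by
      intro J _ idx w m hw hsum
      obtain ⟨x, hxK, hx⟩ := plankI ν hν ℓ hℓ hK hne hch idx (fun j => w j * ℓ (idx j))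
        (fun j => m j * ℓ (idx j)) (fun j => mul_nonneg (hw j) (hℓ _).le) (by
          have e : ∀ j, w j * ℓ (idx j) / ℓ (idx j) = w j := fun j => by
            rw [mul_div_assoc, div_self (hℓ _).ne', mul_one]
          simp only [e]
          exact hsum)
      refine ⟨x, hxK, fun j => ?_⟩
      have h1 := hx j
      rw [inner_smul_right]
      have e : (ℓ (idx j))⁻¹ * inner ℝ x (ν (idx j)) - m j
          = (inner ℝ x (ν (idx j)) - m j * ℓ (idx j)) / ℓ (idx j) := by
        rw [sub_div, mul_div_assoc, div_self (hℓ (idx j)).ne', mul_one, inv_mul_eq_div]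
      rw [e, abs_div, abs_of_pos (hℓ (idx j)), le_div_iff₀ (hℓ _)]
      exact h1)
    (fun i => (fun s : ℝ => s * ℓ i) ⁻¹' S i)
    (by
      intro x hx
      obtain ⟨i, hi⟩ := hcov x hx
      refine ⟨i, ?_⟩
      rw [mem_preimage, inner_smul_right]
      have e : (ℓ i)⁻¹ * inner ℝ x (ν i) * ℓ i = inner ℝ x (ν i) := by
        rw [mul_comm ((ℓ i)⁻¹) _, mul_assoc, inv_mul_cancel₀ (hℓ i).ne', mul_one]
      rw [e]
      exact hi)
  refine h.trans (le_of_eq (Finset.sum_congr rfl (fun i _ => ?_)))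
  rw [Real.volume_preimage_mul_right (hℓ i).ne', abs_of_pos (inv_pos.mpr (hℓ i)),
    ENNReal.ofReal_inv_of_pos (hℓ i), ENNReal.div_eq_inv_mul]

end Vale.Agent.Lib.BangDir
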