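import Mathlib
import Vale.Agent.Lib.BangPlank
import Vale.Agent.Lib.BangDir

namespace Vale.Agent.Lib.BallPlank

open Set MeasureTheory Vale.Agent.Lib.BangPlank Vale.Agent.Lib.BangDir

universe u

/-- Bang's lemma for a symmetric matrix. -/
theorem bang_sym {J : Type*} [Fintype J] (G : J → J → ℝ) (hsym : ∀ i j, G i j = G j i)
    (t μ : J → ℝ) (ht : ∀ i, 0 ≤ t i) :
    ∃ ε : J → ℝ, (∀ i, ε i = 1 ∨ ε i = -1) ∧
      ∀ i, G i i * t i ≤ |∑ j, G i j * (ε j * t j) - μ i| := by
  classical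
  obtain ⟨S, hS⟩ : ∃ S : Finset (J → ℝ), S = Fintype.piFinset (fun _ => ({1, -1} : Finset ℝ)) :=
    ⟨_, rfl⟩
  have hSne : S.Nonempty := ⟨fun _ => 1, by rw [hS, Fintype.mem_piFinset]; intro _; simp⟩
  obtain ⟨ε, hεS, hmax⟩ := S.exists_max_image
    (fun ε : J → ℝ => ∑ i, ε i • (t i * ∑ j, ε j • (G i j * t j))
      - 2 * ∑ i, ε i • (t i * μ i)) hSne
  have hε : ∀ i, ε i = 1 ∨ ε i = -1 := by
    intro i
    have h := Fintype.mem_piFinset.mp (hS ▸ hεS) i
    simpa using h
  refine ⟨ε, hε, ?_⟩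
  intro k
  have hflipS : (fun j => if j = k then -ε k else ε j) ∈ S := by
    rw [hS, Fintype.mem_piFinset]
    intro j
    by_cases hj : j = k
    · subst hj
      rcases hε j with h | h <;> simp [h]
    · rw [if_neg hj]
      exact Fintype.mem_piFinset.mp (hS ▸ hεS) j
  have h1 := hmax _ hflipS
  beta_reduce at h1
  have hin : ∀ i, ∑ j, (if j = k then -ε k else ε j) • (G i j * t j)
      = ∑ j, ε j • (G i j * t j) - (2 * ε k) • (G i k * t k) :=
    fun i => sum_flip (fun j => ε j) (fun j => G i j * t j) k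
  simp only [hin] at h1
  rw [sum_flip (fun j => ε j)
      (fun i => t i * (∑ j, ε j • (G i j * t j) - (2 * ε k) • (G i k * t k))) k,
    sum_flip (fun j => ε j) (fun i => t i * μ i) k] at h1
  simp only [smul_eq_mul] at h1
  obtain ⟨y, hy⟩ : ∃ y : ℝ, y = ∑ j, ε j * (G k j * t j) := ⟨_, rfl⟩
  have hexp : ∑ i, ε i * (t i * (∑ j, ε j * (G i j * t j) - 2 * ε k * (G i k * t k)))
      = ∑ i, ε i * (t i * ∑ j, ε j * (G i j * t j)) - 2 * ε k * t k * y := by
    rw [hy]
    simp only [mul_sub, Finset.sum_sub_distrib]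
    congr 1
    rw [Finset.mul_sum]
    refine Finset.sum_congr rfl (fun i _ => ?_)
    rw [hsym i k]
    ring
  rw [hexp, ← hy] at h1
  obtain ⟨A, hA⟩ : ∃ A : ℝ, A = ∑ i, ε i * (t i * ∑ j, ε j * (G i j * t j)) := ⟨_, rfl⟩
  obtain ⟨Mu, hMu⟩ : ∃ Mu : ℝ, Mu = ∑ i, ε i * (t i * μ i) := ⟨_, rfl⟩
  rw [← hA, ← hMu] at h1
  have hsq : ε k ^ 2 = 1 := by rcases hε k with h | h <;> simp [h]
  have e : 2 * ε k * (t k * (y - 2 * ε k * (G k k * t k)))
      = 2 * ε k * t k * y - 4 * (ε k ^ 2) * (G k k * t k ^ 2) := by ring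
  rw [e, hsq] at h1
  have key : G k k * t k ^ 2 ≤ ε k * t k * (y - μ k) := by linarith
  have hy' : ∑ j, G k j * (ε j * t j) = y := by
    rw [hy]
    exact Finset.sum_congr rfl (fun j _ => by ring)
  rw [hy']
  rcases (ht k).eq_or_lt with h0 | hpos
  · rw [← h0, mul_zero]
    exact abs_nonneg _
  · have h2 : G k k * t k ≤ ε k * (y - μ k) := by
      have h3 : (G k k * t k) * t k ≤ (ε k * (y - μ k)) * t k := by nlinarith
      exact le_of_mul_le_mul_right h3 hpos
    rcases hε k with h | h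
    · rw [h, one_mul] at h2
      exact h2.trans (le_abs_self _)
    · rw [h] at h2
      exact le_trans (by linarith) (neg_le_abs _)

/-- First-order condition for a local minimum along a rotation. -/
theorem crit {P Q R T α β : ℝ} (hP : 0 < P) (hR : 0 < R)
    (hmin : ∀ᶠ φ in nhds (0 : ℝ), α / P ^ 2 + β / R ^ 2
      ≤ α / (Real.cos φ * P + Real.sin φ * Q) ^ 2
        + β / (Real.cos φ * R - Real.sin φ * T) ^ 2) :
    α * Q / P ^ 3 = β * T / R ^ 3 := by
  have h1 : HasDerivAt (fun φ : ℝ => Real.cos φ * P + Real.sin φ * Q) Q 0 := by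
    have ha := (Real.hasDerivAt_cos 0).mul_const P
    have hb := (Real.hasDerivAt_sin 0).mul_const Q
    have hc : HasDerivAt (fun φ : ℝ => Real.cos φ * P + Real.sin φ * Q)
        (-Real.sin 0 * P + Real.cos 0 * Q) 0 := ha.add hb
    have e : -Real.sin 0 * P + Real.cos 0 * Q = Q := by simp
    rw [e] at hc
    exact hc
  have h2 : HasDerivAt (fun φ : ℝ => Real.cos φ * R - Real.sin φ * T) (-T) 0 := by
    have ha := (Real.hasDerivAt_cos 0).mul_const R
    have hb := (Real.hasDerivAt_sin 0).mul_const T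
    have hc : HasDerivAt (fun φ : ℝ => Real.cos φ * R - Real.sin φ * T)
        (-Real.sin 0 * R - Real.cos 0 * T) 0 := ha.sub hb
    have e : -Real.sin 0 * R - Real.cos 0 * T = -T := by simp
    rw [e] at hc
    exact hc
  have h10 : Real.cos 0 * P + Real.sin 0 * Q = P := by simp
  have h20 : Real.cos 0 * R - Real.sin 0 * T = R := by simp
  have h3 : HasDerivAt (fun φ : ℝ => α / (Real.cos φ * P + Real.sin φ * Q) ^ 2)
      (-(2 * α * Q) / P ^ 3) 0 := by
    have hsq : HasDerivAt (fun φ : ℝ => (Real.cos φ * P + Real.sin φ * Q) ^ 2)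
        (((2 : ℕ) : ℝ) * (Real.cos 0 * P + Real.sin 0 * Q) ^ (2 - 1) * Q) 0 := h1.pow 2
    have hne : (Real.cos 0 * P + Real.sin 0 * Q) ^ 2 ≠ 0 := by rw [h10]; positivity
    have hd : HasDerivAt (fun φ : ℝ => α / (Real.cos φ * P + Real.sin φ * Q) ^ 2)
        ((0 * (Real.cos 0 * P + Real.sin 0 * Q) ^ 2
          - α * (((2 : ℕ) : ℝ) * (Real.cos 0 * P + Real.sin 0 * Q) ^ (2 - 1) * Q))
          / ((Real.cos 0 * P + Real.sin 0 * Q) ^ 2) ^ 2) 0 :=
      (hasDerivAt_const (0 : ℝ) α).fun_div hsq hne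
    rw [h10] at hd
    convert hd using 1
    field_simp
    push_cast
    ring
  have h4 : HasDerivAt (fun φ : ℝ => β / (Real.cos φ * R - Real.sin φ * T) ^ 2)
      (2 * β * T / R ^ 3) 0 := by
    have hsq : HasDerivAt (fun φ : ℝ => (Real.cos φ * R - Real.sin φ * T) ^ 2)
        (((2 : ℕ) : ℝ) * (Real.cos 0 * R - Real.sin 0 * T) ^ (2 - 1) * (-T)) 0 := h2.pow 2
    have hne : (Real.cos 0 * R - Real.sin 0 * T) ^ 2 ≠ 0 := by rw [h20]; positivity
    have hd : HasDerivAt (fun φ : ℝ => β / (Real.cos φ * R - Real.sin φ * T) ^ 2)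
        ((0 * (Real.cos 0 * R - Real.sin 0 * T) ^ 2
          - β * (((2 : ℕ) : ℝ) * (Real.cos 0 * R - Real.sin 0 * T) ^ (2 - 1) * (-T)))
          / ((Real.cos 0 * R - Real.sin 0 * T) ^ 2) ^ 2) 0 :=
      (hasDerivAt_const (0 : ℝ) β).fun_div hsq hne
    rw [h20] at hd
    convert hd using 1
    field_simp
    push_cast
    ring
  have hg : HasDerivAt (fun φ : ℝ => α / (Real.cos φ * P + Real.sin φ * Q) ^ 2
      + β / (Real.cos φ * R - Real.sin φ * T) ^ 2)
      (-(2 * α * Q) / P ^ 3 + 2 * β * T / R ^ 3) 0 := h3.add h4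
  have hlm : IsLocalMin (fun φ : ℝ => α / (Real.cos φ * P + Real.sin φ * Q) ^ 2
      + β / (Real.cos φ * R - Real.sin φ * T) ^ 2) 0 := by
    filter_upwards [hmin] with φ hφ
    simpa using hφ
  have h0 := hlm.hasDerivAt_eq_zero hg
  have hP3 : P ^ 3 ≠ 0 := by positivity
  have hR3 : R ^ 3 ≠ 0 := by positivity
  have e1 : -(2 * α * Q) / P ^ 3 = -2 * (α * Q / P ^ 3) := by ring
  have e2 : 2 * β * T / R ^ 3 = 2 * (β * T / R ^ 3) := by ring
  rw [e1, e2] at h0
  linarith

variable {H : Type*} [NormedAddCommGroup H] [InnerProductSpace ℝ H]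

/-- The rotation by the angle `φ` in the plane of two orthonormal vectors `fp`, `fq`. -/
noncomputable def rot (fp fq : H) (φ : ℝ) (x : H) : H :=
  x + ((Real.cos φ - 1) * inner ℝ x fp - Real.sin φ * inner ℝ x fq) • fp
    + ((Real.cos φ - 1) * inner ℝ x fq + Real.sin φ * inner ℝ x fp) • fq

theorem rot_inner {fp fq : H} (hp : ‖fp‖ = 1) (hq : ‖fq‖ = 1) (hpq : inner ℝ fp fq = 0)
    (φ : ℝ) (x y : H) : inner ℝ (rot fp fq φ x) (rot fp fq φ y) = inner ℝ x y := by
  have hpp : inner ℝ fp fp = (1 : ℝ) := by rw [real_inner_self_eq_norm_sq, hp]; norm_num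
  have hqq : inner ℝ fq fq = (1 : ℝ) := by rw [real_inner_self_eq_norm_sq, hq]; norm_num
  have hqp : inner ℝ fq fp = 0 := by rw [real_inner_comm]; exact hpq
  unfold rot
  simp only [inner_add_left, inner_add_right, real_inner_smul_left, real_inner_smul_right, hpp,
    hqq, hpq, hqp]
  rw [real_inner_comm y fp, real_inner_comm y fq]
  linear_combination (inner ℝ x fp * inner ℝ y fp + inner ℝ x fq * inner ℝ y fq)
    * Real.cos_sq_add_sin_sq φ

/-- The core of Ball's plank theorem, in vector form. -/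
theorem core_vec [FiniteDimensional ℝ H] {J : Type*} [Fintype J] (e b : J → H)
    (he : Orthonormal ℝ e) (w m : J → ℝ) (hw : ∀ i, 0 < w i) (hsum : ∑ i, w i ≤ 1)
    (hbe : ∀ i, inner ℝ (b i) (e i) = Real.sqrt (w i)) :
    ∃ v : H, ‖v‖ ≤ 1 ∧ ∀ i, w i ≤ |inner ℝ (b i) v - m i| := by
  classical
  have hw1 : ∀ i, w i ≤ 1 := fun i =>
    le_trans (Finset.single_le_sum (f := w) (fun j _ => (hw j).le) (Finset.mem_univ i)) hsum
  obtain ⟨C0, hC0⟩ : ∃ C0 : Set (J → H),
      C0 = {f | Orthonormal ℝ f ∧ ∀ i, w i / 2 ≤ inner ℝ (b i) (f i)} := ⟨_, rfl⟩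
  have hC0c : IsCompact C0 := by
    apply Metric.isCompact_of_isClosed_isBounded
    · have h1 : C0 = {f : J → H | ∀ j k, inner ℝ (f j) (f k) = if j = k then (1 : ℝ) else 0}
          ∩ {f | ∀ i, w i / 2 ≤ inner ℝ (b i) (f i)} := by
        rw [hC0]
        ext f
        simp only [Set.mem_ofPred_eq, Set.mem_inter_iff, orthonormal_iff_ite]
      rw [h1]
      refine IsClosed.inter ?_ ?_
      · simp only [Set.ofPred_forall]
        exact isClosed_iInter (fun j => isClosed_iInter (fun k =>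
          isClosed_eq (by fun_prop) continuous_const))
      · simp only [Set.ofPred_forall]
        exact isClosed_iInter (fun i => isClosed_le continuous_const (by fun_prop))
    · rw [isBounded_iff_forall_norm_le]
      refine ⟨1, fun f hf => ?_⟩
      rw [hC0] at hf
      rw [pi_norm_le_iff_of_nonneg zero_le_one]
      intro j
      rw [hf.1.1 j]
  have heC : e ∈ C0 := by
    rw [hC0]
    refine ⟨he, fun i => ?_⟩
    rw [hbe i]
    have h1 := Real.sq_sqrt (hw i).le
    have h2 := Real.sqrt_nonneg (w i)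
    have h3 : Real.sqrt (w i) ≤ 1 := by nlinarith [hw1 i]
    nlinarith [hw i]
  have hcont : ContinuousOn (fun f : J → H => ∑ i, w i ^ 2 / inner ℝ (b i) (f i) ^ 2) C0 := by
    refine continuousOn_finsetSum _ (fun i _ => ?_)
    refine ContinuousOn.div continuousOn_const (Continuous.continuousOn (by fun_prop)) ?_
    intro f hf
    rw [hC0] at hf
    have h1 := hf.2 i
    have h2 := hw i
    have h3 : 0 < inner ℝ (b i) (f i) := by linarith
    exact pow_ne_zero 2 h3.ne'
  obtain ⟨f, hfC, hfmin⟩ := hC0c.exists_isMinOn ⟨e, heC⟩ hcont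
  have hfmin' : ∀ g ∈ C0, ∑ i, w i ^ 2 / inner ℝ (b i) (f i) ^ 2
      ≤ ∑ i, w i ^ 2 / inner ℝ (b i) (g i) ^ 2 := fun g hg => isMinOn_iff.mp hfmin g hg
  have hfC' := hfC
  rw [hC0] at hfC'
  have hΦf : ∑ i, w i ^ 2 / inner ℝ (b i) (f i) ^ 2 ≤ 1 := by
    refine (hfmin' e heC).trans (le_trans (le_of_eq ?_) hsum)
    refine Finset.sum_congr rfl (fun i _ => ?_)
    rw [hbe i, Real.sq_sqrt (hw i).le, sq, mul_div_assoc, div_self (hw i).ne', mul_one]
  have hMpos : ∀ i, 0 < inner ℝ (b i) (f i) := fun i => by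
    have h1 := hfC'.2 i
    have h2 := hw i
    linarith
  have hMge : ∀ i, w i ≤ inner ℝ (b i) (f i) := by
    intro i
    have hM := hMpos i
    have h1 : w i ^ 2 / inner ℝ (b i) (f i) ^ 2 ≤ 1 :=
      le_trans (Finset.single_le_sum (f := fun i => w i ^ 2 / inner ℝ (b i) (f i) ^ 2)
        (fun j _ => by positivity) (Finset.mem_univ i)) hΦf
    rw [div_le_one (by positivity)] at h1
    by_contra h
    rw [not_le] at h
    nlinarith [hw i]
  have hfo := orthonormal_iff_ite.mp hfC'.1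
  have hsymG : ∀ p q, p ≠ q →
      w p ^ 2 * inner ℝ (b p) (f q) / inner ℝ (b p) (f p) ^ 3
        = w q ^ 2 * inner ℝ (b q) (f p) / inner ℝ (b q) (f q) ^ 3 := by
    intro p q hpq
    have hpp : ‖f p‖ = 1 := hfC'.1.1 p
    have hqq : ‖f q‖ = 1 := hfC'.1.1 q
    have hpq0 : inner ℝ (f p) (f q) = 0 := hfC'.1.2 hpq
    have hgO : ∀ φ, Orthonormal ℝ (fun k => rot (f p) (f q) φ (f k)) := by
      intro φ
      rw [orthonormal_iff_ite]
      intro j k
      rw [rot_inner hpp hqq hpq0]
      exact hfo j k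
    have hval : ∀ φ i, inner ℝ (b i) (rot (f p) (f q) φ (f i))
        = inner ℝ (b i) (f i)
          + ((Real.cos φ - 1) * inner ℝ (f i) (f p) - Real.sin φ * inner ℝ (f i) (f q))
            * inner ℝ (b i) (f p)
          + ((Real.cos φ - 1) * inner ℝ (f i) (f q) + Real.sin φ * inner ℝ (f i) (f p))
            * inner ℝ (b i) (f q) := by
      intro φ i
      unfold rot
      rw [inner_add_right, inner_add_right, real_inner_smul_right, real_inner_smul_right]
    have hvp : ∀ φ, inner ℝ (b p) (rot (f p) (f q) φ (f p))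
        = Real.cos φ * inner ℝ (b p) (f p) + Real.sin φ * inner ℝ (b p) (f q) := by
      intro φ
      rw [hval, hfo p p, hfo p q, if_pos rfl, if_neg hpq]
      ring
    have hvq : ∀ φ, inner ℝ (b q) (rot (f p) (f q) φ (f q))
        = Real.cos φ * inner ℝ (b q) (f q) - Real.sin φ * inner ℝ (b q) (f p) := by
      intro φ
      rw [hval, hfo q p, hfo q q, if_pos rfl, if_neg (Ne.symm hpq)]
      ring
    have hvo : ∀ φ i, i ≠ p → i ≠ q →
        inner ℝ (b i) (rot (f p) (f q) φ (f i)) = inner ℝ (b i) (f i) := by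
      intro φ i hip hiq
      rw [hval, hfo i p, hfo i q, if_neg hip, if_neg hiq]
      ring
    have hev : ∀ᶠ φ in nhds (0 : ℝ), (fun k => rot (f p) (f q) φ (f k)) ∈ C0 := by
      have hcp : ContinuousAt (fun φ : ℝ => Real.cos φ * inner ℝ (b p) (f p)
          + Real.sin φ * inner ℝ (b p) (f q)) 0 := by fun_prop
      have hcq : ContinuousAt (fun φ : ℝ => Real.cos φ * inner ℝ (b q) (f q)
          - Real.sin φ * inner ℝ (b q) (f p)) 0 := by fun_prop
      have hp0 : w p / 2 < Real.cos 0 * inner ℝ (b p) (f p)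
          + Real.sin 0 * inner ℝ (b p) (f q) := by
        rw [Real.cos_zero, Real.sin_zero, one_mul, zero_mul, add_zero]
        linarith [hMge p, hw p]
      have hq0 : w q / 2 < Real.cos 0 * inner ℝ (b q) (f q)
          - Real.sin 0 * inner ℝ (b q) (f p) := by
        rw [Real.cos_zero, Real.sin_zero, one_mul, zero_mul, sub_zero]
        linarith [hMge q, hw q]
      filter_upwards [hcp.eventually (lt_mem_nhds hp0), hcq.eventually (lt_mem_nhds hq0)]
        with φ h1 h2
      rw [hC0]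
      refine ⟨hgO φ, fun i => ?_⟩
      by_cases hip : i = p
      · subst hip
        rw [hvp]
        exact h1.le
      · by_cases hiq : i = q
        · subst hiq
          rw [hvq]
          exact h2.le
        · rw [hvo φ i hip hiq]
          linarith [hMge i, hw i]
    have hmin : ∀ᶠ φ in nhds (0 : ℝ),
        w p ^ 2 / inner ℝ (b p) (f p) ^ 2 + w q ^ 2 / inner ℝ (b q) (f q) ^ 2
          ≤ w p ^ 2 / (Real.cos φ * inner ℝ (b p) (f p) + Real.sin φ * inner ℝ (b p) (f q)) ^ 2
            + w q ^ 2 / (Real.cos φ * inner ℝ (b q) (f q)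
              - Real.sin φ * inner ℝ (b q) (f p)) ^ 2 := by
      filter_upwards [hev] with φ hφ
      have h := hfmin' _ hφ
      beta_reduce at h
      have hdiff : ∑ i, (w i ^ 2 / inner ℝ (b i) (rot (f p) (f q) φ (f i)) ^ 2
            - w i ^ 2 / inner ℝ (b i) (f i) ^ 2)
          = (w p ^ 2 / (Real.cos φ * inner ℝ (b p) (f p)
              + Real.sin φ * inner ℝ (b p) (f q)) ^ 2 - w p ^ 2 / inner ℝ (b p) (f p) ^ 2)
            + (w q ^ 2 / (Real.cos φ * inner ℝ (b q) (f q)
              - Real.sin φ * inner ℝ (b q) (f p)) ^ 2 - w q ^ 2 / inner ℝ (b q) (f q) ^ 2) := by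
        rw [Finset.sum_eq_add p q hpq]
        · rw [hvp, hvq]
        · intro i _ hi
          rw [hvo φ i hi.1 hi.2, sub_self]
        · intro h
          exact absurd (Finset.mem_univ p) h
        · intro h
          exact absurd (Finset.mem_univ q) h
      rw [Finset.sum_sub_distrib] at hdiff
      linarith
    exact crit (hMpos p) (hMpos q) hmin
  obtain ⟨ε, hε, hb⟩ := bang_sym
    (fun i j => w i ^ 2 * inner ℝ (b i) (f j) / inner ℝ (b i) (f i) ^ 3)
    (fun i j => by
      by_cases hij : i = j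
      · subst hij
        rfl
      · exact hsymG i j hij)
    (fun i => w i / inner ℝ (b i) (f i))
    (fun i => w i ^ 2 * m i / inner ℝ (b i) (f i) ^ 3)
    (fun i => div_nonneg (hw i).le (hMpos i).le)
  refine ⟨∑ j, (ε j * (w j / inner ℝ (b j) (f j))) • f j, ?_, ?_⟩
  · have h1 : ‖∑ j, (ε j * (w j / inner ℝ (b j) (f j))) • f j‖ ^ 2
        = ∑ j, w j ^ 2 / inner ℝ (b j) (f j) ^ 2 := by
      rw [← real_inner_self_eq_norm_sq, hfC'.1.inner_sum]
      refine Finset.sum_congr rfl (fun j _ => ?_)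
      have hsq : ε j ^ 2 = 1 := by rcases hε j with h | h <;> simp [h]
      simp only [conj_trivial]
      rw [← div_pow]
      linear_combination (w j / inner ℝ (b j) (f j)) ^ 2 * hsq
    have h2 : ‖∑ j, (ε j * (w j / inner ℝ (b j) (f j))) • f j‖ ^ 2 ≤ 1 := by
      rw [h1]
      exact hΦf
    nlinarith [norm_nonneg (∑ j, (ε j * (w j / inner ℝ (b j) (f j))) • f j)]
  · intro i
    have hM := hMpos i
    have hbi := hb i
    beta_reduce at hbi
    have hD : 0 < w i ^ 2 / inner ℝ (b i) (f i) ^ 3 := by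
      have := hw i
      positivity
    have e1 : w i ^ 2 * inner ℝ (b i) (f i) / inner ℝ (b i) (f i) ^ 3
        * (w i / inner ℝ (b i) (f i)) = w i ^ 2 / inner ℝ (b i) (f i) ^ 3 * w i := by
      field_simp
    have e2 : ∑ j, w i ^ 2 * inner ℝ (b i) (f j) / inner ℝ (b i) (f i) ^ 3
          * (ε j * (w j / inner ℝ (b j) (f j))) - w i ^ 2 * m i / inner ℝ (b i) (f i) ^ 3
        = w i ^ 2 / inner ℝ (b i) (f i) ^ 3
          * (inner ℝ (b i) (∑ j, (ε j * (w j / inner ℝ (b j) (f j))) • f j) - m i) := by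
      rw [inner_sum, mul_sub, Finset.mul_sum]
      congr 1
      · refine Finset.sum_congr rfl (fun j _ => ?_)
        rw [real_inner_smul_right]
        ring
      · ring
    rw [e1, e2, abs_mul, abs_of_pos hD] at hbi
    exact le_of_mul_le_mul_left hbi hD

variable {E : Type*} [NormedAddCommGroup E] [InnerProductSpace ℝ E]

/-- A symmetric convex set containing `0` contains all combinations of its points with
coefficients of total absolute value at most one. -/
theorem sum_mem_of_abs {J : Type*} [Fintype J] {C : Set E} (hC : Convex ℝ C) (h0 : (0 : E) ∈ C)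
    (hsymm : ∀ x ∈ C, -x ∈ C) (x : J → E) (hx : ∀ j, x j ∈ C) (lam : J → ℝ)
    (hlam : ∑ j, |lam j| ≤ 1) : ∑ j, lam j • x j ∈ C := by
  rcases (Finset.sum_nonneg (fun j (_ : j ∈ Finset.univ) => abs_nonneg (lam j))).eq_or_lt
    with h | h
  · have hz : ∀ j, lam j = 0 := by
      intro j
      have h1 := (Finset.sum_eq_zero_iff_of_nonneg
        (fun j (_ : j ∈ Finset.univ) => abs_nonneg (lam j))).mp h.symm j (Finset.mem_univ j)
      exact abs_eq_zero.mp h1
    simp [hz, h0]
  · obtain ⟨S, hS⟩ : ∃ S : ℝ, S = ∑ j, |lam j| := ⟨_, rfl⟩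
    rw [← hS] at h hlam
    have hpt : ∑ j, (|lam j| / S) • (if 0 ≤ lam j then x j else -x j) ∈ C := by
      refine hC.sum_mem (fun j _ => div_nonneg (abs_nonneg _) h.le) ?_ (fun j _ => ?_)
      · rw [← Finset.sum_div, ← hS, div_self h.ne']
      · split_ifs
        · exact hx j
        · exact hsymm _ (hx j)
    have h2 := hC.smul_mem_of_zero_mem h0 hpt ⟨h.le, hlam⟩
    have e : S • ∑ j, (|lam j| / S) • (if 0 ≤ lam j then x j else -x j) = ∑ j, lam j • x j := by
      rw [Finset.smul_sum]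
      refine Finset.sum_congr rfl (fun j _ => ?_)
      have e1 : S * (|lam j| / S) = |lam j| := by
        field_simp
      rw [smul_smul, e1]
      split_ifs with hj
      · rw [abs_of_nonneg hj]
      · rw [abs_of_neg (not_le.mp hj), smul_neg, neg_smul, neg_neg]
    rw [← e]
    exact h2

/-- Ball's plank theorem for a convex set symmetric about the origin: finitely many open
planks of positive half-widths `w j` whose relative half-widths `w j / h j` add up to at most
one do not cover the set.  Here `h j` is the value of the linear form `⟪·, ν j⟫` at a point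
`x j` of the set. -/
theorem plank_centered {J : Type*} [Fintype J] {C : Set E} (hC : Convex ℝ C) (h0 : (0 : E) ∈ C)
    (hsymm : ∀ x ∈ C, -x ∈ C) (ν x : J → E) (h : J → ℝ) (hh : ∀ j, 0 < h j)
    (hx : ∀ j, x j ∈ C) (hxν : ∀ j, inner ℝ (x j) (ν j) = h j) (w m : J → ℝ)
    (hw : ∀ j, 0 < w j) (hsum : ∑ j, w j / h j ≤ 1) :
    ∃ y ∈ C, ∀ j, w j ≤ |inner ℝ y (ν j) - m j| := by
  classical
  obtain ⟨eb, -⟩ : ∃ eb : OrthonormalBasis J ℝ (EuclideanSpace ℝ J), True :=
    ⟨EuclideanSpace.basisFun J ℝ, trivial⟩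
  obtain ⟨r, hr⟩ : ∃ r : J → ℝ, r = fun j => w j / h j := ⟨_, rfl⟩
  have hrpos : ∀ j, 0 < r j := by
    intro j
    rw [hr]
    exact div_pos (hw j) (hh j)
  have hrsum : ∑ j, r j ≤ 1 := by
    rw [hr]
    exact hsum
  obtain ⟨v, hv1, hv⟩ := core_vec (fun j => eb j)
    (fun i => ∑ j, (inner ℝ (x j) (ν i) / h i * Real.sqrt (r j)) • eb j)
    eb.orthonormal r (fun i => m i / h i) hrpos hrsum (by
      intro i
      rw [eb.orthonormal.inner_left_fintype, hxν i, div_self (hh i).ne']
      simp)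
  refine ⟨∑ j, (Real.sqrt (r j) * inner ℝ (eb j) v) • x j, ?_, ?_⟩
  · apply sum_mem_of_abs hC h0 hsymm x hx
    have hcs := Finset.sum_mul_sq_le_sq_mul_sq Finset.univ (fun j => Real.sqrt (r j))
      (fun j => |inner ℝ (eb j) v|)
    have hpars : ∑ j, |inner ℝ (eb j) v| ^ 2 = ‖v‖ ^ 2 := by
      rw [← eb.sum_sq_inner_right v]
      exact Finset.sum_congr rfl (fun j _ => sq_abs _)
    have hsq : ∑ j, Real.sqrt (r j) ^ 2 = ∑ j, r j :=
      Finset.sum_congr rfl (fun j _ => Real.sq_sqrt (hrpos j).le)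
    have habs : ∀ j, |Real.sqrt (r j) * inner ℝ (eb j) v|
        = Real.sqrt (r j) * |inner ℝ (eb j) v| := fun j => by
      rw [abs_mul, abs_of_nonneg (Real.sqrt_nonneg _)]
    simp only [habs]
    rw [hsq, hpars] at hcs
    have hnn : 0 ≤ ∑ j, Real.sqrt (r j) * |inner ℝ (eb j) v| :=
      Finset.sum_nonneg (fun j _ => mul_nonneg (Real.sqrt_nonneg _) (abs_nonneg _))
    have hv2 : ‖v‖ ^ 2 ≤ 1 := by nlinarith [norm_nonneg v]
    have h1 : (∑ j, Real.sqrt (r j) * |inner ℝ (eb j) v|) ^ 2 ≤ 1 := by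
      calc (∑ j, Real.sqrt (r j) * |inner ℝ (eb j) v|) ^ 2 ≤ (∑ j, r j) * ‖v‖ ^ 2 := hcs
        _ ≤ 1 * 1 := mul_le_mul hrsum hv2 (by positivity) zero_le_one
        _ = 1 := one_mul 1
    nlinarith
  · intro i
    have hvi := hv i
    beta_reduce at hvi
    have e : inner ℝ (∑ j, (inner ℝ (x j) (ν i) / h i * Real.sqrt (r j)) • eb j) v
        = inner ℝ (∑ j, (Real.sqrt (r j) * inner ℝ (eb j) v) • x j) (ν i) / h i := by
      rw [sum_inner, sum_inner, Finset.sum_div]
      refine Finset.sum_congr rfl (fun j _ => ?_)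
      rw [real_inner_smul_left, real_inner_smul_left]
      ring
    have hhi := hh i
    have e2 : inner ℝ (∑ j, (Real.sqrt (r j) * inner ℝ (eb j) v) • x j) (ν i) / h i - m i / h i
        = (inner ℝ (∑ j, (Real.sqrt (r j) * inner ℝ (eb j) v) • x j) (ν i) - m i) / h i := by
      ring
    have hri : r i = w i / h i := by rw [hr]
    rw [e, e2, abs_div, abs_of_pos hhi, hri] at hvi
    exact (div_le_div_iff_of_pos_right hhi).mp hvi

/-- Ball's plank theorem for a convex set symmetric about a point `o`, with nonnegative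
half-widths. -/
theorem ball_plank {J : Type*} [Fintype J] {C : Set E} (hC : Convex ℝ C) (hne : C.Nonempty)
    (o : E) (hsymm : ∀ x ∈ C, o + o - x ∈ C) (ν x : J → E) (h : J → ℝ) (hh : ∀ j, 0 < h j)
    (hx : ∀ j, x j ∈ C) (hxν : ∀ j, inner ℝ (x j - o) (ν j) = h j) (w m : J → ℝ)
    (hw : ∀ j, 0 ≤ w j) (hsum : ∑ j, w j / h j ≤ 1) :
    ∃ y ∈ C, ∀ j, w j ≤ |inner ℝ y (ν j) - m j| := by
  classical
  obtain ⟨C', hC'⟩ : ∃ C' : Set E, C' = {z | o + z ∈ C} := ⟨_, rfl⟩
  have hC'conv : Convex ℝ C' := by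
    rw [hC']
    intro z1 hz1 z2 hz2 a b ha hb hab
    show o + (a • z1 + b • z2) ∈ C
    have e : o + (a • z1 + b • z2) = a • (o + z1) + b • (o + z2) := by
      rw [smul_add, smul_add, add_add_add_comm, ← add_smul, hab, one_smul]
    rw [e]
    exact hC hz1 hz2 ha hb hab
  have hC'symm : ∀ z ∈ C', -z ∈ C' := by
    intro z hz
    rw [hC'] at hz ⊢
    show o + -z ∈ C
    have e : o + -z = o + o - (o + z) := by abel
    rw [e]
    exact hsymm _ hz
  have h0 : (0 : E) ∈ C' := by
    obtain ⟨p, hp⟩ := hne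
    have h1 : p - o ∈ C' := by
      rw [hC']
      show o + (p - o) ∈ C
      rw [add_sub_cancel]
      exact hp
    have h2 := hC'symm _ h1
    have h3 := hC'conv h1 h2 (by norm_num : (0 : ℝ) ≤ 1 / 2) (by norm_num : (0 : ℝ) ≤ 1 / 2)
      (by norm_num)
    have e : (1 / 2 : ℝ) • (p - o) + (1 / 2 : ℝ) • -(p - o) = 0 := by
      rw [smul_neg, add_neg_cancel]
    rw [e] at h3
    exact h3
  have hpos := plank_centered (J := {j : J // 0 < w j}) hC'conv h0 hC'symm (fun j => ν j.1)
    (fun j => x j.1 - o) (fun j => h j.1) (fun j => hh j.1)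
    (fun j => by
      rw [hC']
      show o + (x j.1 - o) ∈ C
      rw [add_sub_cancel]
      exact hx j.1)
    (fun j => hxν j.1) (fun j => w j.1) (fun j => m j.1 - inner ℝ o (ν j.1)) (fun j => j.2) (by
      have h1 : ∑ j : {j : J // 0 < w j}, w j.1 / h j.1
          = ∑ j ∈ Finset.univ.filter (fun j => 0 < w j), w j / h j :=
        (Finset.sum_subtype (Finset.univ.filter (fun j => 0 < w j)) (by simp)
          (fun j => w j / h j)).symm
      rw [h1]
      exact le_trans (Finset.sum_le_sum_of_subset_of_nonneg (Finset.filter_subset _ _)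
        (fun j _ _ => div_nonneg (hw j) (hh j).le)) hsum)
  obtain ⟨z, hz, hzj⟩ := hpos
  refine ⟨o + z, by rw [hC'] at hz; exact hz, fun j => ?_⟩
  rcases (hw j).eq_or_lt with h0' | hpos'
  · rw [← h0']
    exact abs_nonneg _
  · have h1 := hzj ⟨j, hpos'⟩
    beta_reduce at h1
    rw [inner_add_left]
    have e : inner ℝ o (ν j) + inner ℝ z (ν j) - m j
        = inner ℝ z (ν j) - (m j - inner ℝ o (ν j)) := by ring
    rw [e]
    exact h1

/-- Ball's plank theorem for generalized planks: if a compact convex set `C`, symmetric about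
`o`, is covered by the sets `{y | ⟪y, ν i⟫ ∈ S i}`, then the measures of the `S i`, each
divided by the width `2 * h i` of `C` in the direction `ν i`, add up to at least one. -/
theorem plank_sets_sym {ι : Type u} [Fintype ι] {C : Set E} (hC : Convex ℝ C)
    (hCc : IsCompact C) (hne : C.Nonempty) (o : E) (hsymm : ∀ x ∈ C, o + o - x ∈ C)
    (ν x : ι → E) (h : ι → ℝ) (hh : ∀ i, 0 < h i) (hx : ∀ i, x i ∈ C)
    (hxν : ∀ i, inner ℝ (x i - o) (ν i) = h i) (S : ι → Set ℝ)
    (hcov : ∀ y ∈ C, ∃ i, inner ℝ y (ν i) ∈ S i) :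
    1 ≤ ∑ i, volume (S i) / ENNReal.ofReal (2 * h i) := by
  have hmain := sets_of_planks hCc (fun i => (2 * h i)⁻¹ • ν i) (L := 1)
    (by
      intro J _ idx w m hw hsum
      obtain ⟨y, hyC, hy⟩ := ball_plank hC hne o hsymm (fun j => ν (idx j)) (fun j => x (idx j))
        (fun j => h (idx j)) (fun j => hh _) (fun j => hx _) (fun j => hxν _)
        (fun j => w j * (2 * h (idx j))) (fun j => m j * (2 * h (idx j)))
        (fun j => mul_nonneg (hw j) (by have := hh (idx j); positivity)) (by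
          have e : ∀ j, w j * (2 * h (idx j)) / h (idx j) = 2 * w j := fun j => by
            have := (hh (idx j)).ne'
            field_simp
          simp only [e]
          rw [← Finset.mul_sum]
          exact hsum.le)
      refine ⟨y, hyC, fun j => ?_⟩
      have h1 := hy j
      beta_reduce at h1
      rw [inner_smul_right]
      have h2 : (0 : ℝ) < 2 * h (idx j) := by have := hh (idx j); positivity
      have h3 : h (idx j) ≠ 0 := (hh (idx j)).ne'
      have e : (2 * h (idx j))⁻¹ * inner ℝ y (ν (idx j)) - m j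
          = (inner ℝ y (ν (idx j)) - m j * (2 * h (idx j))) / (2 * h (idx j)) := by
        field_simp
      rw [e, abs_div, abs_of_pos h2, le_div_iff₀ h2]
      exact h1)
    (fun i => (fun s : ℝ => s * (2 * h i)) ⁻¹' S i)
    (by
      intro y hy
      obtain ⟨i, hi⟩ := hcov y hy
      refine ⟨i, ?_⟩
      rw [mem_preimage, inner_smul_right]
      have h2 : h i ≠ 0 := (hh i).ne'
      have e : (2 * h i)⁻¹ * inner ℝ y (ν i) * (2 * h i) = inner ℝ y (ν i) := by field_simp
      rw [e]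
      exact hi)
  rw [ENNReal.ofReal_one] at hmain
  refine hmain.trans (le_of_eq (Finset.sum_congr rfl (fun i _ => ?_)))
  have h2 : (0 : ℝ) < 2 * h i := by have := hh i; positivity
  rw [Real.volume_preimage_mul_right h2.ne', abs_of_pos (inv_pos.mpr h2),
    ENNReal.ofReal_inv_of_pos h2, ENNReal.div_eq_inv_mul]

end Vale.Agent.Lib.BallPlank
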