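import Mathlib

namespace Vale.Agent.Lib.BangConcave

open Set MeasureTheory

/-- Concavity in unnormalised form. -/
theorem concave_combo {m : ℝ → ℝ} {S : Set ℝ} (hm : ConcaveOn ℝ S m) {x y : ℝ} (hx : x ∈ S)
    (hy : y ∈ S) {a b : ℝ} (ha : 0 ≤ a) (hb : 0 ≤ b) (hab : 0 < a + b) :
    (a * x + b * y) / (a + b) ∈ S ∧
      a * m x + b * m y ≤ (a + b) * m ((a * x + b * y) / (a + b)) := by
  have hne : a + b ≠ 0 := hab.ne'
  have h1 : a / (a + b) + b / (a + b) = 1 := by field_simp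
  have e : a / (a + b) * x + b / (a + b) * y = (a * x + b * y) / (a + b) := by field_simp
  have hmem := hm.1 hx hy (div_nonneg ha hab.le) (div_nonneg hb hab.le) h1
  have h := hm.2 hx hy (div_nonneg ha hab.le) (div_nonneg hb hab.le) h1
  simp only [smul_eq_mul] at h hmem
  rw [e] at h hmem
  refine ⟨hmem, ?_⟩
  have h2 := mul_le_mul_of_nonneg_left h hab.le
  have e2 : (a + b) * (a / (a + b) * m x + b / (a + b) * m y) = a * m x + b * m y := by
    field_simp
  rw [e2] at h2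
  exact h2

theorem ramp_left {m : ℝ → ℝ} {t₀ t₁ : ℝ} (hm : ConcaveOn ℝ (Icc t₀ t₁) m)
    (h0 : ∀ t ∈ Icc t₀ t₁, 0 ≤ m t) {s t : ℝ} (hs : s ∈ Icc t₀ t₁) (ht0 : t₀ ≤ t)
    (hts : t ≤ s) : m s * (t - t₀) ≤ (s - t₀) * m t := by
  have h00 : t₀ ∈ Icc t₀ t₁ := ⟨le_refl _, hs.1.trans hs.2⟩
  rcases (ht0.trans hts).eq_or_lt with h | h
  · have h2 : t = t₀ := le_antisymm (by rw [h]; exact hts) ht0
    rw [h2, ← h]; simp
  · obtain ⟨-, hc⟩ := concave_combo hm h00 hs (a := s - t) (b := t - t₀) (by linarith)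
      (by linarith) (by linarith)
    have e : ((s - t) * t₀ + (t - t₀) * s) / (s - t + (t - t₀)) = t := by
      have hne : s - t + (t - t₀) ≠ 0 := by
        have : 0 < s - t + (t - t₀) := by linarith
        exact this.ne'
      field_simp
      ring
    rw [e] at hc
    have h3 := h0 t₀ h00
    nlinarith [mul_nonneg (sub_nonneg.mpr hts) h3]

theorem ramp_right {m : ℝ → ℝ} {t₀ t₁ : ℝ} (hm : ConcaveOn ℝ (Icc t₀ t₁) m)
    (h0 : ∀ t ∈ Icc t₀ t₁, 0 ≤ m t) {s t : ℝ} (hs : s ∈ Icc t₀ t₁) (hst : s ≤ t)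
    (ht1 : t ≤ t₁) : m s * (t₁ - t) ≤ (t₁ - s) * m t := by
  have h11 : t₁ ∈ Icc t₀ t₁ := ⟨hs.1.trans hs.2, le_refl _⟩
  rcases (hst.trans ht1).eq_or_lt with h | h
  · have h2 : t = t₁ := le_antisymm ht1 (by rw [← h]; exact hst)
    rw [h2, h]; simp
  · obtain ⟨-, hc⟩ := concave_combo hm hs h11 (a := t₁ - t) (b := t - s) (by linarith)
      (by linarith) (by linarith)
    have e : ((t₁ - t) * s + (t - s) * t₁) / (t₁ - t + (t - s)) = t := by
      have hne : t₁ - t + (t - s) ≠ 0 := by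
        have : 0 < t₁ - t + (t - s) := by linarith
        exact this.ne'
      field_simp
      ring
    rw [e] at hc
    have h3 := h0 t₁ h11
    nlinarith [mul_nonneg (sub_nonneg.mpr hst) h3]

/-- The tent bound: a nonnegative concave function on `[t₀, t₁]` has integral at least
half of `(t₁ - t₀)` times any of its values. -/
theorem tent {m : ℝ → ℝ} {t₀ t₁ : ℝ} (hm : ConcaveOn ℝ (Icc t₀ t₁) m)
    (h0 : ∀ t ∈ Icc t₀ t₁, 0 ≤ m t) (hmi : IntervalIntegrable m volume t₀ t₁)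
    {s : ℝ} (hs : s ∈ Icc t₀ t₁) :
    m s * (t₁ - t₀) ≤ 2 * ∫ t in t₀..t₁, m t := by
  have h01 : t₀ ≤ t₁ := hs.1.trans hs.2
  have hsu : s ∈ uIcc t₀ t₁ := by rw [uIcc_of_le h01]; exact hs
  have hi1 : IntervalIntegrable m volume t₀ s :=
    hmi.mono_set (uIcc_subset_uIcc left_mem_uIcc hsu)
  have hi2 : IntervalIntegrable m volume s t₁ :=
    hmi.mono_set (uIcc_subset_uIcc hsu right_mem_uIcc)
  have hsplit := intervalIntegral.integral_add_adjacent_intervals hi1 hi2
  have hL : m s * (s - t₀) ≤ 2 * ∫ t in t₀..s, m t := by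
    rcases hs.1.eq_or_lt with h | h
    · rw [← h]; simp
    · have hmono := intervalIntegral.integral_mono_on hs.1
        ((by fun_prop : Continuous fun t : ℝ => m s * (t - t₀)).intervalIntegrable
          (μ := volume) t₀ s) (hi1.const_mul (s - t₀))
        (fun t ht => ramp_left hm h0 hs ht.1 ht.2)
      rw [intervalIntegral.integral_const_mul, intervalIntegral.integral_const_mul] at hmono
      have e : ∫ t in t₀..s, (t - t₀) = (s - t₀) ^ 2 / 2 := by
        simp [integral_id]; ring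
      rw [e] at hmono
      have hp : 0 < s - t₀ := sub_pos.mpr h
      refine le_of_mul_le_mul_left ?_ hp
      nlinarith
  have hR : m s * (t₁ - s) ≤ 2 * ∫ t in s..t₁, m t := by
    rcases hs.2.eq_or_lt with h | h
    · rw [h]; simp
    · have hmono := intervalIntegral.integral_mono_on hs.2
        ((by fun_prop : Continuous fun t : ℝ => m s * (t₁ - t)).intervalIntegrable
          (μ := volume) s t₁) (hi2.const_mul (t₁ - s))
        (fun t ht => ramp_right hm h0 hs ht.1 ht.2)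
      rw [intervalIntegral.integral_const_mul, intervalIntegral.integral_const_mul] at hmono
      have e : ∫ t in s..t₁, (t₁ - t) = (t₁ - s) ^ 2 / 2 := by
        rw [intervalIntegral.integral_sub
          ((by fun_prop : Continuous fun _ : ℝ => t₁).intervalIntegrable _ _)
          ((by fun_prop : Continuous fun t : ℝ => t).intervalIntegrable _ _),
          intervalIntegral.integral_const, integral_id, smul_eq_mul]
        ring
      rw [e] at hmono
      have hp : 0 < t₁ - s := sub_pos.mpr h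
      refine le_of_mul_le_mul_left ?_ hp
      nlinarith
  rw [← hsplit]
  nlinarith

/-- Cross inequality: if `min f g ≤ c` on a convex set then the excess of `f` at `s` and of `g`
at `t` is controlled by the deficits. -/
theorem cross {f g : ℝ → ℝ} {S : Set ℝ} (hf : ConcaveOn ℝ S f) (hg : ConcaveOn ℝ S g) {c : ℝ}
    (hc : ∀ u ∈ S, f u ≤ c ∨ g u ≤ c) {s t : ℝ} (hs : s ∈ S) (ht : t ∈ S)
    (h1 : c < f s) (h2 : c < g t) :
    (f s - c) * (g t - c) ≤ (c - g s) * (c - f t) := by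
  have h3 : g s ≤ c := (hc s hs).resolve_left (not_le.mpr h1)
  have h4 : f t ≤ c := (hc t ht).resolve_right (not_le.mpr h2)
  have ha : 0 ≤ (c - f t) + (g t - c) := by linarith
  have hb : 0 ≤ (f s - c) + (c - g s) := by linarith
  have hab : 0 < (c - f t) + (g t - c) + ((f s - c) + (c - g s)) := by linarith
  obtain ⟨hu, hfu⟩ := concave_combo hf hs ht ha hb hab
  obtain ⟨-, hgu⟩ := concave_combo hg hs ht ha hb hab
  rcases hc _ hu with h | h
  · have h5 := mul_le_mul_of_nonneg_left h hab.le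
    nlinarith
  · have h5 := mul_le_mul_of_nonneg_left h hab.le
    nlinarith

/-- For nonnegative concave `f`, `g` on `[t₀, t₁]`, the smaller of the two integrals is at most
twice the integral of the pointwise minimum. -/
theorem min_integral_le {f g : ℝ → ℝ} {t₀ t₁ : ℝ} (h01 : t₀ ≤ t₁)
    (hf : ConcaveOn ℝ (Icc t₀ t₁) f) (hg : ConcaveOn ℝ (Icc t₀ t₁) g)
    (hf0 : ∀ t ∈ Icc t₀ t₁, 0 ≤ f t) (hg0 : ∀ t ∈ Icc t₀ t₁, 0 ≤ g t)
    (hfi : IntervalIntegrable f volume t₀ t₁) (hgi : IntervalIntegrable g volume t₀ t₁)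
    (hmi : IntervalIntegrable (fun t => min (f t) (g t)) volume t₀ t₁) :
    min (∫ t in t₀..t₁, f t) (∫ t in t₀..t₁, g t)
      ≤ 2 * ∫ t in t₀..t₁, min (f t) (g t) := by
  rcases h01.eq_or_lt with h | hlt
  · rw [h]; simp
  have hmc : ConcaveOn ℝ (Icc t₀ t₁) (fun t => min (f t) (g t)) := by
    refine ⟨hf.1, ?_⟩
    intro x hx y hy a b ha hb hab
    have h1 := hf.2 hx hy ha hb hab
    have h2 := hg.2 hx hy ha hb hab
    simp only [smul_eq_mul] at h1 h2 ⊢
    refine le_min (le_trans ?_ h1) (le_trans ?_ h2)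
    · exact add_le_add (mul_le_mul_of_nonneg_left (min_le_left _ _) ha)
        (mul_le_mul_of_nonneg_left (min_le_left _ _) hb)
    · exact add_le_add (mul_le_mul_of_nonneg_left (min_le_right _ _) ha)
        (mul_le_mul_of_nonneg_left (min_le_right _ _) hb)
  have hm0 : ∀ t ∈ Icc t₀ t₁, 0 ≤ min (f t) (g t) := fun t ht => le_min (hf0 t ht) (hg0 t ht)
  have hlpos : 0 < t₁ - t₀ := sub_pos.mpr hlt
  obtain ⟨c, hcdef⟩ : ∃ c : ℝ, c = 2 * (∫ t in t₀..t₁, min (f t) (g t)) / (t₁ - t₀) := ⟨_, rfl⟩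
  have hcl : c * (t₁ - t₀) = 2 * ∫ t in t₀..t₁, min (f t) (g t) := by
    rw [hcdef]; field_simp
  have hmc' : ∀ u ∈ Icc t₀ t₁, f u ≤ c ∨ g u ≤ c := by
    intro u hu
    have h1 := tent hmc hm0 hmi hu
    have h2 : min (f u) (g u) ≤ c := by rw [hcdef, le_div_iff₀ hlpos]; exact h1
    exact min_le_iff.mp h2
  rw [← hcl]
  by_contra hcon
  rw [not_le, lt_min_iff] at hcon
  obtain ⟨hF, hG⟩ := hcon
  have hconst : ∀ d : ℝ, ∫ _ in t₀..t₁, d = (t₁ - t₀) * d := by
    intro d; rw [intervalIntegral.integral_const, smul_eq_mul]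
  have hs : ∃ s ∈ Icc t₀ t₁, c < f s := by
    by_contra hno
    have hle : ∀ x ∈ Icc t₀ t₁, f x ≤ c := fun x hx => not_lt.mp (fun h => hno ⟨x, hx, h⟩)
    have h1 := intervalIntegral.integral_mono_on h01 hfi
      (intervalIntegrable_const (μ := volume) (c := c)) hle
    rw [hconst] at h1
    linarith
  have ht : ∃ t ∈ Icc t₀ t₁, c < g t := by
    by_contra hno
    have hle : ∀ x ∈ Icc t₀ t₁, g x ≤ c := fun x hx => not_lt.mp (fun h => hno ⟨x, hx, h⟩)
    have h1 := intervalIntegral.integral_mono_on h01 hgi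
      (intervalIntegrable_const (μ := volume) (c := c)) hle
    rw [hconst] at h1
    linarith
  obtain ⟨s₀, hs₀, hfs₀⟩ := hs
  obtain ⟨t', ht', hgt'⟩ := ht
  have key : ∀ s ∈ Icc t₀ t₁, c < f s → ∀ t ∈ Icc t₀ t₁, c < g t →
      0 < c - g s ∧ (f s - c) / (c - g s) ≤ (c - f t) / (g t - c) := by
    intro s hs hfs t ht hgt
    have h3 : g s ≤ c := (hmc' s hs).resolve_left (not_le.mpr hfs)
    have hx := cross hf hg hmc' hs ht hfs hgt
    have hpos : 0 < (f s - c) * (g t - c) := mul_pos (sub_pos.mpr hfs) (sub_pos.mpr hgt)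
    have hgam : 0 < c - g s := by
      rcases (sub_nonneg.mpr h3).eq_or_lt with h | h
      · rw [← h, zero_mul] at hx; linarith
      · exact h
    refine ⟨hgam, ?_⟩
    rw [div_le_div_iff₀ hgam (sub_pos.mpr hgt)]
    linarith
  obtain ⟨R, hR⟩ : ∃ R : Set ℝ,
      R = (fun s => (f s - c) / (c - g s)) '' {s | s ∈ Icc t₀ t₁ ∧ c < f s} := ⟨_, rfl⟩
  have hbdd : BddAbove R := by
    refine ⟨(c - f t') / (g t' - c), ?_⟩
    rw [hR]
    rintro _ ⟨s, ⟨hs, hfs⟩, rfl⟩
    exact (key s hs hfs t' ht' hgt').2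
  have hr1 : ∀ s ∈ Icc t₀ t₁, c < f s → (f s - c) / (c - g s) ≤ sSup R := by
    intro s hs hfs
    refine le_csSup hbdd ?_
    rw [hR]
    exact ⟨s, ⟨hs, hfs⟩, rfl⟩
  have hr2 : ∀ t ∈ Icc t₀ t₁, c < g t → sSup R ≤ (c - f t) / (g t - c) := by
    intro t ht hgt
    refine csSup_le ?_ ?_
    · rw [hR]; exact ⟨_, ⟨s₀, ⟨hs₀, hfs₀⟩, rfl⟩⟩
    · rw [hR]
      rintro _ ⟨s, ⟨hs, hfs⟩, rfl⟩
      exact (key s hs hfs t ht hgt).2
  have hr0 : 0 ≤ sSup R := by
    have h1 := hr1 s₀ hs₀ hfs₀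
    have h2 := (key s₀ hs₀ hfs₀ t' ht' hgt').1
    have h3 : 0 ≤ (f s₀ - c) / (c - g s₀) := div_nonneg (by linarith) h2.le
    linarith
  have hall : ∀ u ∈ Icc t₀ t₁, f u + sSup R * g u ≤ (1 + sSup R) * c := by
    intro u hu
    by_cases hfu : c < f u
    · have h1 := hr1 u hu hfu
      have h2 := (key u hu hfu t' ht' hgt').1
      rw [div_le_iff₀ h2] at h1
      linarith
    · by_cases hgu : c < g u
      · have h1 := hr2 u hu hgu
        rw [le_div_iff₀ (sub_pos.mpr hgu)] at h1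
        linarith
      · have h1 := not_lt.mp hfu
        have h2 := not_lt.mp hgu
        nlinarith
  have hint := intervalIntegral.integral_mono_on h01 (hfi.add (hgi.const_mul (sSup R)))
    (intervalIntegrable_const (μ := volume) (c := (1 + sSup R) * c)) hall
  rw [intervalIntegral.integral_add hfi (hgi.const_mul (sSup R)),
    intervalIntegral.integral_const_mul, hconst] at hint
  nlinarith [mul_le_mul_of_nonneg_left hG.le hr0]

end Vale.Agent.Lib.BangConcave
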