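import Mathlib

namespace Vale.Agent.Lib.BangCore

open Set

/-- A point of the segment between two members of a convex planar set. -/
theorem seg_mem {S : Set (ℝ × ℝ)} (hS : Convex ℝ S) {a₁ a₂ b₁ b₂ : ℝ}
    (hA : (a₁, a₂) ∈ S) (hB : (b₁, b₂) ∈ S) {s : ℝ} (h0 : 0 ≤ s) (h1 : s ≤ 1) :
    (a₁ + s * (b₁ - a₁), a₂ + s * (b₂ - a₂)) ∈ S := by
  have h := hS hA hB (sub_nonneg.mpr h1) h0 (by ring : (1 - s) + s = 1)
  have e : (1 - s) • ((a₁, a₂) : ℝ × ℝ) + s • ((b₁, b₂) : ℝ × ℝ)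
      = (a₁ + s * (b₁ - a₁), a₂ + s * (b₂ - a₂)) := by
    ext
    · simp only [Prod.fst_add, Prod.smul_fst, smul_eq_mul]; ring
    · simp only [Prod.snd_add, Prod.smul_snd, smul_eq_mul]; ring
  rw [e] at h
  exact h

/-- The admissible region: the left end slab (if `g₁ > 0`) or the right end slab (if `g₂ > 0`). -/
def Reg (g₁ g₂ : ℝ) (p : ℝ × ℝ) : Prop := (p.1 ≤ g₁ ∧ 0 < g₁) ∨ (1 - g₂ ≤ p.1 ∧ 0 < g₂)

section
variable {S : Set (ℝ × ℝ)} (hS : Convex ℝ S) {η₁ η₃ ξ₂ ξ₄ g₁ g₂ : ℝ}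

include hS

/-- Top points: a point of the admissible region at height at least any mixture of the two
cap heights, when the top vertex lies strictly between the two end slabs. -/
theorem top_mix (h1 : ((0:ℝ), η₁) ∈ S) (h2 : (ξ₂, (1:ℝ)) ∈ S) (h3 : ((1:ℝ), η₃) ∈ S)
    (hg₁ : 0 < g₁) (hg₂ : 0 < g₂) (hm₁ : g₁ < ξ₂) (hm₂ : ξ₂ < 1 - g₂)
    {w : ℝ} (hw0 : 0 ≤ w) (hw1 : w ≤ 1) :
    ∃ q ∈ S, Reg g₁ g₂ q ∧
      w * (η₁ + g₁ / ξ₂ * (1 - η₁)) + (1 - w) * (η₃ + g₂ / (1 - ξ₂) * (1 - η₃)) ≤ q.2 := by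
  have hξ₂ : 0 < ξ₂ := lt_trans hg₁ hm₁
  have hξ₂' : 0 < 1 - ξ₂ := by linarith
  have hs0 : 0 ≤ g₁ / ξ₂ := div_nonneg hg₁.le hξ₂.le
  have hs1 : g₁ / ξ₂ ≤ 1 := by rw [div_le_one hξ₂]; exact hm₁.le
  have hr0 : 0 ≤ g₂ / (1 - ξ₂) := div_nonneg hg₂.le hξ₂'.le
  have hr1 : g₂ / (1 - ξ₂) ≤ 1 := by rw [div_le_one hξ₂']; linarith
  have hsx : g₁ / ξ₂ * ξ₂ = g₁ := div_mul_cancel₀ _ hξ₂.ne'
  have hrx : g₂ / (1 - ξ₂) * (1 - ξ₂) = g₂ := div_mul_cancel₀ _ hξ₂'.ne'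
  have hTL := seg_mem hS h1 h2 hs0 hs1
  have hTR := seg_mem hS h3 h2 hr0 hr1
  by_cases hc : η₁ + g₁ / ξ₂ * (1 - η₁) ≤ η₃ + g₂ / (1 - ξ₂) * (1 - η₃)
  · refine ⟨_, hTR, Or.inr ⟨?_, hg₂⟩, ?_⟩
    · show 1 - g₂ ≤ 1 + g₂ / (1 - ξ₂) * (ξ₂ - 1)
      nlinarith
    · show _ ≤ η₃ + g₂ / (1 - ξ₂) * (1 - η₃)
      nlinarith
  · have hc := not_le.mp hc
    refine ⟨_, hTL, Or.inl ⟨?_, hg₁⟩, ?_⟩
    · show 0 + g₁ / ξ₂ * (ξ₂ - 0) ≤ g₁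
      nlinarith
    · show _ ≤ η₁ + g₁ / ξ₂ * (1 - η₁)
      nlinarith

/-- Bottom points: a point of the admissible region at height at most any mixture of the two
cap depths, when the bottom vertex lies strictly between the two end slabs. -/
theorem bot_mix (h1 : ((0:ℝ), η₁) ∈ S) (h4 : (ξ₄, (0:ℝ)) ∈ S) (h3 : ((1:ℝ), η₃) ∈ S)
    (hg₁ : 0 < g₁) (hg₂ : 0 < g₂) (hm₁ : g₁ < ξ₄) (hm₂ : ξ₄ < 1 - g₂)
    {w : ℝ} (hw0 : 0 ≤ w) (hw1 : w ≤ 1) :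
    ∃ p ∈ S, Reg g₁ g₂ p ∧
      p.2 ≤ w * (η₁ - g₁ / ξ₄ * η₁) + (1 - w) * (η₃ - g₂ / (1 - ξ₄) * η₃) := by
  have hξ₄ : 0 < ξ₄ := lt_trans hg₁ hm₁
  have hξ₄' : 0 < 1 - ξ₄ := by linarith
  have hs0 : 0 ≤ g₁ / ξ₄ := div_nonneg hg₁.le hξ₄.le
  have hs1 : g₁ / ξ₄ ≤ 1 := by rw [div_le_one hξ₄]; exact hm₁.le
  have hr0 : 0 ≤ g₂ / (1 - ξ₄) := div_nonneg hg₂.le hξ₄'.le
  have hr1 : g₂ / (1 - ξ₄) ≤ 1 := by rw [div_le_one hξ₄']; linarith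
  have hsx : g₁ / ξ₄ * ξ₄ = g₁ := div_mul_cancel₀ _ hξ₄.ne'
  have hrx : g₂ / (1 - ξ₄) * (1 - ξ₄) = g₂ := div_mul_cancel₀ _ hξ₄'.ne'
  have hDL := seg_mem hS h1 h4 hs0 hs1
  have hDR := seg_mem hS h3 h4 hr0 hr1
  by_cases hc : η₁ - g₁ / ξ₄ * η₁ ≤ η₃ - g₂ / (1 - ξ₄) * η₃
  · refine ⟨_, hDL, Or.inl ⟨?_, hg₁⟩, ?_⟩
    · show 0 + g₁ / ξ₄ * (ξ₄ - 0) ≤ g₁
      nlinarith
    · show η₁ + g₁ / ξ₄ * (0 - η₁) ≤ _
      nlinarith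
  · have hc := not_le.mp hc
    refine ⟨_, hDR, Or.inr ⟨?_, hg₂⟩, ?_⟩
    · show 1 - g₂ ≤ 1 + g₂ / (1 - ξ₄) * (ξ₄ - 1)
      nlinarith
    · show η₃ + g₂ / (1 - ξ₄) * (0 - η₃) ≤ _
      nlinarith

end

/-- Core planar lemma (normalised box).  A convex set containing one point on each side of the
unit square has, inside the union of the two end slabs `x ≤ g₁` and `x ≥ 1 - g₂`, two points
whose heights differ by at least `g₁ + g₂`. -/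
theorem core {S : Set (ℝ × ℝ)} (hS : Convex ℝ S) {η₁ η₃ ξ₂ ξ₄ g₁ g₂ : ℝ}
    (h1 : ((0:ℝ), η₁) ∈ S) (h2 : (ξ₂, (1:ℝ)) ∈ S) (h3 : ((1:ℝ), η₃) ∈ S) (h4 : (ξ₄, (0:ℝ)) ∈ S)
    (hη₁ : 0 ≤ η₁) (hη₁' : η₁ ≤ 1) (hη₃ : 0 ≤ η₃) (hη₃' : η₃ ≤ 1)
    (hξ₂ : 0 ≤ ξ₂) (hξ₂' : ξ₂ ≤ 1) (hξ₄ : 0 ≤ ξ₄) (hξ₄' : ξ₄ ≤ 1)
    (hg₁ : 0 ≤ g₁) (hg₂ : 0 ≤ g₂) (hg : g₁ + g₂ ≤ 1) (hpos : 0 < g₁ + g₂) :
    ∃ p ∈ S, ∃ q ∈ S, Reg g₁ g₂ p ∧ Reg g₁ g₂ q ∧ g₁ + g₂ ≤ q.2 - p.2 := by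
  rcases hg₂.eq_or_lt with hg₂0 | hg₂p
  · -- only the left slab
    have hg₁p : 0 < g₁ := by linarith
    have hTL := seg_mem hS h1 h2 hg₁ (by linarith : g₁ ≤ 1)
    have hDL := seg_mem hS h1 h4 hg₁ (by linarith : g₁ ≤ 1)
    refine ⟨_, hDL, _, hTL, Or.inl ⟨?_, hg₁p⟩, Or.inl ⟨?_, hg₁p⟩, ?_⟩
    · show 0 + g₁ * (ξ₄ - 0) ≤ g₁
      nlinarith
    · show 0 + g₁ * (ξ₂ - 0) ≤ g₁
      nlinarith
    · show g₁ + g₂ ≤ (η₁ + g₁ * (1 - η₁)) - (η₁ + g₁ * (0 - η₁))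
      nlinarith
  rcases hg₁.eq_or_lt with hg₁0 | hg₁p
  · -- only the right slab
    have hTR := seg_mem hS h3 h2 hg₂ (by linarith : g₂ ≤ 1)
    have hDR := seg_mem hS h3 h4 hg₂ (by linarith : g₂ ≤ 1)
    refine ⟨_, hDR, _, hTR, Or.inr ⟨?_, hg₂p⟩, Or.inr ⟨?_, hg₂p⟩, ?_⟩
    · show 1 - g₂ ≤ 1 + g₂ * (ξ₄ - 1)
      nlinarith
    · show 1 - g₂ ≤ 1 + g₂ * (ξ₂ - 1)
      nlinarith
    · show g₁ + g₂ ≤ (η₃ + g₂ * (1 - η₃)) - (η₃ + g₂ * (0 - η₃))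
      nlinarith
  -- both slabs are present
  by_cases hTA : ξ₂ ≤ g₁ ∨ 1 - g₂ ≤ ξ₂
  · have hq : Reg g₁ g₂ (ξ₂, (1:ℝ)) := by
      rcases hTA with h | h
      · exact Or.inl ⟨h, hg₁p⟩
      · exact Or.inr ⟨h, hg₂p⟩
    by_cases hBA : ξ₄ ≤ g₁ ∨ 1 - g₂ ≤ ξ₄
    · have hp : Reg g₁ g₂ (ξ₄, (0:ℝ)) := by
        rcases hBA with h | h
        · exact Or.inl ⟨h, hg₁p⟩
        · exact Or.inr ⟨h, hg₂p⟩
      exact ⟨_, h4, _, h2, hp, hq, by show g₁ + g₂ ≤ 1 - 0; linarith⟩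
    · have hBA' := not_or.mp hBA
      have hm₁ : g₁ < ξ₄ := not_le.mp hBA'.1
      have hm₂ : ξ₄ < 1 - g₂ := not_le.mp hBA'.2
      have hξ₄p : 0 < ξ₄ := lt_trans hg₁p hm₁
      have hξ₄q : 0 < 1 - ξ₄ := by linarith
      obtain ⟨p, hpS, hpR, hp⟩ := bot_mix hS h1 h4 h3 hg₁p hg₂p hm₁ hm₂ hξ₄ hξ₄'
      refine ⟨p, hpS, _, h2, hpR, hq, ?_⟩
      show g₁ + g₂ ≤ 1 - p.2
      have e : ξ₄ * (η₁ - g₁ / ξ₄ * η₁) + (1 - ξ₄) * (η₃ - g₂ / (1 - ξ₄) * η₃)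
          = η₁ * (ξ₄ - g₁) + η₃ * (1 - ξ₄ - g₂) := by
        field_simp
      rw [e] at hp
      nlinarith [mul_le_mul_of_nonneg_right hη₁' (by linarith : 0 ≤ ξ₄ - g₁),
        mul_le_mul_of_nonneg_right hη₃' (by linarith : 0 ≤ 1 - ξ₄ - g₂)]
  · have hTA' := not_or.mp hTA
    have tm₁ : g₁ < ξ₂ := not_le.mp hTA'.1
    have tm₂ : ξ₂ < 1 - g₂ := not_le.mp hTA'.2
    have hξ₂p : 0 < ξ₂ := lt_trans hg₁p tm₁
    have hξ₂q : 0 < 1 - ξ₂ := by linarith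
    by_cases hBA : ξ₄ ≤ g₁ ∨ 1 - g₂ ≤ ξ₄
    · have hp : Reg g₁ g₂ (ξ₄, (0:ℝ)) := by
        rcases hBA with h | h
        · exact Or.inl ⟨h, hg₁p⟩
        · exact Or.inr ⟨h, hg₂p⟩
      obtain ⟨q, hqS, hqR, hq⟩ := top_mix hS h1 h2 h3 hg₁p hg₂p tm₁ tm₂ hξ₂ hξ₂'
      refine ⟨_, h4, q, hqS, hp, hqR, ?_⟩
      show g₁ + g₂ ≤ q.2 - 0
      have e : ξ₂ * (η₁ + g₁ / ξ₂ * (1 - η₁)) + (1 - ξ₂) * (η₃ + g₂ / (1 - ξ₂) * (1 - η₃))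
          = g₁ + g₂ + η₁ * (ξ₂ - g₁) + η₃ * (1 - ξ₂ - g₂) := by
        field_simp
        ring
      rw [e] at hq
      nlinarith [mul_nonneg hη₁ (by linarith : 0 ≤ ξ₂ - g₁),
        mul_nonneg hη₃ (by linarith : 0 ≤ 1 - ξ₂ - g₂)]
    · have hBA' := not_or.mp hBA
      have bm₁ : g₁ < ξ₄ := not_le.mp hBA'.1
      have bm₂ : ξ₄ < 1 - g₂ := not_le.mp hBA'.2
      have hξ₄p : 0 < ξ₄ := lt_trans hg₁p bm₁
      have hξ₄q : 0 < 1 - ξ₄ := by linarith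
      -- a general way to conclude from a pair of mixing weights
      have key : ∀ w w' : ℝ, 0 ≤ w → w ≤ 1 → 0 ≤ w' → w' ≤ 1 →
          g₁ + g₂ ≤ (w * (η₁ + g₁ / ξ₂ * (1 - η₁)) + (1 - w) * (η₃ + g₂ / (1 - ξ₂) * (1 - η₃)))
            - (w' * (η₁ - g₁ / ξ₄ * η₁) + (1 - w') * (η₃ - g₂ / (1 - ξ₄) * η₃)) →
          ∃ p ∈ S, ∃ q ∈ S, Reg g₁ g₂ p ∧ Reg g₁ g₂ q ∧ g₁ + g₂ ≤ q.2 - p.2 := by
        intro w w' hw0 hw1 hw0' hw1' hle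
        obtain ⟨q, hqS, hqR, hq⟩ := top_mix hS h1 h2 h3 hg₁p hg₂p tm₁ tm₂ hw0 hw1
        obtain ⟨p, hpS, hpR, hp⟩ := bot_mix hS h1 h4 h3 hg₁p hg₂p bm₁ bm₂ hw0' hw1'
        exact ⟨p, hpS, q, hqS, hpR, hqR, by linarith⟩
      rcases le_total ξ₄ ξ₂ with hx | hx
      · rcases le_total η₁ η₃ with he | he
        · -- rising configuration
          rcases le_total η₁ ξ₂ with h | h
          · -- certificate 2
            have hden : 0 < 1 - η₁ := by linarith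
            refine key ((ξ₂ - η₁) / (1 - η₁)) 1 (div_nonneg (by linarith) hden.le)
              (by rw [div_le_one hden]; linarith) zero_le_one le_rfl ?_
            have e : ((ξ₂ - η₁) / (1 - η₁) * (η₁ + g₁ / ξ₂ * (1 - η₁))
                + (1 - (ξ₂ - η₁) / (1 - η₁)) * (η₃ + g₂ / (1 - ξ₂) * (1 - η₃)))
                - (1 * (η₁ - g₁ / ξ₄ * η₁) + (1 - 1) * (η₃ - g₂ / (1 - ξ₄) * η₃)) - (g₁ + g₂)
                = (η₃ - η₁) * (1 - ξ₂ - g₂) / (1 - η₁) + g₁ * η₁ * (ξ₂ - ξ₄) / (ξ₂ * ξ₄) := by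
              field_simp
              ring
            have n1 : 0 ≤ (η₃ - η₁) * (1 - ξ₂ - g₂) / (1 - η₁) :=
              div_nonneg (mul_nonneg (by linarith) (by linarith)) hden.le
            have n2 : 0 ≤ g₁ * η₁ * (ξ₂ - ξ₄) / (ξ₂ * ξ₄) :=
              div_nonneg (mul_nonneg (mul_nonneg hg₁ hη₁) (by linarith)) (mul_pos hξ₂p hξ₄p).le
            linarith
          · -- certificate 3
            have hden : 0 < η₃ := by linarith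
            refine key 0 (ξ₄ / η₃) le_rfl zero_le_one (div_nonneg hξ₄ hden.le)
              (by rw [div_le_one hden]; linarith) ?_
            have e : (0 * (η₁ + g₁ / ξ₂ * (1 - η₁))
                + (1 - 0) * (η₃ + g₂ / (1 - ξ₂) * (1 - η₃)))
                - (ξ₄ / η₃ * (η₁ - g₁ / ξ₄ * η₁) + (1 - ξ₄ / η₃) * (η₃ - g₂ / (1 - ξ₄) * η₃))
                - (g₁ + g₂)
                = (η₃ - η₁) * (ξ₄ - g₁) / η₃
                  + g₂ * (1 - η₃) * (ξ₂ - ξ₄) / ((1 - ξ₄) * (1 - ξ₂)) := by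
              field_simp
              ring
            have n1 : 0 ≤ (η₃ - η₁) * (ξ₄ - g₁) / η₃ :=
              div_nonneg (mul_nonneg (by linarith) (by linarith)) hden.le
            have n2 : 0 ≤ g₂ * (1 - η₃) * (ξ₂ - ξ₄) / ((1 - ξ₄) * (1 - ξ₂)) :=
              div_nonneg (mul_nonneg (mul_nonneg hg₂ (by linarith)) (by linarith))
                (mul_pos hξ₄q hξ₂q).le
            linarith
        · -- certificate 1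
          refine key ξ₂ ξ₄ hξ₂ hξ₂' hξ₄ hξ₄' ?_
          have e : (ξ₂ * (η₁ + g₁ / ξ₂ * (1 - η₁)) + (1 - ξ₂) * (η₃ + g₂ / (1 - ξ₂) * (1 - η₃)))
              - (ξ₄ * (η₁ - g₁ / ξ₄ * η₁) + (1 - ξ₄) * (η₃ - g₂ / (1 - ξ₄) * η₃)) - (g₁ + g₂)
              = (ξ₂ - ξ₄) * (η₁ - η₃) := by
            field_simp
            ring
          nlinarith [mul_nonneg (sub_nonneg.mpr hx) (sub_nonneg.mpr he)]
      · rcases le_total η₃ η₁ with he | he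
        · -- falling configuration
          rcases le_total η₃ (1 - ξ₂) with h | h
          · -- certificate 4
            have hden : 0 < 1 - η₃ := by linarith
            refine key (ξ₂ / (1 - η₃)) 0 (div_nonneg hξ₂ hden.le)
              (by rw [div_le_one hden]; linarith) le_rfl zero_le_one ?_
            have e : (ξ₂ / (1 - η₃) * (η₁ + g₁ / ξ₂ * (1 - η₁))
                + (1 - ξ₂ / (1 - η₃)) * (η₃ + g₂ / (1 - ξ₂) * (1 - η₃)))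
                - (0 * (η₁ - g₁ / ξ₄ * η₁) + (1 - 0) * (η₃ - g₂ / (1 - ξ₄) * η₃)) - (g₁ + g₂)
                = (η₁ - η₃) * (ξ₂ - g₁) / (1 - η₃)
                  + g₂ * η₃ * (ξ₄ - ξ₂) / ((1 - ξ₂) * (1 - ξ₄)) := by
              field_simp
              ring
            have n1 : 0 ≤ (η₁ - η₃) * (ξ₂ - g₁) / (1 - η₃) :=
              div_nonneg (mul_nonneg (by linarith) (by linarith)) hden.le
            have n2 : 0 ≤ g₂ * η₃ * (ξ₄ - ξ₂) / ((1 - ξ₂) * (1 - ξ₄)) :=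
              div_nonneg (mul_nonneg (mul_nonneg hg₂ hη₃) (by linarith))
                (mul_pos hξ₂q hξ₄q).le
            linarith
          · -- certificate 5
            have hden : 0 < η₁ := by linarith
            refine key 1 ((η₁ - 1 + ξ₄) / η₁) zero_le_one le_rfl
              (div_nonneg (by linarith) hden.le) (by rw [div_le_one hden]; linarith) ?_
            have e : (1 * (η₁ + g₁ / ξ₂ * (1 - η₁))
                + (1 - 1) * (η₃ + g₂ / (1 - ξ₂) * (1 - η₃)))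
                - ((η₁ - 1 + ξ₄) / η₁ * (η₁ - g₁ / ξ₄ * η₁)
                  + (1 - (η₁ - 1 + ξ₄) / η₁) * (η₃ - g₂ / (1 - ξ₄) * η₃)) - (g₁ + g₂)
                = (η₁ - η₃) * (1 - ξ₄ - g₂) / η₁
                  + g₁ * (1 - η₁) * (ξ₄ - ξ₂) / (ξ₄ * ξ₂) := by
              field_simp
              ring
            have n1 : 0 ≤ (η₁ - η₃) * (1 - ξ₄ - g₂) / η₁ :=
              div_nonneg (mul_nonneg (by linarith) (by linarith)) hden.le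
            have n2 : 0 ≤ g₁ * (1 - η₁) * (ξ₄ - ξ₂) / (ξ₄ * ξ₂) :=
              div_nonneg (mul_nonneg (mul_nonneg hg₁ (by linarith)) (by linarith))
                (mul_pos hξ₄p hξ₂p).le
            linarith
        · -- certificate 1
          refine key ξ₂ ξ₄ hξ₂ hξ₂' hξ₄ hξ₄' ?_
          have e : (ξ₂ * (η₁ + g₁ / ξ₂ * (1 - η₁)) + (1 - ξ₂) * (η₃ + g₂ / (1 - ξ₂) * (1 - η₃)))
              - (ξ₄ * (η₁ - g₁ / ξ₄ * η₁) + (1 - ξ₄) * (η₃ - g₂ / (1 - ξ₄) * η₃)) - (g₁ + g₂)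
              = (ξ₂ - ξ₄) * (η₁ - η₃) := by
            field_simp
            ring
          nlinarith [mul_nonneg (sub_nonneg.mpr hx) (sub_nonneg.mpr he)]

end Vale.Agent.Lib.BangCore
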