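import Mathlib
import Vale.Agent.Lib.BangCore

namespace Vale.Agent.Lib.BangStrip

open Set MeasureTheory Vale.Agent.Lib.BangCore

/-- The core lemma in a general bounding box `[x₀,x₁] × [y₀,y₁]`. -/
theorem box_points {S : Set (ℝ × ℝ)} (hS : Convex ℝ S) {x₀ x₁ y₀ y₁ η₁ η₃ ξ₂ ξ₄ g₁ g₂ : ℝ}
    (hb : x₀ < x₁) (ha : y₀ < y₁)
    (h1 : (x₀, η₁) ∈ S) (h2 : (ξ₂, y₁) ∈ S) (h3 : (x₁, η₃) ∈ S) (h4 : (ξ₄, y₀) ∈ S)
    (hη₁ : y₀ ≤ η₁) (hη₁' : η₁ ≤ y₁) (hη₃ : y₀ ≤ η₃) (hη₃' : η₃ ≤ y₁)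
    (hξ₂ : x₀ ≤ ξ₂) (hξ₂' : ξ₂ ≤ x₁) (hξ₄ : x₀ ≤ ξ₄) (hξ₄' : ξ₄ ≤ x₁)
    (hg₁ : 0 ≤ g₁) (hg₂ : 0 ≤ g₂) (hg : g₁ + g₂ ≤ x₁ - x₀) (hpos : 0 < g₁ + g₂) :
    ∃ p ∈ S, ∃ q ∈ S,
      ((p.1 ≤ x₀ + g₁ ∧ 0 < g₁) ∨ (x₁ - g₂ ≤ p.1 ∧ 0 < g₂)) ∧
      ((q.1 ≤ x₀ + g₁ ∧ 0 < g₁) ∨ (x₁ - g₂ ≤ q.1 ∧ 0 < g₂)) ∧
      (y₁ - y₀) * (g₁ + g₂) ≤ (q.2 - p.2) * (x₁ - x₀) := by
  have hb' : 0 < x₁ - x₀ := sub_pos.mpr hb
  have ha' : 0 < y₁ - y₀ := sub_pos.mpr ha
  set b := x₁ - x₀ with hbdef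
  set a := y₁ - y₀ with hadef
  let S' : Set (ℝ × ℝ) := {u | (x₀ + b * u.1, y₀ + a * u.2) ∈ S}
  have hS' : Convex ℝ S' := by
    intro u hu v hv α β hα hβ hαβ
    have h := hS hu hv hα hβ hαβ
    show (x₀ + b * (α • u + β • v).1, y₀ + a * (α • u + β • v).2) ∈ S
    have e : α • ((x₀ + b * u.1, y₀ + a * u.2) : ℝ × ℝ) + β • ((x₀ + b * v.1, y₀ + a * v.2) : ℝ × ℝ)
        = (x₀ + b * (α • u + β • v).1, y₀ + a * (α • u + β • v).2) := by
      have hβ' : β = 1 - α := by linarith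
      ext
      · simp only [Prod.fst_add, Prod.smul_fst, smul_eq_mul]; rw [hβ']; ring
      · simp only [Prod.snd_add, Prod.smul_snd, smul_eq_mul]; rw [hβ']; ring
    rw [e] at h
    exact h
  have m1 : ((0:ℝ), (η₁ - y₀) / a) ∈ S' := by
    show (x₀ + b * 0, y₀ + a * ((η₁ - y₀) / a)) ∈ S
    have e1 : x₀ + b * 0 = x₀ := by ring
    have e2 : y₀ + a * ((η₁ - y₀) / a) = η₁ := by field_simp; ring
    rw [e1, e2]; exact h1
  have m2 : ((ξ₂ - x₀) / b, (1:ℝ)) ∈ S' := by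
    show (x₀ + b * ((ξ₂ - x₀) / b), y₀ + a * 1) ∈ S
    have e1 : x₀ + b * ((ξ₂ - x₀) / b) = ξ₂ := by field_simp; ring
    have e2 : y₀ + a * 1 = y₁ := by rw [hadef]; ring
    rw [e1, e2]; exact h2
  have m3 : ((1:ℝ), (η₃ - y₀) / a) ∈ S' := by
    show (x₀ + b * 1, y₀ + a * ((η₃ - y₀) / a)) ∈ S
    have e1 : x₀ + b * 1 = x₁ := by rw [hbdef]; ring
    have e2 : y₀ + a * ((η₃ - y₀) / a) = η₃ := by field_simp; ring
    rw [e1, e2]; exact h3
  have m4 : ((ξ₄ - x₀) / b, (0:ℝ)) ∈ S' := by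
    show (x₀ + b * ((ξ₄ - x₀) / b), y₀ + a * 0) ∈ S
    have e1 : x₀ + b * ((ξ₄ - x₀) / b) = ξ₄ := by field_simp; ring
    have e2 : y₀ + a * 0 = y₀ := by ring
    rw [e1, e2]; exact h4
  obtain ⟨p, hp, q, hq, rp, rq, hpq⟩ := core hS' m1 m2 m3 m4
    (div_nonneg (by linarith) ha'.le) (by rw [div_le_one ha']; linarith)
    (div_nonneg (by linarith) ha'.le) (by rw [div_le_one ha']; linarith)
    (div_nonneg (by linarith) hb'.le) (by rw [div_le_one hb']; linarith)
    (div_nonneg (by linarith) hb'.le) (by rw [div_le_one hb']; linarith)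
    (div_nonneg hg₁ hb'.le) (div_nonneg hg₂ hb'.le)
    (by rw [← add_div, div_le_one hb']; exact hg)
    (by rw [← add_div]; exact div_pos hpos hb')
  have conv : ∀ u : ℝ × ℝ, Reg (g₁ / b) (g₂ / b) u →
      ((x₀ + b * u.1 ≤ x₀ + g₁ ∧ 0 < g₁) ∨ (x₁ - g₂ ≤ x₀ + b * u.1 ∧ 0 < g₂)) := by
    intro u hu
    rcases hu with ⟨h, hpos'⟩ | ⟨h, hpos'⟩
    · left
      have hg₁p : 0 < g₁ := by
        rcases hg₁.eq_or_lt with h0 | h0
        · rw [← h0] at hpos'; simp at hpos'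
        · exact h0
      refine ⟨?_, hg₁p⟩
      have := mul_le_mul_of_nonneg_left h hb'.le
      rw [mul_div_cancel₀ _ hb'.ne'] at this
      linarith
    · right
      have hg₂p : 0 < g₂ := by
        rcases hg₂.eq_or_lt with h0 | h0
        · rw [← h0] at hpos'; simp at hpos'
        · exact h0
      refine ⟨?_, hg₂p⟩
      have := mul_le_mul_of_nonneg_left h hb'.le
      rw [mul_sub, mul_one, mul_div_cancel₀ _ hb'.ne'] at this
      have hx : x₁ = x₀ + b := by rw [hbdef]; ring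
      linarith
  refine ⟨(x₀ + b * p.1, y₀ + a * p.2), hp, (x₀ + b * q.1, y₀ + a * q.2), hq, conv p rp,
    conv q rq, ?_⟩
  show a * (g₁ + g₂) ≤ ((y₀ + a * q.2) - (y₀ + a * p.2)) * b
  have e : g₁ / b + g₂ / b = (g₁ + g₂) / b := by rw [add_div]
  rw [e] at hpq
  have h2 : (g₁ + g₂) ≤ (q.2 - p.2) * b := by
    have := mul_le_mul_of_nonneg_right hpq hb'.le
    rwa [div_mul_cancel₀ _ hb'.ne'] at this
  nlinarith

/-- An order-connected set of reals containing `u` and `v` has length at least `v - u`. -/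
theorem vol_ge_of_mem {X : Set ℝ} (hX : X.OrdConnected) {u v : ℝ} (hu : u ∈ X) (hv : v ∈ X)
    (hfin : volume X ≠ ⊤) : v - u ≤ (volume X).toReal := by
  rcases le_total u v with h | h
  · have hsub : Icc u v ⊆ X := hX.out hu hv
    have h1 := measure_mono (μ := volume) hsub
    rw [Real.volume_Icc] at h1
    have h2 := ENNReal.toReal_mono hfin h1
    rwa [ENNReal.toReal_ofReal (by linarith)] at h2
  · have : 0 ≤ (volume X).toReal := ENNReal.toReal_nonneg
    linarith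

/-- The planar two-strip inequality (Bang's affine plank inequality for two perpendicular
strips): if a convex compact planar set `S` is covered by a vertical strip `E × ℝ` and a
horizontal strip `ℝ × F`, then `|E ∩ I| / |I| + |F ∩ J| / |J| ≥ 1`, where `I`, `J` are the two
coordinate projections of `S` (stated without division). -/
theorem strip {S : Set (ℝ × ℝ)} (hS : Convex ℝ S) (hc : IsCompact S) (hne : S.Nonempty)
    {E F : Set ℝ} (hE : E.OrdConnected) (hF : F.OrdConnected)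
    (hcov : ∀ p ∈ S, p.1 ∈ E ∨ p.2 ∈ F) :
    (volume (Prod.fst '' S)).toReal * (volume (Prod.snd '' S)).toReal
      ≤ (volume (E ∩ Prod.fst '' S)).toReal * (volume (Prod.snd '' S)).toReal
        + (volume (F ∩ Prod.snd '' S)).toReal * (volume (Prod.fst '' S)).toReal := by
  set I := Prod.fst '' S with hIdef
  set J := Prod.snd '' S with hJdef
  have hIc : IsCompact I := hc.image continuous_fst
  have hJc : IsCompact J := hc.image continuous_snd
  have hIne : I.Nonempty := hne.image _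
  have hJne : J.Nonempty := hne.image _
  have hIconn : IsConnected I := (hS.isConnected hne).image _ continuous_fst.continuousOn
  have hJconn : IsConnected J := (hS.isConnected hne).image _ continuous_snd.continuousOn
  have hI : I = Icc (sInf I) (sSup I) := eq_Icc_of_connected_compact hIconn hIc
  have hJ : J = Icc (sInf J) (sSup J) := eq_Icc_of_connected_compact hJconn hJc
  set x₀ := sInf I with hx₀
  set x₁ := sSup I with hx₁
  set y₀ := sInf J with hy₀
  set y₁ := sSup J with hy₁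
  have hx₀m : x₀ ∈ I := hIc.sInf_mem hIne
  have hx₁m : x₁ ∈ I := hIc.sSup_mem hIne
  have hy₀m : y₀ ∈ J := hJc.sInf_mem hJne
  have hy₁m : y₁ ∈ J := hJc.sSup_mem hJne
  have hxle : x₀ ≤ x₁ := by have := hx₁m; rw [hI] at this; exact this.1
  have hyle : y₀ ≤ y₁ := by have := hy₁m; rw [hJ] at this; exact this.1
  have vI : (volume I).toReal = x₁ - x₀ := by
    rw [hI, Real.volume_Icc, ENNReal.toReal_ofReal (by linarith)]
  have vJ : (volume J).toReal = y₁ - y₀ := by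
    rw [hJ, Real.volume_Icc, ENNReal.toReal_ofReal (by linarith)]
  have hIfin : volume I ≠ ⊤ := by rw [hI, Real.volume_Icc]; exact ENNReal.ofReal_ne_top
  have hJfin : volume J ≠ ⊤ := by rw [hJ, Real.volume_Icc]; exact ENNReal.ofReal_ne_top
  have hEfin : volume (E ∩ I) ≠ ⊤ :=
    ne_top_of_le_ne_top hIfin (measure_mono inter_subset_right)
  have hFfin : volume (F ∩ J) ≠ ⊤ :=
    ne_top_of_le_ne_top hJfin (measure_mono inter_subset_right)
  have nE : 0 ≤ (volume (E ∩ I)).toReal := ENNReal.toReal_nonneg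
  have nF : 0 ≤ (volume (F ∩ J)).toReal := ENNReal.toReal_nonneg
  rw [vI, vJ]
  rcases hxle.eq_or_lt with hxe | hxlt
  · rw [hxe]; simp only [sub_self, zero_mul, mul_zero, add_zero]
    exact mul_nonneg nE (by linarith)
  rcases hyle.eq_or_lt with hye | hylt
  · rw [hye]; simp only [sub_self, zero_mul, mul_zero, zero_add]
    exact mul_nonneg nF (by linarith)
  -- bounds for points of S
  have hbd : ∀ p ∈ S, x₀ ≤ p.1 ∧ p.1 ≤ x₁ ∧ y₀ ≤ p.2 ∧ p.2 ≤ y₁ := by
    intro p hp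
    have h1 : p.1 ∈ I := mem_image_of_mem _ hp
    have h2 : p.2 ∈ J := mem_image_of_mem _ hp
    rw [hI] at h1; rw [hJ] at h2
    exact ⟨h1.1, h1.2, h2.1, h2.2⟩
  obtain ⟨P₁, hP₁, hP₁x⟩ := hx₀m
  obtain ⟨P₃, hP₃, hP₃x⟩ := hx₁m
  obtain ⟨P₄, hP₄, hP₄y⟩ := hy₀m
  obtain ⟨P₂, hP₂, hP₂y⟩ := hy₁m
  by_cases hEne : (E ∩ I).Nonempty
  · -- the vertical strip meets the projection
    have hbddB : BddBelow (E ∩ I) := ⟨x₀, fun z hz => by have := hz.2; rw [hI] at this; exact this.1⟩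
    have hbddA : BddAbove (E ∩ I) := ⟨x₁, fun z hz => by have := hz.2; rw [hI] at this; exact this.2⟩
    set e₀ := sInf (E ∩ I) with he₀
    set e₁ := sSup (E ∩ I) with he₁
    have h0 : x₀ ≤ e₀ := le_csInf hEne (fun z hz => by have := hz.2; rw [hI] at this; exact this.1)
    have h1 : e₁ ≤ x₁ := csSup_le hEne (fun z hz => by have := hz.2; rw [hI] at this; exact this.2)
    have h01 : e₀ ≤ e₁ := by
      obtain ⟨z, hz⟩ := hEne
      exact le_trans (csInf_le hbddB hz) (le_csSup hbddA hz)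
    have hEI : (E ∩ I).OrdConnected := by
      rw [hI]; exact hE.inter ordConnected_Icc
    have hvE : e₁ - e₀ ≤ (volume (E ∩ I)).toReal := by
      have hsub : Ioo e₀ e₁ ⊆ E ∩ I := by
        intro z hz
        obtain ⟨u, hu, huz⟩ := exists_lt_of_csInf_lt hEne hz.1
        obtain ⟨v, hv, hzv⟩ := exists_lt_of_lt_csSup hEne hz.2
        exact hEI.out hu hv ⟨huz.le, hzv.le⟩
      have h1 := measure_mono (μ := volume) hsub
      rw [Real.volume_Ioo] at h1
      have h2 := ENNReal.toReal_mono hEfin h1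
      rwa [ENNReal.toReal_ofReal (by linarith)] at h2
    have hFJ : (F ∩ J).OrdConnected := by
      rw [hJ]; exact hF.inter ordConnected_Icc
    have key : (y₁ - y₀) * ((e₀ - x₀) + (x₁ - e₁)) ≤ (volume (F ∩ J)).toReal * (x₁ - x₀) := by
      apply le_of_forall_pos_le_add
      intro ε hε
      set δ := ε / (2 * (y₁ - y₀)) with hδ
      have hδpos : 0 < δ := div_pos hε (by linarith)
      have hδe : 2 * (y₁ - y₀) * δ = ε := by
        rw [hδ]; field_simp
      set g₁ := max (e₀ - x₀ - δ) 0 with hg₁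
      set g₂ := max (x₁ - e₁ - δ) 0 with hg₂
      have g₁0 : 0 ≤ g₁ := le_max_right _ _
      have g₂0 : 0 ≤ g₂ := le_max_right _ _
      have g₁a : e₀ - x₀ - δ ≤ g₁ := le_max_left _ _
      have g₂a : x₁ - e₁ - δ ≤ g₂ := le_max_left _ _
      have g₁b : g₁ ≤ e₀ - x₀ := max_le (by linarith) (by linarith)
      have g₂b : g₂ ≤ x₁ - e₁ := max_le (by linarith) (by linarith)
      by_cases hz : 0 < g₁ + g₂
      · obtain ⟨p, hp, q, hq, rp, rq, hpq⟩ := box_points hS hxlt hylt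
          (show (x₀, P₁.2) ∈ S by rw [← hP₁x]; exact hP₁)
          (show (P₂.1, y₁) ∈ S by rw [← hP₂y]; exact hP₂)
          (show (x₁, P₃.2) ∈ S by rw [← hP₃x]; exact hP₃)
          (show (P₄.1, y₀) ∈ S by rw [← hP₄y]; exact hP₄)
          (hbd P₁ hP₁).2.2.1 (hbd P₁ hP₁).2.2.2 (hbd P₃ hP₃).2.2.1 (hbd P₃ hP₃).2.2.2
          (hbd P₂ hP₂).1 (hbd P₂ hP₂).2.1 (hbd P₄ hP₄).1 (hbd P₄ hP₄).2.1
          g₁0 g₂0 (by linarith) hz
        -- points of the admissible region are not covered by the vertical strip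
        have unc : ∀ u ∈ S, ((u.1 ≤ x₀ + g₁ ∧ 0 < g₁) ∨ (x₁ - g₂ ≤ u.1 ∧ 0 < g₂)) →
            u.2 ∈ F ∩ J := by
          intro u hu hr
          refine ⟨?_, mem_image_of_mem _ hu⟩
          have huI : u.1 ∈ I := mem_image_of_mem _ hu
          have hnot : u.1 ∉ E := by
            intro huE
            have hmem : u.1 ∈ E ∩ I := ⟨huE, huI⟩
            rcases hr with ⟨h, hpos⟩ | ⟨h, hpos⟩
            · have hg : g₁ = e₀ - x₀ - δ := by
                rcases max_choice (e₀ - x₀ - δ) 0 with hm | hm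
                · exact hm
                · rw [hg₁, hm] at hpos; exact absurd hpos (lt_irrefl _)
              have := csInf_le hbddB hmem
              linarith
            · have hg : g₂ = x₁ - e₁ - δ := by
                rcases max_choice (x₁ - e₁ - δ) 0 with hm | hm
                · exact hm
                · rw [hg₂, hm] at hpos; exact absurd hpos (lt_irrefl _)
              have := le_csSup hbddA hmem
              linarith
          rcases hcov u hu with h | h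
          · exact absurd h hnot
          · exact h
        have hv := vol_ge_of_mem hFJ (unc p hp rp) (unc q hq rq) hFfin
        have hmul : (q.2 - p.2) * (x₁ - x₀) ≤ (volume (F ∩ J)).toReal * (x₁ - x₀) :=
          mul_le_mul_of_nonneg_right hv (by linarith)
        have hgg : (e₀ - x₀) + (x₁ - e₁) ≤ g₁ + g₂ + 2 * δ := by linarith
        have hmul2 : (y₁ - y₀) * ((e₀ - x₀) + (x₁ - e₁)) ≤ (y₁ - y₀) * (g₁ + g₂ + 2 * δ) :=
          mul_le_mul_of_nonneg_left hgg (by linarith)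
        nlinarith
      · have hz' : g₁ + g₂ ≤ 0 := not_lt.mp hz
        have hgg : (e₀ - x₀) + (x₁ - e₁) ≤ 2 * δ := by linarith
        have hmul2 : (y₁ - y₀) * ((e₀ - x₀) + (x₁ - e₁)) ≤ (y₁ - y₀) * (2 * δ) :=
          mul_le_mul_of_nonneg_left hgg (by linarith)
        have : 0 ≤ (volume (F ∩ J)).toReal * (x₁ - x₀) := mul_nonneg nF (by linarith)
        nlinarith
    have hmulE : (e₁ - e₀) * (y₁ - y₀) ≤ (volume (E ∩ I)).toReal * (y₁ - y₀) :=
      mul_le_mul_of_nonneg_right hvE (by linarith)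
    nlinarith
  · -- the vertical strip misses the projection: the horizontal strip covers everything
    have hJF : J ⊆ F := by
      rintro y ⟨p, hp, rfl⟩
      rcases hcov p hp with h | h
      · exact absurd ⟨p.1, ⟨h, mem_image_of_mem _ hp⟩⟩ hEne
      · exact h
    have : F ∩ J = J := inter_eq_right.mpr hJF
    rw [this, vJ]
    have : 0 ≤ (volume (E ∩ I)).toReal * (y₁ - y₀) := mul_nonneg nE (by linarith)
    nlinarith

end Vale.Agent.Lib.BangStrip
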