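import Mathlib
import Vale.Agent.Lib.BangStrip

namespace Vale.Agent.Lib.BangSlices

open Set MeasureTheory Vale.Agent.Lib.BangStrip

/-- Length of the slice of a planar set above the first coordinate `t`. -/
noncomputable def sl (Q : Set (ℝ × ℝ)) (t : ℝ) : ℝ := (volume (Prod.mk t ⁻¹' Q)).toReal

theorem sl_nonneg (Q : Set (ℝ × ℝ)) (t : ℝ) : 0 ≤ sl Q t := ENNReal.toReal_nonneg

theorem sl_integrable {Q : Set (ℝ × ℝ)} (hQ : MeasurableSet Q) (hfin : volume Q ≠ ⊤) :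
    Integrable (sl Q) ∧ ∫ t, sl Q t = (volume Q).toReal := by
  have hmeas : Measurable fun t : ℝ => volume (Prod.mk t ⁻¹' Q) :=
    measurable_measure_prodMk_left hQ
  have hvol : volume Q = ∫⁻ t, volume (Prod.mk t ⁻¹' Q) := by
    rw [Measure.volume_eq_prod]; exact Measure.prod_apply hQ
  have hne : ∫⁻ t, volume (Prod.mk t ⁻¹' Q) ≠ ⊤ := by rw [← hvol]; exact hfin
  refine ⟨integrable_toReal_of_lintegral_ne_top hmeas.aemeasurable hne, ?_⟩
  rw [hvol]
  exact integral_toReal hmeas.aemeasurable (ae_lt_top hmeas hne)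

theorem slice_compact {Y : Type*} [TopologicalSpace Y] [T2Space Y] {P : Set (ℝ × Y)}
    (hP : IsCompact P) (t : ℝ) : IsCompact (Prod.mk t ⁻¹' P) := by
  have hcl : IsClosed (Prod.mk t ⁻¹' P) := hP.isClosed.preimage (by fun_prop)
  refine IsCompact.of_isClosed_subset (hP.image continuous_snd) hcl ?_
  intro y hy
  exact ⟨(t, y), hy, rfl⟩

theorem slice_convex {E : Type*} [AddCommGroup E] [Module ℝ E] {P : Set (ℝ × E)}
    (hP : Convex ℝ P) (t : ℝ) : Convex ℝ (Prod.mk t ⁻¹' P) := by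
  intro y hy z hz a b ha hb hab
  have h := hP hy hz ha hb hab
  have e : a • ((t, y) : ℝ × E) + b • ((t, z) : ℝ × E) = (t, a • y + b • z) := by
    refine Prod.ext ?_ rfl
    simp only [Prod.fst_add, Prod.smul_fst, smul_eq_mul]
    rw [← add_mul, hab, one_mul]
  rw [e] at h
  exact h

theorem exists_len {X : Set ℝ} (hc : IsCompact X) (hne : X.Nonempty) :
    ∃ p ∈ X, ∃ q ∈ X, (volume X).toReal ≤ q - p := by
  have hp := hc.sInf_mem hne
  have hq := hc.sSup_mem hne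
  refine ⟨sInf X, hp, sSup X, hq, ?_⟩
  have hsub : X ⊆ Icc (sInf X) (sSup X) :=
    fun z hz => ⟨csInf_le hc.bddBelow hz, le_csSup hc.bddAbove hz⟩
  have hle : sInf X ≤ sSup X := (hsub hp).2
  have h1 := measure_mono (μ := volume) hsub
  rw [Real.volume_Icc] at h1
  have h2 := ENNReal.toReal_mono ENNReal.ofReal_ne_top h1
  rwa [ENNReal.toReal_ofReal (by linarith)] at h2

theorem sl_concave {P : Set (ℝ × ℝ)} (hP : Convex ℝ P) (hc : IsCompact P) :
    ConcaveOn ℝ (Prod.fst '' P) (sl P) := by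
  refine ⟨?_, ?_⟩
  · rintro _ ⟨p, hp, rfl⟩ _ ⟨q, hq, rfl⟩ a b ha hb hab
    exact ⟨a • p + b • q, hP hp hq ha hb hab, rfl⟩
  · rintro _ ⟨p, hp, rfl⟩ _ ⟨q, hq, rfl⟩ a b ha hb hab
    obtain ⟨u, hu, v, hv, huv⟩ := exists_len (slice_compact hc p.1) ⟨p.2, hp⟩
    obtain ⟨u', hu', v', hv', huv'⟩ := exists_len (slice_compact hc q.1) ⟨q.2, hq⟩
    have hZ := slice_convex hP (a • p.1 + b • q.1)
    have m1 : a • u + b • u' ∈ Prod.mk (a • p.1 + b • q.1) ⁻¹' P := hP hu hu' ha hb hab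
    have m2 : a • v + b • v' ∈ Prod.mk (a • p.1 + b • q.1) ⁻¹' P := hP hv hv' ha hb hab
    have hfin : volume (Prod.mk (a • p.1 + b • q.1) ⁻¹' P) ≠ ⊤ :=
      (slice_compact hc _).measure_lt_top.ne
    have h3 := vol_ge_of_mem hZ.ordConnected m1 m2 hfin
    have h4 := mul_le_mul_of_nonneg_left huv ha
    have h5 := mul_le_mul_of_nonneg_left huv' hb
    simp only [smul_eq_mul, sl] at *
    linarith

theorem sl_eq_zero {P : Set (ℝ × ℝ)} {t : ℝ} (ht : t ∉ Prod.fst '' P) : sl P t = 0 := by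
  have h : Prod.mk t ⁻¹' P = ∅ := by
    ext y
    simp only [mem_preimage, mem_empty_iff_false, iff_false]
    intro hy
    exact ht ⟨(t, y), hy, rfl⟩
  simp [sl, h]

theorem integral_eq_interval {h : ℝ → ℝ} {t₀ t₁ : ℝ} (h01 : t₀ ≤ t₁)
    (hz : ∀ t, t ∉ Icc t₀ t₁ → h t = 0) : ∫ t in t₀..t₁, h t = ∫ t, h t := by
  rw [intervalIntegral.integral_of_le h01, ← integral_Icc_eq_integral_Ioc,
    setIntegral_eq_integral_of_forall_compl_eq_zero hz]

end Vale.Agent.Lib.BangSlices
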