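import Mathlib
import Vale.Agent.Lib.BangPlank
import Vale.Agent.Lib.BangConcave
import Vale.Agent.Lib.BangSlices

namespace Vale.Agent.Lib.BangCoplanar

open Set MeasureTheory Vale.Agent.Lib.BangPlank Vale.Agent.Lib.BangConcave
  Vale.Agent.Lib.BangSlices

variable {E : Type*} [NormedAddCommGroup E] [InnerProductSpace ℝ E]

/-- The unit vectors orthogonal to `n`. -/
def Dir (n : E) : Set E := {v | ‖v‖ = 1 ∧ inner ℝ v n = 0}

/-- The shadow of `K` in the coordinates `(⟪p, n⟫, ⟪p, θ⟫)`. -/
def Sh (K : Set E) (n θ : E) : Set (ℝ × ℝ) := (fun p : E => (inner ℝ p n, inner ℝ p θ)) '' K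

/-- The section of `K` by the hyperplane `⟪p, n⟫ = t`. -/
def Lev (K : Set E) (n : E) (t : ℝ) : Set E := {p | p ∈ K ∧ inner ℝ p n = t}

theorem Sh_compact {K : Set E} (hKc : IsCompact K) (n θ : E) : IsCompact (Sh K n θ) :=
  hKc.image (by fun_prop)

theorem Sh_convex {K : Set E} (hK : Convex ℝ K) (n θ : E) : Convex ℝ (Sh K n θ) := by
  rintro _ ⟨p, hp, rfl⟩ _ ⟨q, hq, rfl⟩ a b ha hb hab
  refine ⟨a • p + b • q, hK hp hq ha hb hab, ?_⟩
  exact Prod.ext (by simp [inner_add_left, real_inner_smul_left])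
    (by simp [inner_add_left, real_inner_smul_left])

theorem fst_Sh (K : Set E) (n θ : E) :
    Prod.fst '' Sh K n θ = (fun p : E => inner ℝ p n) '' K := by
  rw [Sh, image_image]

theorem slice_Sh (K : Set E) (n θ : E) (t : ℝ) :
    Prod.mk t ⁻¹' Sh K n θ = (fun p : E => inner ℝ p θ) '' Lev K n t := by
  ext s
  constructor
  · rintro ⟨p, hp, hps⟩
    have h1 : inner ℝ p n = t := congrArg Prod.fst hps
    have h2 : inner ℝ p θ = s := congrArg Prod.snd hps
    exact ⟨p, ⟨hp, h1⟩, h2⟩
  · rintro ⟨p, ⟨hp, h1⟩, h2⟩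
    exact ⟨p, hp, Prod.ext h1 h2⟩

theorem Lev_compact {K : Set E} (hKc : IsCompact K) (n : E) (t : ℝ) :
    IsCompact (Lev K n t) := by
  have h : Lev K n t = K ∩ (fun p : E => inner ℝ p n) ⁻¹' {t} := by
    ext p
    rfl
  rw [h]
  exact hKc.inter_right (isClosed_singleton.preimage (by fun_prop))

theorem Lev_convex {K : Set E} (hK : Convex ℝ K) (n : E) (t : ℝ) : Convex ℝ (Lev K n t) := by
  intro p hp q hq a b ha hb hab
  refine ⟨hK hp.1 hq.1 ha hb hab, ?_⟩
  rw [inner_add_left, real_inner_smul_left, real_inner_smul_left, hp.2, hq.2, ← add_mul, hab,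
    one_mul]

theorem Lev_flat (K : Set E) (n : E) (t : ℝ) :
    ∀ p ∈ Lev K n t, ∀ q ∈ Lev K n t, inner ℝ (q - p) n = 0 := by
  intro p hp q hq
  rw [inner_sub_left, hp.2, hq.2, sub_self]

/-- The midpoint inequality for concave functions. -/
theorem midpoint_bound {f : ℝ → ℝ} {a b : ℝ} (hab : a ≤ b) (hf : ConcaveOn ℝ (Icc a b) f)
    (hfi : IntervalIntegrable f volume a b) :
    ∫ t in a..b, f t ≤ (b - a) * f ((a + b) / 2) := by
  have e1 : a + b - b = a := by ring
  have e2 : a + b - a = b := by ring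
  have hrefl : ∫ t in a..b, f (a + b - t) = ∫ t in a..b, f t := by
    rw [intervalIntegral.integral_comp_sub_left (fun t => f t) (a + b), e1, e2]
  have hfi' : IntervalIntegrable (fun t => f (a + b - t)) volume a b := by
    have h := (hfi.comp_sub_left (a + b)).symm
    rwa [e1, e2] at h
  have hpt : ∀ t ∈ Icc a b, f t + f (a + b - t) ≤ 2 * f ((a + b) / 2) := by
    intro t ht
    have ht' : a + b - t ∈ Icc a b := ⟨by linarith [ht.2], by linarith [ht.1]⟩
    have h := hf.2 ht ht' (by norm_num : (0:ℝ) ≤ 1 / 2) (by norm_num : (0:ℝ) ≤ 1 / 2)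
      (by norm_num)
    simp only [smul_eq_mul] at h
    have e : 1 / 2 * t + 1 / 2 * (a + b - t) = (a + b) / 2 := by ring
    rw [e] at h
    linarith
  have hmono := intervalIntegral.integral_mono_on hab (hfi.add hfi')
    (intervalIntegrable_const (μ := volume) (c := 2 * f ((a + b) / 2))) hpt
  rw [intervalIntegral.integral_add hfi hfi', hrefl, intervalIntegral.integral_const,
    smul_eq_mul] at hmono
  linarith

/-- A function dominating the tent of height `W` over `[a, b]` has integral at least half of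
`W * (b - a)`. -/
theorem tent_lintegral {a b W : ℝ} (hab : a < b) (hW : 0 ≤ W) (F : ℝ → ENNReal)
    (hF : ∀ t ∈ Icc a b, ENNReal.ofReal (2 * W / (b - a) * min (t - a) (b - t)) ≤ F t) :
    ENNReal.ofReal (W * (b - a) / 2) ≤ ∫⁻ t, F t := by
  have hba : 0 < b - a := sub_pos.mpr hab
  have hc : 0 ≤ 2 * W / (b - a) := by positivity
  have hcont : Continuous (fun t : ℝ => 2 * W / (b - a) * min (t - a) (b - t)) := by fun_prop
  have hnn : ∀ t ∈ Icc a b, 0 ≤ 2 * W / (b - a) * min (t - a) (b - t) := by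
    intro t ht
    have h : 0 ≤ min (t - a) (b - t) := le_min (by linarith [ht.1]) (by linarith [ht.2])
    positivity
  have hconc : ConcaveOn ℝ (Icc a b) (fun t : ℝ => 2 * W / (b - a) * min (t - a) (b - t)) := by
    refine ⟨convex_Icc a b, ?_⟩
    intro x _ y _ α β hα hβ hαβ
    simp only [smul_eq_mul]
    have h1 : α * min (x - a) (b - x) + β * min (y - a) (b - y)
        ≤ min (α * x + β * y - a) (b - (α * x + β * y)) := by
      have ea : α * a + β * a = a := by rw [← add_mul, hαβ, one_mul]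
      have eb : α * b + β * b = b := by rw [← add_mul, hαβ, one_mul]
      refine le_min ?_ ?_
      · have h2 := mul_le_mul_of_nonneg_left (min_le_left (x - a) (b - x)) hα
        have h3 := mul_le_mul_of_nonneg_left (min_le_left (y - a) (b - y)) hβ
        linarith
      · have h2 := mul_le_mul_of_nonneg_left (min_le_right (x - a) (b - x)) hα
        have h3 := mul_le_mul_of_nonneg_left (min_le_right (y - a) (b - y)) hβ
        linarith
    calc α * (2 * W / (b - a) * min (x - a) (b - x)) + β * (2 * W / (b - a) * min (y - a) (b - y))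
        = 2 * W / (b - a) * (α * min (x - a) (b - x) + β * min (y - a) (b - y)) := by ring
      _ ≤ 2 * W / (b - a) * min (α * x + β * y - a) (b - (α * x + β * y)) :=
          mul_le_mul_of_nonneg_left h1 hc
  have hii : IntervalIntegrable (fun t : ℝ => 2 * W / (b - a) * min (t - a) (b - t)) volume a b :=
    hcont.intervalIntegrable a b
  have htent := tent hconc hnn hii (s := (a + b) / 2) ⟨by linarith, by linarith⟩
  have hmid : 2 * W / (b - a) * min ((a + b) / 2 - a) (b - (a + b) / 2) = W := by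
    rw [min_eq_left (by linarith)]
    field_simp
    ring
  rw [hmid] at htent
  calc ENNReal.ofReal (W * (b - a) / 2)
      ≤ ENNReal.ofReal (∫ t in a..b, 2 * W / (b - a) * min (t - a) (b - t)) :=
        ENNReal.ofReal_le_ofReal (by linarith)
    _ = ENNReal.ofReal (∫ t in Icc a b, 2 * W / (b - a) * min (t - a) (b - t)) := by
        rw [intervalIntegral.integral_of_le hab.le, integral_Icc_eq_integral_Ioc]
    _ = ∫⁻ t in Icc a b, ENNReal.ofReal (2 * W / (b - a) * min (t - a) (b - t)) := by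
        refine ofReal_integral_eq_lintegral_ofReal hcont.continuousOn.integrableOn_Icc ?_
        exact (ae_restrict_iff' measurableSet_Icc).mpr (Filter.Eventually.of_forall hnn)
    _ ≤ ∫⁻ t in Icc a b, F t := setLIntegral_mono' measurableSet_Icc hF
    _ ≤ ∫⁻ t, F t := setLIntegral_le_lintegral _ _

theorem chord_interp {n : E} {K : Set E} (hK : Convex ℝ K) {z : E} (hz : z ∈ K) {s W lam : ℝ}
    (hch : Chord (Dir n) (Lev K n s) W) (h0 : 0 ≤ lam) (h1 : lam ≤ 1) :
    Chord (Dir n) (Lev K n ((1 - lam) * inner ℝ z n + lam * s)) (lam * W) := by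
  intro v hv
  obtain ⟨p, hp, hq⟩ := hch v hv
  have hsum : (1 - lam) + lam = 1 := by ring
  refine ⟨(1 - lam) • z + lam • p, ⟨hK hz hp.1 (by linarith) h0 hsum, ?_⟩, ⟨?_, ?_⟩⟩
  · rw [inner_add_left, real_inner_smul_left, real_inner_smul_left, hp.2]
  · have e : (1 - lam) • z + lam • p + (lam * W) • v = (1 - lam) • z + lam • (p + W • v) := by
      module
    rw [e]
    exact hK hz hq.1 (by linarith) h0 hsum
  · rw [inner_add_left, inner_add_left, real_inner_smul_left, real_inner_smul_left,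
      real_inner_smul_left, hp.2, hv.2]
    ring

/-- Core theorem, measurable bases.  `K` is covered by the sets
`{p | (⟪p, n⟫, ⟪p, ν i⟫) ∈ B i}` with `ν i` unit vectors orthogonal to `n`; `A` is a lower bound
for the areas of the shadows of `K` in the coordinates `(⟪p, n⟫, ⟪p, θ⟫)`, `θ` a unit vector
orthogonal to `n`.  Then `A` is at most twice the total area of the `B i`. -/
theorem core_meas [CompleteSpace E] {n : E} (hn : ‖n‖ = 1) {K : Set E} (hK : Convex ℝ K)
    (hKc : IsCompact K) {ι : Type*} [Fintype ι] (ν : ι → E) (hν : ∀ i, ν i ∈ Dir n)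
    (B : ι → Set (ℝ × ℝ)) (hB : ∀ i, MeasurableSet (B i))
    (hcov : ∀ p ∈ K, ∃ i, (inner ℝ p n, inner ℝ p (ν i)) ∈ B i)
    (A : ENNReal) (hA : ∀ θ ∈ Dir n, A ≤ volume (Sh K n θ)) (θ₀ : E) (hθ₀ : θ₀ ∈ Dir n) :
    A ≤ 2 * ∑ i, volume (B i) := by
  rcases K.eq_empty_or_nonempty with hKe | hKne
  · have h := hA θ₀ hθ₀
    rw [hKe, Sh, image_empty, measure_empty] at h
    exact h.trans bot_le
  have hTc : IsCompact ((fun p : E => inner ℝ p n) '' K) := hKc.image (by fun_prop)
  have hTconn : IsConnected ((fun p : E => inner ℝ p n) '' K) :=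
    (hK.isConnected hKne).image _ (by fun_prop : Continuous fun p : E => inner ℝ p n).continuousOn
  have hT := eq_Icc_of_connected_compact hTconn hTc
  obtain ⟨a, ha⟩ : ∃ a : ℝ, a = sInf ((fun p : E => inner ℝ p n) '' K) := ⟨_, rfl⟩
  obtain ⟨b, hb⟩ : ∃ b : ℝ, b = sSup ((fun p : E => inner ℝ p n) '' K) := ⟨_, rfl⟩
  rw [← ha, ← hb] at hT
  have hab : a ≤ b := by
    have hmem : sInf ((fun p : E => inner ℝ p n) '' K) ∈ (fun p : E => inner ℝ p n) '' K :=
      hTc.sInf_mem (hKne.image _)
    rw [← ha, hT] at hmem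
    exact hmem.2
  have hshadow : ∀ θ ∈ Dir n,
      (volume (Sh K n θ)).toReal ≤ (b - a) * sl (Sh K n θ) ((a + b) / 2) := by
    intro θ hθ
    have hPc := Sh_compact hKc n θ
    have hPconv := Sh_convex hK n θ
    obtain ⟨hint, hI⟩ := sl_integrable hPc.measurableSet hPc.measure_lt_top.ne
    have hconc : ConcaveOn ℝ (Icc a b) (sl (Sh K n θ)) := by
      have h := sl_concave hPconv hPc
      rwa [fst_Sh, hT] at h
    have hz : ∀ t, t ∉ Icc a b → sl (Sh K n θ) t = 0 := by
      intro t ht
      apply sl_eq_zero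
      rw [fst_Sh, hT]
      exact ht
    rw [← hI, ← integral_eq_interval hab hz]
    exact midpoint_bound hab hconc hint.intervalIntegrable
  have hAfin : A ≠ ⊤ :=
    ne_top_of_le_ne_top (Sh_compact hKc n θ₀).measure_lt_top.ne (hA θ₀ hθ₀)
  rcases hab.eq_or_lt with hab' | hab'
  · have h := hshadow θ₀ hθ₀
    rw [← hab', sub_self, zero_mul] at h
    have h0 : (volume (Sh K n θ₀)).toReal = 0 := le_antisymm h ENNReal.toReal_nonneg
    have h00 : volume (Sh K n θ₀) = 0 := by
      rcases (ENNReal.toReal_eq_zero_iff _).mp h0 with h | h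
      · exact h
      · exact absurd h (Sh_compact hKc n θ₀).measure_lt_top.ne
    have h1 := hA θ₀ hθ₀
    rw [h00] at h1
    exact h1.trans bot_le
  obtain ⟨W, hWdef⟩ : ∃ W : ℝ, W = A.toReal / (b - a) := ⟨_, rfl⟩
  have hba : 0 < b - a := sub_pos.mpr hab'
  have hW0 : 0 ≤ W := by
    rw [hWdef]
    exact div_nonneg ENNReal.toReal_nonneg hba.le
  have hWle : ∀ θ ∈ Dir n, W ≤ sl (Sh K n θ) ((a + b) / 2) := by
    intro θ hθ
    have h1 := hshadow θ hθ
    have h2 : A.toReal ≤ (volume (Sh K n θ)).toReal :=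
      ENNReal.toReal_mono (Sh_compact hKc n θ).measure_lt_top.ne (hA θ hθ)
    rw [hWdef, div_le_iff₀ hba]
    linarith
  have hmidT : (a + b) / 2 ∈ Icc a b := ⟨by linarith, by linarith⟩
  have hlevne : ∀ t ∈ Icc a b, (Lev K n t).Nonempty := by
    intro t ht
    rw [← hT] at ht
    obtain ⟨p, hp, hpt⟩ := ht
    exact ⟨p, hp, hpt⟩
  have hchmid : Chord (Dir n) (Lev K n ((a + b) / 2)) W := by
    refine chord_of_width hn (Lev_convex hK n _) (Lev_compact hKc n _) (hlevne _ hmidT)
      (Lev_flat K n _) hW0 ?_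
    intro θ hθ1 hθn
    have hsl := hWle θ ⟨hθ1, hθn⟩
    have hcomp : IsCompact ((fun p : E => inner ℝ p θ) '' Lev K n ((a + b) / 2)) :=
      (Lev_compact hKc n _).image (by fun_prop)
    obtain ⟨x, hx, y, hy, hxy⟩ := exists_len hcomp ((hlevne _ hmidT).image _)
    obtain ⟨p, hp, rfl⟩ := hx
    obtain ⟨q, hq, rfl⟩ := hy
    refine ⟨p, hp, q, hq, ?_⟩
    rw [inner_sub_left]
    have e : sl (Sh K n θ) ((a + b) / 2)
        = (volume ((fun p : E => inner ℝ p θ) '' Lev K n ((a + b) / 2))).toReal := by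
      rw [sl, slice_Sh]
    linarith
  have hchord : ∀ t ∈ Icc a b,
      Chord (Dir n) (Lev K n t) (2 * W / (b - a) * min (t - a) (b - t)) := by
    intro t ht
    rcases le_total t ((a + b) / 2) with hle | hle
    · obtain ⟨z, hzK, hzn⟩ := hlevne a ⟨le_refl a, hab⟩
      have h := chord_interp hK hzK (s := (a + b) / 2) (W := W) (lam := 2 * (t - a) / (b - a))
        hchmid (div_nonneg (by linarith [ht.1]) hba.le) (by rw [div_le_one hba]; linarith)
      have e1 : (1 - 2 * (t - a) / (b - a)) * inner ℝ z n + 2 * (t - a) / (b - a) * ((a + b) / 2)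
          = t := by
        rw [hzn]
        field_simp
        ring
      have e2 : 2 * (t - a) / (b - a) * W = 2 * W / (b - a) * min (t - a) (b - t) := by
        rw [min_eq_left (by linarith)]
        ring
      rw [e1, e2] at h
      exact h
    · obtain ⟨z, hzK, hzn⟩ := hlevne b ⟨hab, le_refl b⟩
      have h := chord_interp hK hzK (s := (a + b) / 2) (W := W) (lam := 2 * (b - t) / (b - a))
        hchmid (div_nonneg (by linarith [ht.2]) hba.le) (by rw [div_le_one hba]; linarith)
      have e1 : (1 - 2 * (b - t) / (b - a)) * inner ℝ z n + 2 * (b - t) / (b - a) * ((a + b) / 2)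
          = t := by
        rw [hzn]
        field_simp
        ring
      have e2 : 2 * (b - t) / (b - a) * W = 2 * W / (b - a) * min (t - a) (b - t) := by
        rw [min_eq_right (by linarith)]
        ring
      rw [e1, e2] at h
      exact h
  have hslice : ∀ t ∈ Icc a b, ENNReal.ofReal (2 * W / (b - a) * min (t - a) (b - t))
      ≤ ∑ i, volume (Prod.mk t ⁻¹' B i) := by
    intro t ht
    refine plank_sets (Dir n) (fun v hv => hv.1) (Lev_convex hK n t) (Lev_compact hKc n t)
      (hlevne t ht) (hchord t ht) ν hν (fun i => Prod.mk t ⁻¹' B i) ?_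
    intro x hx
    obtain ⟨i, hi⟩ := hcov x hx.1
    refine ⟨i, ?_⟩
    rw [hx.2] at hi
    exact hi
  have hint : ∫⁻ t, ∑ i, volume (Prod.mk t ⁻¹' B i) = ∑ i, volume (B i) := by
    rw [lintegral_finsetSum _ (fun i _ => measurable_measure_prodMk_left (hB i))]
    refine Finset.sum_congr rfl (fun i _ => ?_)
    rw [Measure.volume_eq_prod, Measure.prod_apply (hB i)]
  have htent := tent_lintegral hab' hW0 (fun t => ∑ i, volume (Prod.mk t ⁻¹' B i)) hslice
  rw [hint] at htent
  calc A = ENNReal.ofReal A.toReal := (ENNReal.ofReal_toReal hAfin).symm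
    _ = ENNReal.ofReal (2 * (W * (b - a) / 2)) := by
        rw [hWdef]
        congr 1
        field_simp
    _ = 2 * ENNReal.ofReal (W * (b - a) / 2) := by
        rw [ENNReal.ofReal_mul (by norm_num)]
        simp
    _ ≤ 2 * ∑ i, volume (B i) := by gcongr

/-- Core theorem for arbitrary bases (outer measure). -/
theorem core [CompleteSpace E] {n : E} (hn : ‖n‖ = 1) {K : Set E} (hK : Convex ℝ K)
    (hKc : IsCompact K) {ι : Type*} [Fintype ι] (ν : ι → E) (hν : ∀ i, ν i ∈ Dir n)
    (B : ι → Set (ℝ × ℝ))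
    (hcov : ∀ p ∈ K, ∃ i, (inner ℝ p n, inner ℝ p (ν i)) ∈ B i)
    (A : ENNReal) (hA : ∀ θ ∈ Dir n, A ≤ volume (Sh K n θ)) (θ₀ : E) (hθ₀ : θ₀ ∈ Dir n) :
    A ≤ 2 * ∑ i, volume (B i) := by
  have h := core_meas hn hK hKc ν hν (fun i => toMeasurable volume (B i))
    (fun i => measurableSet_toMeasurable _ _)
    (fun p hp => (hcov p hp).imp (fun i hi => subset_toMeasurable _ _ hi)) A hA θ₀ hθ₀
  simpa only [measure_toMeasurable] using h

end Vale.Agent.Lib.BangCoplanar
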