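import Mathlib
import Vale.Agent.Lib.BangCoplanar

namespace Vale.Agent.Lib.BangCoplanarEuclid

open Set MeasureTheory Vale.Agent.Lib.BangCoplanar

variable {E : Type*} [NormedAddCommGroup E] [InnerProductSpace ℝ E] [FiniteDimensional ℝ E]

/-- In a three-dimensional space there is a unit vector orthogonal to two given vectors. -/
theorem exists_unit_orth (hE : Module.finrank ℝ E = 3) (x y : E) :
    ∃ u : E, ‖u‖ = 1 ∧ inner ℝ u x = 0 ∧ inner ℝ u y = 0 := by
  classical
  have h1 := finrank_span_finset_le_card (R := ℝ) ({x, y} : Finset E)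
  have h2 : (({x, y} : Finset E) : Set E) = {x, y} := by simp
  rw [Set.finrank, h2] at h1
  have h3 : ({x, y} : Finset E).card ≤ 2 := Finset.card_le_two
  have h4 := Submodule.finrank_add_finrank_orthogonal (Submodule.span ℝ ({x, y} : Set E))
  have hpos : 0 < Module.finrank ℝ (Submodule.span ℝ ({x, y} : Set E))ᗮ := by omega
  obtain ⟨z, hz⟩ := Module.finrank_pos_iff_exists_ne_zero.mp hpos
  have hz0 : (z : E) ≠ 0 := fun h => hz (Subtype.ext h)
  have hzx : inner ℝ (z : E) x = 0 :=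
    (Submodule.mem_orthogonal' _ _).mp z.2 x (Submodule.subset_span (by simp))
  have hzy : inner ℝ (z : E) y = 0 :=
    (Submodule.mem_orthogonal' _ _).mp z.2 y (Submodule.subset_span (by simp))
  refine ⟨‖(z : E)‖⁻¹ • (z : E), ?_, ?_, ?_⟩
  · rw [norm_smul, norm_inv, norm_norm, inv_mul_cancel₀ (norm_ne_zero_iff.mpr hz0)]
  · rw [real_inner_smul_left, hzx, mul_zero]
  · rw [real_inner_smul_left, hzy, mul_zero]

omit [FiniteDimensional ℝ E] in
/-- The inner product of a vector `a` orthogonal to `u` with the orthogonal projection of `p`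
onto the plane orthogonal to `u`. -/
theorem inner_proj {u a : E} (ha : inner ℝ a u = 0) (p : E) :
    inner ℝ a (((Submodule.span ℝ {u})ᗮ.orthogonalProjectionOnto p :
      (Submodule.span ℝ {u})ᗮ) : E) = inner ℝ p a := by
  have haG : a ∈ (Submodule.span ℝ {u})ᗮ := by
    rw [Submodule.mem_orthogonal_singleton_iff_inner_left]
    exact ha
  have h := Submodule.inner_orthogonalProjectionOnto_eq_of_mem_left
    (K := (Submodule.span ℝ {u})ᗮ) (𝕜 := ℝ) ⟨a, haG⟩ p
  rw [Submodule.coe_inner] at h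
  rw [real_inner_comm a p]
  exact h

/-- Orthonormal coordinates `(⟪a, z⟫, ⟪b, z⟫)` on the plane orthogonal to `u` preserve
Lebesgue measure. -/
theorem plane_coords [MeasurableSpace E] [BorelSpace E] (hE : Module.finrank ℝ E = 3)
    {u a b : E} (hu : ‖u‖ = 1) (ha : ‖a‖ = 1) (hb : ‖b‖ = 1) (hab : inner ℝ a b = 0)
    (hau : inner ℝ a u = 0) (hbu : inner ℝ b u = 0) (S : Set (Submodule.span ℝ {u})ᗮ) :
    volume ((fun z : (Submodule.span ℝ {u})ᗮ => (inner ℝ a (z : E), inner ℝ b (z : E))) '' S)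
      = volume S := by
  have hfact : Fact (Module.finrank ℝ E = 2 + 1) := ⟨hE⟩
  have hu0 : u ≠ 0 := by
    intro h
    rw [h, norm_zero] at hu
    exact zero_ne_one hu
  have hF : Module.finrank ℝ (Submodule.span ℝ {u})ᗮ = 2 :=
    Submodule.finrank_orthogonal_span_singleton hu0
  have haG : a ∈ (Submodule.span ℝ {u})ᗮ := by
    rw [Submodule.mem_orthogonal_singleton_iff_inner_left]
    exact hau
  have hbG : b ∈ (Submodule.span ℝ {u})ᗮ := by
    rw [Submodule.mem_orthogonal_singleton_iff_inner_left]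
    exact hbu
  obtain ⟨v, hv⟩ : ∃ v : Fin 2 → (Submodule.span ℝ {u})ᗮ, v = ![⟨a, haG⟩, ⟨b, hbG⟩] := ⟨_, rfl⟩
  have hv0 : v 0 = ⟨a, haG⟩ := by rw [hv]; rfl
  have hv1 : v 1 = ⟨b, hbG⟩ := by rw [hv]; rfl
  have hon : Orthonormal ℝ v := by
    rw [orthonormal_iff_ite]
    intro i j
    fin_cases i <;> fin_cases j
    · show inner ℝ (v 0) (v 0) = _
      rw [hv0, Submodule.coe_inner, real_inner_self_eq_norm_sq, ha]
      simp
    · show inner ℝ (v 0) (v 1) = _
      rw [hv0, hv1, Submodule.coe_inner]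
      simpa using hab
    · show inner ℝ (v 1) (v 0) = _
      rw [hv0, hv1, Submodule.coe_inner, real_inner_comm]
      simpa using hab
    · show inner ℝ (v 1) (v 1) = _
      rw [hv1, Submodule.coe_inner, real_inner_self_eq_norm_sq, hb]
      simp
  obtain ⟨bo, hbo⟩ : ∃ bo : OrthonormalBasis (Fin 2) ℝ (Submodule.span ℝ {u})ᗮ,
      ∀ i, bo i = v i := by
    refine ⟨(basisOfOrthonormalOfCardEqFinrank hon (by rw [hF]; simp)).toOrthonormalBasis
      (by rw [coe_basisOfOrthonormalOfCardEqFinrank]; exact hon), ?_⟩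
    intro i
    rw [Module.Basis.coe_toOrthonormalBasis, coe_basisOfOrthonormalOfCardEqFinrank]
  let Φ : (Submodule.span ℝ {u})ᗮ ≃ᵐ ℝ × ℝ := bo.measurableEquiv.trans
    ((MeasurableEquiv.toLp 2 (Fin 2 → ℝ)).symm.trans MeasurableEquiv.finTwoArrow)
  have hΦ : MeasurePreserving Φ volume volume :=
    ((volume_preserving_finTwoArrow ℝ).comp
      (EuclideanSpace.volume_preserving_symm_measurableEquiv_toLp (Fin 2))).comp
      bo.measurePreserving_measurableEquiv
  have hΦz : ∀ z, Φ z = (inner ℝ a (z : E), inner ℝ b (z : E)) := by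
    intro z
    have h0 : Φ z = (bo.repr z 0, bo.repr z 1) := rfl
    rw [h0, OrthonormalBasis.repr_apply_apply, OrthonormalBasis.repr_apply_apply, hbo, hbo,
      hv0, hv1, Submodule.coe_inner, Submodule.coe_inner]
  have h1 : (fun z : (Submodule.span ℝ {u})ᗮ => (inner ℝ a (z : E), inner ℝ b (z : E))) '' S
      = Φ.symm ⁻¹' S := by
    rw [← MeasurableEquiv.image_eq_preimage_symm]
    exact image_congr (fun z _ => (hΦz z).symm)
  rw [h1]
  exact (hΦ.symm Φ).measure_preimage_equiv S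

/-- Bang's half-area inequality for cylinders whose axes are parallel to a common plane
(the plane orthogonal to the unit vector `n`), in Euclidean form. -/
theorem euclid_coplanar [MeasurableSpace E] [BorelSpace E] (hE : Module.finrank ℝ E = 3)
    (K : Set E) (hK : Convex ℝ K) (hKc : IsCompact K) (n : E) (hn : ‖n‖ = 1)
    {ι : Type*} [Fintype ι] (u : ι → E) (hu : ∀ i, ‖u i‖ = 1)
    (hun : ∀ i, inner ℝ (u i) n = 0) (B : ∀ i, Set (Submodule.span ℝ {u i})ᗮ)
    (hcov : ∀ p ∈ K, ∃ i, (Submodule.span ℝ {u i})ᗮ.orthogonalProjectionOnto p ∈ B i) :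
    (⨅ v : {v : E // ‖v‖ = 1 ∧ inner ℝ v n = 0},
        volume ((Submodule.span ℝ {(v : E)})ᗮ.orthogonalProjectionOnto '' K))
      ≤ 2 * ∑ i, volume (B i) := by
  have hex : ∀ i, ∃ m : E, ‖m‖ = 1 ∧ inner ℝ m n = 0 ∧ inner ℝ m (u i) = 0 :=
    fun i => exists_unit_orth hE n (u i)
  choose ν hν1 hνn hνu using hex
  have hnu : ∀ i, inner ℝ n (u i) = 0 := fun i => by rw [real_inner_comm]; exact hun i
  have hnν : ∀ i, inner ℝ n (ν i) = 0 := fun i => by rw [real_inner_comm]; exact hνn i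
  have hvol : ∀ i, volume ((fun z : (Submodule.span ℝ {u i})ᗮ =>
      (inner ℝ n (z : E), inner ℝ (ν i) (z : E))) '' B i) = volume (B i) :=
    fun i => plane_coords hE (hu i) hn (hν1 i) (hnν i) (hnu i) (hνu i) (B i)
  obtain ⟨θ₀, hθ₀1, hθ₀n, -⟩ := exists_unit_orth hE n n
  have hmain := core hn hK hKc ν (fun i => ⟨hν1 i, hνn i⟩)
    (fun i => (fun z : (Submodule.span ℝ {u i})ᗮ =>
      (inner ℝ n (z : E), inner ℝ (ν i) (z : E))) '' B i)
    (by
      intro p hp
      obtain ⟨i, hi⟩ := hcov p hp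
      refine ⟨i, _, hi, ?_⟩
      beta_reduce
      rw [inner_proj (hnu i) p, inner_proj (hνu i) p])
    (⨅ v : {v : E // ‖v‖ = 1 ∧ inner ℝ v n = 0},
        volume ((Submodule.span ℝ {(v : E)})ᗮ.orthogonalProjectionOnto '' K))
    (by
      intro θ hθ
      obtain ⟨w, hw1, hwn, hwθ⟩ := exists_unit_orth hE n θ
      have hnw : inner ℝ n w = 0 := by rw [real_inner_comm]; exact hwn
      have hθw : inner ℝ θ w = 0 := by rw [real_inner_comm]; exact hwθ
      have hnθ : inner ℝ n θ = 0 := by rw [real_inner_comm]; exact hθ.2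
      have h1 := plane_coords hE hw1 hn hθ.1 hnθ hnw hθw
        ((Submodule.span ℝ {w})ᗮ.orthogonalProjectionOnto '' K)
      have h2 : (fun z : (Submodule.span ℝ {w})ᗮ => (inner ℝ n (z : E), inner ℝ θ (z : E))) ''
          ((Submodule.span ℝ {w})ᗮ.orthogonalProjectionOnto '' K) = Sh K n θ := by
        rw [image_image, Sh]
        exact image_congr (fun p _ => by rw [inner_proj hnw p, inner_proj hθw p])
      rw [← h2, h1]
      exact iInf_le (fun v : {v : E // ‖v‖ = 1 ∧ inner ℝ v n = 0} =>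
        volume ((Submodule.span ℝ {(v : E)})ᗮ.orthogonalProjectionOnto '' K)) ⟨w, hw1, hwn⟩)
    θ₀ ⟨hθ₀1, hθ₀n⟩
  simpa only [hvol] using hmain

end Vale.Agent.Lib.BangCoplanarEuclid
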