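import Mathlib
import Vale.Agent.Lib.BangDir
import Vale.Agent.Lib.BangCoplanar

namespace Vale.Agent.Lib.BangSection

open Set MeasureTheory Vale.Agent.Lib.BangPlank Vale.Agent.Lib.BangDir
  Vale.Agent.Lib.BangCoplanar Vale.Agent.Lib.BangConcave Vale.Agent.Lib.BangSlices

universe u

variable {E : Type*} [NormedAddCommGroup E] [InnerProductSpace ℝ E]

theorem chordI_interp {ι : Type*} {n : E} {ν : ι → E} (hν : ∀ i, inner ℝ (ν i) n = 0)
    {ℓ : ι → ℝ} {K : Set E} (hK : Convex ℝ K) {z : E} (hz : z ∈ K) {s lam : ℝ}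
    (hch : ChordI ν ℓ (Lev K n s) 1) (h0 : 0 ≤ lam) (h1 : lam ≤ 1) :
    ChordI ν ℓ (Lev K n ((1 - lam) * inner ℝ z n + lam * s)) lam := by
  intro i
  obtain ⟨p, hp, hq⟩ := hch i
  have hsum : (1 - lam) + lam = 1 := by ring
  refine ⟨(1 - lam) • z + lam • p, ⟨hK hz hp.1 (by linarith) h0 hsum, ?_⟩, ⟨?_, ?_⟩⟩
  · rw [inner_add_left, real_inner_smul_left, real_inner_smul_left, hp.2]
  · have e : (1 - lam) • z + lam • p + (lam * ℓ i) • ν i
        = (1 - lam) • z + lam • (p + (1 * ℓ i) • ν i) := by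
      module
    rw [e]
    exact hK hz hq.1 (by linarith) h0 hsum
  · rw [inner_add_left, inner_add_left, real_inner_smul_left, real_inner_smul_left,
      real_inner_smul_left, hp.2, hν i]
    ring

/-- Slicing theorem with direction-dependent chord lengths, measurable bases.  `K` is covered
by the sets `{p | (⟪p, n⟫, ⟪p, ν i⟫) ∈ B i}` with `ν i` unit vectors orthogonal to `n`; the
heights `⟪p, n⟫` of `K` fill `[a, b]`, and the middle section of `K` has a chord of length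
`ℓ i` in the direction `ν i` for every `i`.  Then `(b - a) / 2 ≤ ∑ i, |B i| / ℓ i`. -/
theorem dir_meas {n : E} {K : Set E} (hK : Convex ℝ K) (hKc : IsCompact K) {ι : Type u}
    [Fintype ι] (ν : ι → E) (hν : ∀ i, ν i ∈ Dir n) (B : ι → Set (ℝ × ℝ))
    (hB : ∀ i, MeasurableSet (B i))
    (hcov : ∀ p ∈ K, ∃ i, (inner ℝ p n, inner ℝ p (ν i)) ∈ B i) {a b : ℝ} (hab : a < b)
    (hT : (fun p : E => inner ℝ p n) '' K = Icc a b) (ℓ : ι → ℝ) (hℓ : ∀ i, 0 < ℓ i)
    (hmid : ChordI ν ℓ (Lev K n ((a + b) / 2)) 1) :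
    ENNReal.ofReal ((b - a) / 2) ≤ ∑ i, volume (B i) / ENNReal.ofReal (ℓ i) := by
  have hba : 0 < b - a := sub_pos.mpr hab
  have hlevne : ∀ t ∈ Icc a b, (Lev K n t).Nonempty := by
    intro t ht
    rw [← hT] at ht
    obtain ⟨p, hp, hpt⟩ := ht
    exact ⟨p, hp, hpt⟩
  have hchord : ∀ t ∈ Icc a b,
      ChordI ν ℓ (Lev K n t) (2 * 1 / (b - a) * min (t - a) (b - t)) := by
    intro t ht
    rcases le_total t ((a + b) / 2) with hle | hle
    · obtain ⟨z, hzK, hzn⟩ := hlevne a ⟨le_refl a, hab.le⟩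
      have h := chordI_interp (fun i => (hν i).2) hK hzK (s := (a + b) / 2)
        (lam := 2 * (t - a) / (b - a)) hmid (div_nonneg (by linarith [ht.1]) hba.le)
        (by rw [div_le_one hba]; linarith)
      have e1 : (1 - 2 * (t - a) / (b - a)) * inner ℝ z n + 2 * (t - a) / (b - a) * ((a + b) / 2)
          = t := by
        rw [hzn]
        field_simp
        ring
      have e2 : 2 * (t - a) / (b - a) = 2 * 1 / (b - a) * min (t - a) (b - t) := by
        rw [min_eq_left (by linarith)]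
        ring
      rw [e1, e2] at h
      exact h
    · obtain ⟨z, hzK, hzn⟩ := hlevne b ⟨hab.le, le_refl b⟩
      have h := chordI_interp (fun i => (hν i).2) hK hzK (s := (a + b) / 2)
        (lam := 2 * (b - t) / (b - a)) hmid (div_nonneg (by linarith [ht.2]) hba.le)
        (by rw [div_le_one hba]; linarith)
      have e1 : (1 - 2 * (b - t) / (b - a)) * inner ℝ z n + 2 * (b - t) / (b - a) * ((a + b) / 2)
          = t := by
        rw [hzn]
        field_simp
        ring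
      have e2 : 2 * (b - t) / (b - a) = 2 * 1 / (b - a) * min (t - a) (b - t) := by
        rw [min_eq_right (by linarith)]
        ring
      rw [e1, e2] at h
      exact h
  have hslice : ∀ t ∈ Icc a b, ENNReal.ofReal (2 * 1 / (b - a) * min (t - a) (b - t))
      ≤ ∑ i, (ENNReal.ofReal (ℓ i))⁻¹ * volume (Prod.mk t ⁻¹' B i) := by
    intro t ht
    have h := plank_setsI ν (fun i => (hν i).1) ℓ hℓ (Lev_convex hK n t) (Lev_compact hKc n t)
      (hlevne t ht) (hchord t ht) (fun i => Prod.mk t ⁻¹' B i) (by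
        intro x hx
        obtain ⟨i, hi⟩ := hcov x hx.1
        refine ⟨i, ?_⟩
        rw [hx.2] at hi
        exact hi)
    simpa only [ENNReal.div_eq_inv_mul] using h
  have hint : ∫⁻ t, ∑ i, (ENNReal.ofReal (ℓ i))⁻¹ * volume (Prod.mk t ⁻¹' B i)
      = ∑ i, volume (B i) / ENNReal.ofReal (ℓ i) := by
    rw [lintegral_finsetSum _
      (fun i _ => (measurable_measure_prodMk_left (hB i)).const_mul _)]
    refine Finset.sum_congr rfl (fun i _ => ?_)
    rw [lintegral_const_mul _ (measurable_measure_prodMk_left (hB i)), ENNReal.div_eq_inv_mul,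
      Measure.volume_eq_prod, Measure.prod_apply (hB i)]
  have htent := tent_lintegral hab zero_le_one
    (fun t => ∑ i, (ENNReal.ofReal (ℓ i))⁻¹ * volume (Prod.mk t ⁻¹' B i)) hslice
  rw [hint, one_mul] at htent
  exact htent

/-- The slicing theorem for arbitrary bases (outer measure). -/
theorem dir_core {n : E} {K : Set E} (hK : Convex ℝ K) (hKc : IsCompact K) {ι : Type u}
    [Fintype ι] (ν : ι → E) (hν : ∀ i, ν i ∈ Dir n) (B : ι → Set (ℝ × ℝ))
    (hcov : ∀ p ∈ K, ∃ i, (inner ℝ p n, inner ℝ p (ν i)) ∈ B i) {a b : ℝ} (hab : a < b)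
    (hT : (fun p : E => inner ℝ p n) '' K = Icc a b) (ℓ : ι → ℝ) (hℓ : ∀ i, 0 < ℓ i)
    (hmid : ChordI ν ℓ (Lev K n ((a + b) / 2)) 1) :
    ENNReal.ofReal ((b - a) / 2) ≤ ∑ i, volume (B i) / ENNReal.ofReal (ℓ i) := by
  have h := dir_meas hK hKc ν hν (fun i => toMeasurable volume (B i))
    (fun i => measurableSet_toMeasurable _ _)
    (fun p hp => (hcov p hp).imp (fun i hi => subset_toMeasurable _ _ hi)) hab hT ℓ hℓ hmid
  simpa only [measure_toMeasurable] using h

/-- A function on `[a, b]` whose values at `t` and at the mirror point `a + b - t` add up to at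
most `2 * c` has integral at most `(b - a) * c`. -/
theorem refl_bound {f : ℝ → ℝ} {a b c : ℝ} (hab : a ≤ b)
    (hfi : IntervalIntegrable f volume a b)
    (hpt : ∀ t ∈ Icc a b, f t + f (a + b - t) ≤ 2 * c) :
    ∫ t in a..b, f t ≤ (b - a) * c := by
  have e1 : a + b - b = a := by ring
  have e2 : a + b - a = b := by ring
  have hrefl : ∫ t in a..b, f (a + b - t) = ∫ t in a..b, f t := by
    rw [intervalIntegral.integral_comp_sub_left (fun t => f t) (a + b), e1, e2]
  have hfi' : IntervalIntegrable (fun t => f (a + b - t)) volume a b := by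
    have h := (hfi.comp_sub_left (a + b)).symm
    rwa [e1, e2] at h
  have hmono := intervalIntegral.integral_mono_on hab (hfi.add hfi')
    (intervalIntegrable_const (μ := volume) (c := 2 * c)) hpt
  rw [intervalIntegral.integral_add hfi hfi', hrefl, intervalIntegral.integral_const,
    smul_eq_mul] at hmono
  linarith

/-- The shadow, in the coordinates `(⟪p, n⟫, ⟪p, ν⟫)`, of a compact subset `K'` of the convex
set `K` all of whose sections at fixed height are segments parallel to `ν` has area at most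
`(b - a) * ℓ`, where `[a, b]` is the range of heights of `K` and `ℓ` bounds the chords of the
middle section of `K` in the direction `ν`. -/
theorem section_bound {n ν : E} {K K' : Set E} (hK : Convex ℝ K) (hK'K : K' ⊆ K)
    (hK'c : IsCompact K') {a b : ℝ} (hab : a ≤ b)
    (hT : (fun p : E => inner ℝ p n) '' K = Icc a b) {ℓ : ℝ}
    (hℓ : ∀ (p : E) (s : ℝ), p ∈ Lev K n ((a + b) / 2) → p + s • ν ∈ Lev K n ((a + b) / 2) →
      s ≤ ℓ)
    (hthin : ∀ p ∈ K', ∀ q ∈ K', inner ℝ p n = inner ℝ q n → q = p + inner ℝ (q - p) ν • ν) :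
    volume (Sh K' n ν) ≤ ENNReal.ofReal ((b - a) * ℓ) := by
  have hPc := Sh_compact hK'c n ν
  obtain ⟨hint, hI⟩ := sl_integrable hPc.measurableSet hPc.measure_lt_top.ne
  have hz : ∀ t, t ∉ Icc a b → sl (Sh K' n ν) t = 0 := by
    intro t ht
    apply sl_eq_zero
    rw [fst_Sh]
    intro hmem
    apply ht
    rw [← hT]
    obtain ⟨p, hp, hpt⟩ := hmem
    exact ⟨p, hK'K hp, hpt⟩
  have hch : ∀ t ∈ Icc a b, ∃ (p : E) (s : ℝ), p ∈ Lev K n t ∧ p + s • ν ∈ Lev K n t ∧
      sl (Sh K' n ν) t ≤ s := by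
    intro t ht
    rcases (Lev K' n t).eq_empty_or_nonempty with he | hne
    · have ht' := ht
      rw [← hT] at ht'
      obtain ⟨p, hp, hpt⟩ := ht'
      refine ⟨p, 0, ⟨hp, hpt⟩, ?_, ?_⟩
      · rw [zero_smul, add_zero]
        exact ⟨hp, hpt⟩
      · rw [sl, slice_Sh, he, image_empty, measure_empty]
        simp
    · have hcomp : IsCompact ((fun p : E => inner ℝ p ν) '' Lev K' n t) :=
        (Lev_compact hK'c n t).image (by fun_prop)
      obtain ⟨x, hx, y, hy, hxy⟩ := exists_len hcomp (hne.image _)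
      obtain ⟨p, hp, rfl⟩ := hx
      obtain ⟨q, hq, rfl⟩ := hy
      have hq' := hthin p hp.1 q hq.1 (by rw [hp.2, hq.2])
      refine ⟨p, inner ℝ (q - p) ν, ⟨hK'K hp.1, hp.2⟩, ?_, ?_⟩
      · rw [← hq']
        exact ⟨hK'K hq.1, hq.2⟩
      · rw [sl, slice_Sh, inner_sub_left]
        exact hxy
  have hpt : ∀ t ∈ Icc a b, sl (Sh K' n ν) t + sl (Sh K' n ν) (a + b - t) ≤ 2 * ℓ := by
    intro t ht
    have ht' : a + b - t ∈ Icc a b := ⟨by linarith [ht.2], by linarith [ht.1]⟩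
    obtain ⟨p, s, hp, hq, hs⟩ := hch t ht
    obtain ⟨p', s', hp', hq', hs'⟩ := hch _ ht'
    have h2 : (0 : ℝ) ≤ 1 / 2 := by norm_num
    have h3 : (1 : ℝ) / 2 + 1 / 2 = 1 := by norm_num
    have hmid1 : (1 / 2 : ℝ) • p + (1 / 2 : ℝ) • p' ∈ Lev K n ((a + b) / 2) := by
      refine ⟨hK hp.1 hp'.1 h2 h2 h3, ?_⟩
      rw [inner_add_left, real_inner_smul_left, real_inner_smul_left, hp.2, hp'.2]
      ring
    have hmid2 : (1 / 2 : ℝ) • p + (1 / 2 : ℝ) • p' + ((s + s') / 2) • ν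
        ∈ Lev K n ((a + b) / 2) := by
      have e : (1 / 2 : ℝ) • p + (1 / 2 : ℝ) • p' + ((s + s') / 2) • ν
          = (1 / 2 : ℝ) • (p + s • ν) + (1 / 2 : ℝ) • (p' + s' • ν) := by
        module
      rw [e]
      refine ⟨hK hq.1 hq'.1 h2 h2 h3, ?_⟩
      rw [inner_add_left, real_inner_smul_left, real_inner_smul_left, hq.2, hq'.2]
      ring
    have h4 := hℓ _ _ hmid1 hmid2
    linarith
  have hbound := refl_bound hab hint.intervalIntegrable hpt
  rw [integral_eq_interval hab hz, hI] at hbound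
  calc volume (Sh K' n ν) = ENNReal.ofReal (volume (Sh K' n ν)).toReal :=
        (ENNReal.ofReal_toReal hPc.measure_lt_top.ne).symm
    _ ≤ ENNReal.ofReal ((b - a) * ℓ) := ENNReal.ofReal_le_ofReal hbound

/-- A nonempty compact set has a longest chord in a given unit direction. -/
theorem exists_max_chord {L : Set E} (hLc : IsCompact L) (hne : L.Nonempty) {ν : E}
    (hν : ‖ν‖ = 1) :
    ∃ ℓ : ℝ, 0 ≤ ℓ ∧ (∃ p, p ∈ L ∧ p + ℓ • ν ∈ L) ∧
      ∀ (p : E) (s : ℝ), p ∈ L → p + s • ν ∈ L → s ≤ ℓ := by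
  obtain ⟨Z, hZ⟩ : ∃ Z : Set (E × E),
      Z = (L ×ˢ L) ∩ {x | x.2 - x.1 = inner ℝ (x.2 - x.1) ν • ν} := ⟨_, rfl⟩
  have hZc : IsCompact Z := by
    rw [hZ]
    refine (hLc.prod hLc).inter_right ?_
    exact isClosed_eq (by fun_prop) (by fun_prop)
  have hval : ∀ (p : E) (s : ℝ), inner ℝ (p + s • ν - p) ν = s := by
    intro p s
    rw [add_sub_cancel_left, real_inner_smul_left, real_inner_self_eq_norm_sq, hν]
    ring
  have hmemZ : ∀ (p : E) (s : ℝ), p ∈ L → p + s • ν ∈ L → (p, p + s • ν) ∈ Z := by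
    intro p s hp hq
    rw [hZ]
    refine ⟨⟨hp, hq⟩, ?_⟩
    show p + s • ν - p = inner ℝ (p + s • ν - p) ν • ν
    rw [hval, add_sub_cancel_left]
  obtain ⟨p₀, hp₀⟩ := hne
  have hp₀' : p₀ + (0 : ℝ) • ν ∈ L := by
    rw [zero_smul, add_zero]
    exact hp₀
  obtain ⟨x, hxZ, hx⟩ := hZc.exists_isMaxOn ⟨_, hmemZ p₀ 0 hp₀ hp₀'⟩
    (f := fun x : E × E => inner ℝ (x.2 - x.1) ν) (by fun_prop : Continuous _).continuousOn
  have hxZ' := hxZ
  rw [hZ] at hxZ'
  refine ⟨inner ℝ (x.2 - x.1) ν, ?_, ⟨x.1, hxZ'.1.1, ?_⟩, ?_⟩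
  · have h := isMaxOn_iff.mp hx _ (hmemZ p₀ 0 hp₀ hp₀')
    simp only [hval] at h
    exact h
  · have h2 : x.2 - x.1 = inner ℝ (x.2 - x.1) ν • ν := hxZ'.2
    rw [← h2, add_sub_cancel]
    exact hxZ'.1.2
  · intro p s hp hq
    have h := isMaxOn_iff.mp hx _ (hmemZ p s hp hq)
    simp only [hval] at h
    exact h

end Vale.Agent.Lib.BangSection
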