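import Mathlib
import Vale.Agent.Lib.BangSection
import Vale.Agent.Lib.BangCoplanarEuclid

namespace Vale.Agent.Lib.BangSectionEuclid

open Set MeasureTheory Vale.Agent.Lib.BangCoplanar Vale.Agent.Lib.BangCoplanarEuclid
  Vale.Agent.Lib.BangSection Vale.Agent.Lib.BangDir

universe u

variable {E : Type*} [NormedAddCommGroup E] [InnerProductSpace ℝ E] [FiniteDimensional ℝ E]

omit [FiniteDimensional ℝ E] in
/-- In a three-dimensional space with orthonormal vectors `n`, `ν`, `u`, a vector orthogonal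
to `n` and to `u` is a multiple of `ν`. -/
theorem eq_smul_of_orth (hE : Module.finrank ℝ E = 3) {n ν u x : E} (hn : ‖n‖ = 1)
    (hν : ‖ν‖ = 1) (hu : ‖u‖ = 1) (hnν : inner ℝ n ν = 0) (hnu : inner ℝ n u = 0)
    (hνu : inner ℝ ν u = 0) (hxn : inner ℝ x n = 0) (hxu : inner ℝ x u = 0) :
    x = inner ℝ x ν • ν := by
  obtain ⟨v, hv⟩ : ∃ v : Fin 3 → E, v = ![n, ν, u] := ⟨_, rfl⟩
  have hv0 : v 0 = n := by rw [hv]; rfl
  have hv1 : v 1 = ν := by rw [hv]; rfl
  have hv2 : v 2 = u := by rw [hv]; rfl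
  have hνn : inner ℝ ν n = 0 := by rw [real_inner_comm]; exact hnν
  have hun : inner ℝ u n = 0 := by rw [real_inner_comm]; exact hnu
  have huν : inner ℝ u ν = 0 := by rw [real_inner_comm]; exact hνu
  have hon : Orthonormal ℝ v := by
    rw [orthonormal_iff_ite]
    intro i j
    fin_cases i <;> fin_cases j
    · show inner ℝ (v 0) (v 0) = _
      rw [hv0, real_inner_self_eq_norm_sq, hn]
      simp
    · show inner ℝ (v 0) (v 1) = _
      rw [hv0, hv1]
      simpa using hnν
    · show inner ℝ (v 0) (v 2) = _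
      rw [hv0, hv2]
      simpa using hnu
    · show inner ℝ (v 1) (v 0) = _
      rw [hv0, hv1]
      simpa using hνn
    · show inner ℝ (v 1) (v 1) = _
      rw [hv1, real_inner_self_eq_norm_sq, hν]
      simp
    · show inner ℝ (v 1) (v 2) = _
      rw [hv1, hv2]
      simpa using hνu
    · show inner ℝ (v 2) (v 0) = _
      rw [hv0, hv2]
      simpa using hun
    · show inner ℝ (v 2) (v 1) = _
      rw [hv1, hv2]
      simpa using huν
    · show inner ℝ (v 2) (v 2) = _
      rw [hv2, real_inner_self_eq_norm_sq, hu]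
      simp
  obtain ⟨bo, hbo⟩ : ∃ bo : OrthonormalBasis (Fin 3) ℝ E, ∀ i, bo i = v i := by
    refine ⟨(basisOfOrthonormalOfCardEqFinrank hon (by rw [hE]; simp)).toOrthonormalBasis
      (by rw [coe_basisOfOrthonormalOfCardEqFinrank]; exact hon), ?_⟩
    intro i
    rw [Module.Basis.coe_toOrthonormalBasis, coe_basisOfOrthonormalOfCardEqFinrank]
  have h := bo.sum_repr' x
  rw [Fin.sum_univ_three, hbo, hbo, hbo, hv0, hv1, hv2, real_inner_comm x n, hxn,
    real_inner_comm x u, hxu, zero_smul, zero_smul, zero_add, add_zero,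
    real_inner_comm x ν] at h
  exact h.symm

/-- A set with nonempty interior has a plane section orthogonal to `u` of positive area. -/
theorem sec_pos [MeasurableSpace E] [BorelSpace E] {K : Set E}
    (hKi : (interior K).Nonempty) (u : E) :
    ∃ c : ℝ, 0 < volume ((Submodule.span ℝ {u})ᗮ.orthogonalProjectionOnto ''
      {p | p ∈ K ∧ inner ℝ p u = c}) := by
  obtain ⟨x₀, hx₀⟩ := hKi
  obtain ⟨r, hr, hball⟩ := Metric.isOpen_iff.mp isOpen_interior x₀ hx₀
  refine ⟨inner ℝ x₀ u, lt_of_lt_of_le (Metric.measure_ball_pos volume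
    ((Submodule.span ℝ {u})ᗮ.orthogonalProjectionOnto x₀) hr) (measure_mono ?_)⟩
  intro z hz
  have hzu : inner ℝ (((z - (Submodule.span ℝ {u})ᗮ.orthogonalProjectionOnto x₀ :
      (Submodule.span ℝ {u})ᗮ)) : E) u = 0 :=
    Submodule.mem_orthogonal_singleton_iff_inner_left.mp
      (z - (Submodule.span ℝ {u})ᗮ.orthogonalProjectionOnto x₀).2
  refine ⟨x₀ + (((z - (Submodule.span ℝ {u})ᗮ.orthogonalProjectionOnto x₀ :
      (Submodule.span ℝ {u})ᗮ)) : E), ⟨?_, ?_⟩, ?_⟩
  · apply interior_subset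
    apply hball
    rw [Metric.mem_ball, dist_eq_norm] at hz
    rw [Metric.mem_ball, dist_eq_norm, add_sub_cancel_left, ← Submodule.coe_norm]
    exact hz
  · rw [inner_add_left, hzu, add_zero]
  · rw [map_add, Submodule.orthogonalProjectionOnto_mem_subspace_eq_self, add_sub_cancel]

/-- If the convex set `K` is symmetric in the plane `u^⊥`, its projection onto that plane is
its central section. -/
theorem proj_le_sec [MeasurableSpace E] [BorelSpace E] {K : Set E}
    (hK : Convex ℝ K) {u : E} (hu : ‖u‖ = 1)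
    (hsym : ∀ p ∈ K, p - (2 * inner ℝ p u) • u ∈ K) :
    volume ((Submodule.span ℝ {u})ᗮ.orthogonalProjectionOnto '' K)
      ≤ ⨆ c : ℝ, volume ((Submodule.span ℝ {u})ᗮ.orthogonalProjectionOnto ''
        {p | p ∈ K ∧ inner ℝ p u = c}) := by
  refine le_trans (measure_mono ?_) (le_iSup (fun c : ℝ =>
    volume ((Submodule.span ℝ {u})ᗮ.orthogonalProjectionOnto ''
      {p | p ∈ K ∧ inner ℝ p u = c})) 0)
  rintro _ ⟨p, hp, rfl⟩
  refine ⟨p - inner ℝ p u • u, ⟨?_, ?_⟩, ?_⟩
  · have e : p - inner ℝ p u • u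
        = (1 / 2 : ℝ) • p + (1 / 2 : ℝ) • (p - (2 * inner ℝ p u) • u) := by
      module
    rw [e]
    exact hK hp (hsym p hp) (by norm_num) (by norm_num) (by norm_num)
  · rw [inner_sub_left, real_inner_smul_left, real_inner_self_eq_norm_sq, hu]
    ring
  · rw [map_sub, map_smul,
      Submodule.orthogonalProjectionOnto_orthogonalComplement_singleton_eq_zero, smul_zero,
      sub_zero]

/-- Cross-section form of Bang's inequality for cylinders whose axes are parallel to a common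
plane: the base areas, each divided by the largest area `S i` of a plane section of `K`
orthogonal to the axis direction `u i`, add up to at least `1 / 2`. -/
theorem euclid_section [MeasurableSpace E] [BorelSpace E] (hE : Module.finrank ℝ E = 3)
    (K : Set E) (hK : Convex ℝ K) (hKc : IsCompact K) (hKi : (interior K).Nonempty)
    (n : E) (hn : ‖n‖ = 1) {ι : Type u} [Fintype ι] (u : ι → E) (hu : ∀ i, ‖u i‖ = 1)
    (hun : ∀ i, inner ℝ (u i) n = 0) (B : ∀ i, Set (Submodule.span ℝ {u i})ᗮ)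
    (hcov : ∀ p ∈ K, ∃ i, (Submodule.span ℝ {u i})ᗮ.orthogonalProjectionOnto p ∈ B i)
    (S : ι → ENNReal)
    (hS : ∀ i, S i = ⨆ c : ℝ, volume ((Submodule.span ℝ {u i})ᗮ.orthogonalProjectionOnto ''
      {p | p ∈ K ∧ inner ℝ p (u i) = c})) :
    1 ≤ 2 * ∑ i, volume (B i) / S i := by
  have hex : ∀ i, ∃ m : E, ‖m‖ = 1 ∧ inner ℝ m n = 0 ∧ inner ℝ m (u i) = 0 :=
    fun i => exists_unit_orth hE n (u i)
  choose ν hν1 hνn hνu using hex
  have hnu : ∀ i, inner ℝ n (u i) = 0 := fun i => by rw [real_inner_comm]; exact hun i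
  have hnν : ∀ i, inner ℝ n (ν i) = 0 := fun i => by rw [real_inner_comm]; exact hνn i
  have hvol : ∀ i, volume ((fun z : (Submodule.span ℝ {u i})ᗮ =>
      (inner ℝ n (z : E), inner ℝ (ν i) (z : E))) '' B i) = volume (B i) :=
    fun i => plane_coords hE (hu i) hn (hν1 i) (hnν i) (hnu i) (hνu i) (B i)
  have hKne : K.Nonempty := hKi.mono interior_subset
  have hTc : IsCompact ((fun p : E => inner ℝ p n) '' K) := hKc.image (by fun_prop)
  have hTconn : IsConnected ((fun p : E => inner ℝ p n) '' K) :=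
    (hK.isConnected hKne).image _ (by fun_prop : Continuous fun p : E => inner ℝ p n).continuousOn
  have hT := eq_Icc_of_connected_compact hTconn hTc
  obtain ⟨a, ha⟩ : ∃ a : ℝ, a = sInf ((fun p : E => inner ℝ p n) '' K) := ⟨_, rfl⟩
  obtain ⟨b, hb⟩ : ∃ b : ℝ, b = sSup ((fun p : E => inner ℝ p n) '' K) := ⟨_, rfl⟩
  rw [← ha, ← hb] at hT
  have hab : a ≤ b := by
    have hmem : sInf ((fun p : E => inner ℝ p n) '' K) ∈ (fun p : E => inner ℝ p n) '' K :=
      hTc.sInf_mem (hKne.image _)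
    rw [← ha, hT] at hmem
    exact hmem.2
  have hmidT : (a + b) / 2 ∈ Icc a b := ⟨by linarith, by linarith⟩
  have hlevne : (Lev K n ((a + b) / 2)).Nonempty := by
    have h := hmidT
    rw [← hT] at h
    obtain ⟨p, hp, hpt⟩ := h
    exact ⟨p, hp, hpt⟩
  have hℓex : ∀ i, ∃ ℓ : ℝ, 0 ≤ ℓ ∧
      (∃ p, p ∈ Lev K n ((a + b) / 2) ∧ p + ℓ • ν i ∈ Lev K n ((a + b) / 2)) ∧
      ∀ (p : E) (s : ℝ), p ∈ Lev K n ((a + b) / 2) → p + s • ν i ∈ Lev K n ((a + b) / 2) →
        s ≤ ℓ :=
    fun i => exists_max_chord (Lev_compact hKc n _) hlevne (hν1 i)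
  choose ℓ hℓ0 hℓch hℓmax using hℓex
  have hsec : ∀ i, S i ≤ ENNReal.ofReal ((b - a) * ℓ i) := by
    intro i
    rw [hS i]
    refine iSup_le (fun c => ?_)
    have hK'c : IsCompact {p | p ∈ K ∧ inner ℝ p (u i) = c} := Lev_compact hKc (u i) c
    have h1 := plane_coords hE (hu i) hn (hν1 i) (hnν i) (hnu i) (hνu i)
      ((Submodule.span ℝ {u i})ᗮ.orthogonalProjectionOnto '' {p | p ∈ K ∧ inner ℝ p (u i) = c})
    have h2 : (fun z : (Submodule.span ℝ {u i})ᗮ =>
        (inner ℝ n (z : E), inner ℝ (ν i) (z : E))) ''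
        ((Submodule.span ℝ {u i})ᗮ.orthogonalProjectionOnto ''
          {p | p ∈ K ∧ inner ℝ p (u i) = c})
        = Sh {p | p ∈ K ∧ inner ℝ p (u i) = c} n (ν i) := by
      rw [image_image, Sh]
      exact image_congr (fun p _ => by rw [inner_proj (hnu i) p, inner_proj (hνu i) p])
    rw [← h1, h2]
    refine section_bound hK (fun p hp => hp.1) hK'c hab hT (hℓmax i) ?_
    intro p hp q hq hpq
    have hx := eq_smul_of_orth hE hn (hν1 i) (hu i) (hnν i) (hnu i) (hνu i) (x := q - p)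
      (by rw [inner_sub_left, hpq, sub_self]) (by rw [inner_sub_left, hp.2, hq.2, sub_self])
    rw [← hx, add_sub_cancel]
  have hpos : ∀ i, S i ≠ 0 := by
    intro i
    rw [hS i]
    obtain ⟨c, hc⟩ := sec_pos hKi (u i)
    exact (lt_of_lt_of_le hc (le_iSup (fun c : ℝ =>
      volume ((Submodule.span ℝ {u i})ᗮ.orthogonalProjectionOnto ''
        {p | p ∈ K ∧ inner ℝ p (u i) = c})) c)).ne'
  have hprod : ∀ i, 0 < (b - a) * ℓ i := by
    intro i
    by_contra h
    have h0 := hsec i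
    rw [ENNReal.ofReal_of_nonpos (not_lt.mp h)] at h0
    exact hpos i (le_antisymm h0 bot_le)
  obtain ⟨i₀, -⟩ := hcov _ hKne.some_mem
  have hba : 0 < b - a := by
    rcases hab.eq_or_lt with h | h
    · have h1 := hprod i₀
      rw [h, sub_self, zero_mul] at h1
      exact absurd h1 (lt_irrefl 0)
    · exact sub_pos.mpr h
  have hℓpos : ∀ i, 0 < ℓ i := by
    intro i
    rcases (hℓ0 i).eq_or_lt with h | h
    · have h1 := hprod i
      rw [← h, mul_zero] at h1
      exact absurd h1 (lt_irrefl 0)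
    · exact h
  have hmid : ChordI ν ℓ (Lev K n ((a + b) / 2)) 1 := by
    intro i
    obtain ⟨p, hp, hq⟩ := hℓch i
    exact ⟨p, hp, by rw [one_mul]; exact hq⟩
  have hmain := dir_core hK hKc ν (fun i => ⟨hν1 i, hνn i⟩)
    (fun i => (fun z : (Submodule.span ℝ {u i})ᗮ =>
      (inner ℝ n (z : E), inner ℝ (ν i) (z : E))) '' B i)
    (by
      intro p hp
      obtain ⟨i, hi⟩ := hcov p hp
      refine ⟨i, _, hi, ?_⟩
      beta_reduce
      rw [inner_proj (hnu i) p, inner_proj (hνu i) p])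
    (sub_pos.mp hba) hT ℓ hℓpos hmid
  simp only [hvol] at hmain
  have hc0 : ENNReal.ofReal (b - a) ≠ 0 := (ENNReal.ofReal_pos.mpr hba).ne'
  have hctop : ENNReal.ofReal (b - a) ≠ ⊤ := ENNReal.ofReal_ne_top
  have hterm : ∀ i, volume (B i) / ENNReal.ofReal (ℓ i)
      ≤ ENNReal.ofReal (b - a) * (volume (B i) / S i) := by
    intro i
    calc volume (B i) / ENNReal.ofReal (ℓ i)
        = (ENNReal.ofReal (b - a) * volume (B i))
            / (ENNReal.ofReal (b - a) * ENNReal.ofReal (ℓ i)) :=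
          (ENNReal.mul_div_mul_left _ _ hc0 hctop).symm
      _ ≤ (ENNReal.ofReal (b - a) * volume (B i)) / S i := by
          refine ENNReal.div_le_div_left ?_ _
          rw [← ENNReal.ofReal_mul hba.le]
          exact hsec i
      _ = ENNReal.ofReal (b - a) * (volume (B i) / S i) := mul_div_assoc _ _ _
  have hsum : ENNReal.ofReal (b - a) * 2⁻¹
      ≤ ENNReal.ofReal (b - a) * ∑ i, volume (B i) / S i := by
    rw [Finset.mul_sum]
    calc ENNReal.ofReal (b - a) * 2⁻¹ = ENNReal.ofReal ((b - a) / 2) := by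
          rw [div_eq_mul_inv, ENNReal.ofReal_mul hba.le,
            ENNReal.ofReal_inv_of_pos (by norm_num)]
          simp
      _ ≤ ∑ i, volume (B i) / ENNReal.ofReal (ℓ i) := hmain
      _ ≤ ∑ i, ENNReal.ofReal (b - a) * (volume (B i) / S i) :=
          Finset.sum_le_sum (fun i _ => hterm i)
  have hhalf := (ENNReal.mul_le_mul_iff_right hc0 hctop).mp hsum
  calc (1 : ENNReal) = 2 * 2⁻¹ :=
        (ENNReal.mul_inv_cancel two_ne_zero ENNReal.ofNat_ne_top).symm
    _ ≤ 2 * ∑ i, volume (B i) / S i := by gcongr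

end Vale.Agent.Lib.BangSectionEuclid
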