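import Mathlib
import Vale.Agent.Lib.BallPlank
import Vale.Agent.Lib.BangCoplanar
import Vale.Agent.Lib.BangSectionEuclid

namespace Vale.Agent.Lib.BallSection

open Set MeasureTheory Vale.Agent.Lib.BangPlank Vale.Agent.Lib.BallPlank
  Vale.Agent.Lib.BangCoplanar Vale.Agent.Lib.BangConcave Vale.Agent.Lib.BangSlices
  Vale.Agent.Lib.BangCoplanarEuclid Vale.Agent.Lib.BangSectionEuclid

universe u

variable {E : Type*} [NormedAddCommGroup E] [InnerProductSpace ℝ E]

/-- The section of `K` at the height of the point `(1 - lam) z + lam p`, `p` in the section at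
height `s`, contains a copy of that section scaled by `lam`; if the section at height `s` is
symmetric about `o`, Ball's plank theorem applies to the copy. -/
theorem slice_sym {n : E} {K : Set E} (hK : Convex ℝ K) (hKc : IsCompact K) {ι : Type u}
    [Fintype ι] (ν : ι → E) (B : ι → Set (ℝ × ℝ))
    (hcov : ∀ p ∈ K, ∃ i, (inner ℝ p n, inner ℝ p (ν i)) ∈ B i) {s : ℝ} (o : E)
    (hsymm : ∀ p ∈ Lev K n s, o + o - p ∈ Lev K n s) (x : ι → E) (h : ι → ℝ)
    (hh : ∀ i, 0 < h i) (hx : ∀ i, x i ∈ Lev K n s) (hxν : ∀ i, inner ℝ (x i - o) (ν i) = h i)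
    (hne : (Lev K n s).Nonempty) {z : E} (hz : z ∈ K) {lam : ℝ} (h0 : 0 < lam) (h1 : lam ≤ 1) :
    ENNReal.ofReal lam ≤ ∑ i, (ENNReal.ofReal (2 * h i))⁻¹
      * volume (Prod.mk ((1 - lam) * inner ℝ z n + lam * s) ⁻¹' B i) := by
  have hsum1 : (1 - lam) + lam = 1 := by ring
  have hconv : Convex ℝ ((fun p : E => (1 - lam) • z + lam • p) '' Lev K n s) := by
    rintro _ ⟨p1, hp1, rfl⟩ _ ⟨p2, hp2, rfl⟩ α β hα hβ hαβ
    refine ⟨α • p1 + β • p2, Lev_convex hK n s hp1 hp2 hα hβ hαβ, ?_⟩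
    have hβ' : β = 1 - α := by linarith
    subst hβ'
    module
  have hcomp : IsCompact ((fun p : E => (1 - lam) • z + lam • p) '' Lev K n s) :=
    (Lev_compact hKc n s).image (by fun_prop)
  have hmain := plank_sets_sym hconv hcomp (hne.image _) ((1 - lam) • z + lam • o)
    (by
      rintro _ ⟨p, hp, rfl⟩
      refine ⟨o + o - p, hsymm p hp, ?_⟩
      module)
    ν (fun i => (1 - lam) • z + lam • x i) (fun i => lam * h i)
    (fun i => mul_pos h0 (hh i)) (fun i => ⟨x i, hx i, rfl⟩)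
    (by
      intro i
      have e : (1 - lam) • z + lam • x i - ((1 - lam) • z + lam • o) = lam • (x i - o) := by
        module
      rw [e, real_inner_smul_left, hxν i])
    (fun i => Prod.mk ((1 - lam) * inner ℝ z n + lam * s) ⁻¹' B i)
    (by
      rintro _ ⟨p, hp, rfl⟩
      obtain ⟨i, hi⟩ := hcov _ (hK hz hp.1 (by linarith) h0.le hsum1)
      refine ⟨i, ?_⟩
      have e : inner ℝ ((1 - lam) • z + lam • p) n = (1 - lam) * inner ℝ z n + lam * s := by
        rw [inner_add_left, real_inner_smul_left, real_inner_smul_left, hp.2]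
      rw [e] at hi
      exact hi)
  have hL0 : ENNReal.ofReal lam ≠ 0 := (ENNReal.ofReal_pos.mpr h0).ne'
  have hLtop : ENNReal.ofReal lam ≠ ⊤ := ENNReal.ofReal_ne_top
  have hterm : ∀ i, volume (Prod.mk ((1 - lam) * inner ℝ z n + lam * s) ⁻¹' B i)
        / ENNReal.ofReal (2 * (lam * h i))
      = (ENNReal.ofReal lam)⁻¹ * ((ENNReal.ofReal (2 * h i))⁻¹
        * volume (Prod.mk ((1 - lam) * inner ℝ z n + lam * s) ⁻¹' B i)) := by
    intro i
    have e : 2 * (lam * h i) = lam * (2 * h i) := by ring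
    rw [e, ENNReal.ofReal_mul h0.le, ENNReal.div_eq_inv_mul,
      ENNReal.mul_inv (Or.inl hL0) (Or.inl hLtop), mul_assoc]
  simp only [hterm] at hmain
  rw [← Finset.mul_sum] at hmain
  calc ENNReal.ofReal lam = ENNReal.ofReal lam * 1 := (mul_one _).symm
    _ ≤ ENNReal.ofReal lam * ((ENNReal.ofReal lam)⁻¹ * ∑ i, (ENNReal.ofReal (2 * h i))⁻¹
          * volume (Prod.mk ((1 - lam) * inner ℝ z n + lam * s) ⁻¹' B i)) := by gcongr
    _ = ∑ i, (ENNReal.ofReal (2 * h i))⁻¹
          * volume (Prod.mk ((1 - lam) * inner ℝ z n + lam * s) ⁻¹' B i) := by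
        rw [← mul_assoc, ENNReal.mul_inv_cancel hL0 hLtop, one_mul]

/-- Slicing theorem for bodies whose middle section is centrally symmetric, measurable bases:
`(b - a) / 2 ≤ ∑ i, |B i| / (2 h i)`, where `2 h i` is the width of the middle section in the
direction `ν i`. -/
theorem sym_meas {n : E} {K : Set E} (hK : Convex ℝ K) (hKc : IsCompact K) {ι : Type u}
    [Fintype ι] (ν : ι → E) (B : ι → Set (ℝ × ℝ)) (hB : ∀ i, MeasurableSet (B i))
    (hcov : ∀ p ∈ K, ∃ i, (inner ℝ p n, inner ℝ p (ν i)) ∈ B i) {a b : ℝ} (hab : a < b)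
    (hT : (fun p : E => inner ℝ p n) '' K = Icc a b) (o : E)
    (hsymm : ∀ p ∈ Lev K n ((a + b) / 2), o + o - p ∈ Lev K n ((a + b) / 2)) (x : ι → E)
    (h : ι → ℝ) (hh : ∀ i, 0 < h i) (hx : ∀ i, x i ∈ Lev K n ((a + b) / 2))
    (hxν : ∀ i, inner ℝ (x i - o) (ν i) = h i) :
    ENNReal.ofReal ((b - a) / 2) ≤ ∑ i, volume (B i) / ENNReal.ofReal (2 * h i) := by
  have hba : 0 < b - a := sub_pos.mpr hab
  have hlevne : ∀ t ∈ Icc a b, (Lev K n t).Nonempty := by
    intro t ht
    rw [← hT] at ht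
    obtain ⟨p, hp, hpt⟩ := ht
    exact ⟨p, hp, hpt⟩
  have hmidT : (a + b) / 2 ∈ Icc a b := ⟨by linarith, by linarith⟩
  have hslice : ∀ t ∈ Icc a b, ENNReal.ofReal (2 * 1 / (b - a) * min (t - a) (b - t))
      ≤ ∑ i, (ENNReal.ofReal (2 * h i))⁻¹ * volume (Prod.mk t ⁻¹' B i) := by
    intro t ht
    obtain ⟨lam, hlam⟩ : ∃ lam : ℝ, lam = 2 * 1 / (b - a) * min (t - a) (b - t) := ⟨_, rfl⟩
    rw [← hlam]
    have hlam0 : 0 ≤ lam := by
      rw [hlam]
      have h3 : 0 ≤ min (t - a) (b - t) := le_min (by linarith [ht.1]) (by linarith [ht.2])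
      positivity
    rcases hlam0.eq_or_lt with h0 | h0
    · rw [← h0, ENNReal.ofReal_zero]
      exact bot_le
    · rcases le_total t ((a + b) / 2) with hle | hle
      · obtain ⟨z, hzK, hzn⟩ := hlevne a ⟨le_refl a, hab.le⟩
        have hl : lam = 2 * (t - a) / (b - a) := by
          rw [hlam, min_eq_left (by linarith)]
          ring
        have hl1 : lam ≤ 1 := by
          rw [hl, div_le_one hba]
          linarith
        have hs := slice_sym hK hKc ν B hcov o hsymm x h hh hx hxν (hlevne _ hmidT) hzK h0 hl1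
        have e1 : (1 - lam) * inner ℝ z n + lam * ((a + b) / 2) = t := by
          rw [hzn, hl]
          field_simp
          ring
        rw [e1] at hs
        exact hs
      · obtain ⟨z, hzK, hzn⟩ := hlevne b ⟨hab.le, le_refl b⟩
        have hl : lam = 2 * (b - t) / (b - a) := by
          rw [hlam, min_eq_right (by linarith)]
          ring
        have hl1 : lam ≤ 1 := by
          rw [hl, div_le_one hba]
          linarith
        have hs := slice_sym hK hKc ν B hcov o hsymm x h hh hx hxν (hlevne _ hmidT) hzK h0 hl1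
        have e1 : (1 - lam) * inner ℝ z n + lam * ((a + b) / 2) = t := by
          rw [hzn, hl]
          field_simp
          ring
        rw [e1] at hs
        exact hs
  have hint : ∫⁻ t, ∑ i, (ENNReal.ofReal (2 * h i))⁻¹ * volume (Prod.mk t ⁻¹' B i)
      = ∑ i, volume (B i) / ENNReal.ofReal (2 * h i) := by
    rw [lintegral_finsetSum _
      (fun i _ => (measurable_measure_prodMk_left (hB i)).const_mul _)]
    refine Finset.sum_congr rfl (fun i _ => ?_)
    rw [lintegral_const_mul _ (measurable_measure_prodMk_left (hB i)), ENNReal.div_eq_inv_mul,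
      Measure.volume_eq_prod, Measure.prod_apply (hB i)]
  have htent := tent_lintegral hab zero_le_one
    (fun t => ∑ i, (ENNReal.ofReal (2 * h i))⁻¹ * volume (Prod.mk t ⁻¹' B i)) hslice
  rw [hint, one_mul] at htent
  exact htent

/-- The slicing theorem for arbitrary bases (outer measure). -/
theorem sym_core {n : E} {K : Set E} (hK : Convex ℝ K) (hKc : IsCompact K) {ι : Type u}
    [Fintype ι] (ν : ι → E) (B : ι → Set (ℝ × ℝ))
    (hcov : ∀ p ∈ K, ∃ i, (inner ℝ p n, inner ℝ p (ν i)) ∈ B i) {a b : ℝ} (hab : a < b)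
    (hT : (fun p : E => inner ℝ p n) '' K = Icc a b) (o : E)
    (hsymm : ∀ p ∈ Lev K n ((a + b) / 2), o + o - p ∈ Lev K n ((a + b) / 2)) (x : ι → E)
    (h : ι → ℝ) (hh : ∀ i, 0 < h i) (hx : ∀ i, x i ∈ Lev K n ((a + b) / 2))
    (hxν : ∀ i, inner ℝ (x i - o) (ν i) = h i) :
    ENNReal.ofReal ((b - a) / 2) ≤ ∑ i, volume (B i) / ENNReal.ofReal (2 * h i) := by
  have h1 := sym_meas hK hKc ν (fun i => toMeasurable volume (B i))
    (fun i => measurableSet_toMeasurable _ _)
    (fun p hp => (hcov p hp).imp (fun i hi => subset_toMeasurable _ _ hi)) hab hT o hsymm x h hh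
    hx hxν
  simpa only [measure_toMeasurable] using h1

/-- The area of the shadow of `K` is at most the height of `K` times the length of the shadow
of its middle section. -/
theorem shadow_le {n θ : E} {K : Set E} (hK : Convex ℝ K) (hKc : IsCompact K) {a b : ℝ}
    (hab : a ≤ b) (hT : (fun p : E => inner ℝ p n) '' K = Icc a b) :
    (volume (Sh K n θ)).toReal ≤ (b - a) * sl (Sh K n θ) ((a + b) / 2) := by
  have hPc := Sh_compact hKc n θ
  have hPconv := Sh_convex hK n θ
  obtain ⟨hint, hI⟩ := sl_integrable hPc.measurableSet hPc.measure_lt_top.ne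
  have hconc : ConcaveOn ℝ (Icc a b) (sl (Sh K n θ)) := by
    have h := sl_concave hPconv hPc
    rwa [fst_Sh, hT] at h
  have hz : ∀ t, t ∉ Icc a b → sl (Sh K n θ) t = 0 := by
    intro t ht
    apply sl_eq_zero
    rw [fst_Sh, hT]
    exact ht
  rw [← hI, ← integral_eq_interval hab hz]
  exact midpoint_bound hab hconc hint.intervalIntegrable

/-- If the middle section of `K` is symmetric about `o` and `h` bounds `⟪p - o, θ⟫` on it, the
shadow of `K` has area at most `(b - a) * (2 * h)`. -/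
theorem shadow_sym_bound {n θ : E} {K : Set E} (hK : Convex ℝ K) (hKc : IsCompact K) {a b : ℝ}
    (hab : a ≤ b) (hT : (fun p : E => inner ℝ p n) '' K = Icc a b) (o : E)
    (hsymm : ∀ p ∈ Lev K n ((a + b) / 2), o + o - p ∈ Lev K n ((a + b) / 2)) {h : ℝ}
    (hmax : ∀ p ∈ Lev K n ((a + b) / 2), inner ℝ (p - o) θ ≤ h) :
    volume (Sh K n θ) ≤ ENNReal.ofReal ((b - a) * (2 * h)) := by
  have h1 := shadow_le (θ := θ) hK hKc hab hT
  have hmidT : (a + b) / 2 ∈ Icc a b := ⟨by linarith, by linarith⟩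
  rw [← hT] at hmidT
  obtain ⟨p₀, hp₀K, hp₀⟩ := hmidT
  have hp₀L : p₀ ∈ Lev K n ((a + b) / 2) := ⟨hp₀K, hp₀⟩
  have hsub : (fun p : E => inner ℝ p θ) '' Lev K n ((a + b) / 2)
      ⊆ Icc (inner ℝ o θ - h) (inner ℝ o θ + h) := by
    rintro _ ⟨p, hp, rfl⟩
    have h3 := hmax p hp
    have h4 := hmax _ (hsymm p hp)
    have e : o + o - p - o = o - p := by abel
    rw [inner_sub_left] at h3
    rw [e, inner_sub_left] at h4
    exact ⟨by linarith, by linarith⟩
  have hh0 : 0 ≤ h := by
    have h3 := (hsub ⟨p₀, hp₀L, rfl⟩)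
    linarith [h3.1, h3.2]
  have h2 : sl (Sh K n θ) ((a + b) / 2) ≤ 2 * h := by
    rw [sl, slice_Sh]
    have h5 := measure_mono (μ := volume) hsub
    rw [Real.volume_Icc] at h5
    have h6 := ENNReal.toReal_mono ENNReal.ofReal_ne_top h5
    rw [ENNReal.toReal_ofReal (by linarith)] at h6
    linarith
  have hPc := Sh_compact hKc n θ
  calc volume (Sh K n θ) = ENNReal.ofReal (volume (Sh K n θ)).toReal :=
        (ENNReal.ofReal_toReal hPc.measure_lt_top.ne).symm
    _ ≤ ENNReal.ofReal ((b - a) * (2 * h)) := by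
        refine ENNReal.ofReal_le_ofReal (h1.trans ?_)
        exact mul_le_mul_of_nonneg_left h2 (by linarith)

/-- The relative half-area inequality for bodies whose middle section (with respect to the
common normal `n` of the cylinder axes) is centrally symmetric, in Euclidean form: the base
areas, each divided by the area of the orthogonal projection of `K` along the axis of its
cylinder, add up to at least one half. -/
theorem euclid_mid [FiniteDimensional ℝ E] [MeasurableSpace E] [BorelSpace E]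
    (hE : Module.finrank ℝ E = 3) (K : Set E) (hK : Convex ℝ K) (hKc : IsCompact K)
    (hKi : (interior K).Nonempty) (n : E) (hn : ‖n‖ = 1)
    (hmidsym : ∀ a b : ℝ, (fun p : E => inner ℝ p n) '' K = Icc a b →
      ∃ o : E, ∀ p ∈ Lev K n ((a + b) / 2), o + o - p ∈ Lev K n ((a + b) / 2))
    {ι : Type u} [Fintype ι] (u : ι → E) (hu : ∀ i, ‖u i‖ = 1)
    (hun : ∀ i, inner ℝ (u i) n = 0) (B : ∀ i, Set (Submodule.span ℝ {u i})ᗮ)
    (hcov : ∀ p ∈ K, ∃ i, (Submodule.span ℝ {u i})ᗮ.orthogonalProjectionOnto p ∈ B i) :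
    1 ≤ 2 * ∑ i, volume (B i)
      / volume ((Submodule.span ℝ {u i})ᗮ.orthogonalProjectionOnto '' K) := by
  have hex : ∀ i, ∃ m : E, ‖m‖ = 1 ∧ inner ℝ m n = 0 ∧ inner ℝ m (u i) = 0 :=
    fun i => exists_unit_orth hE n (u i)
  choose ν hν1 hνn hνu using hex
  have hnu : ∀ i, inner ℝ n (u i) = 0 := fun i => by rw [real_inner_comm]; exact hun i
  have hnν : ∀ i, inner ℝ n (ν i) = 0 := fun i => by rw [real_inner_comm]; exact hνn i
  have hvol : ∀ i, volume ((fun z : (Submodule.span ℝ {u i})ᗮ =>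
      (inner ℝ n (z : E), inner ℝ (ν i) (z : E))) '' B i) = volume (B i) :=
    fun i => plane_coords hE (hu i) hn (hν1 i) (hnν i) (hnu i) (hνu i) (B i)
  have hKne : K.Nonempty := hKi.mono interior_subset
  have hTc : IsCompact ((fun p : E => inner ℝ p n) '' K) := hKc.image (by fun_prop)
  have hTconn : IsConnected ((fun p : E => inner ℝ p n) '' K) :=
    (hK.isConnected hKne).image _ (by fun_prop : Continuous fun p : E => inner ℝ p n).continuousOn
  have hT := eq_Icc_of_connected_compact hTconn hTc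
  obtain ⟨a, ha⟩ : ∃ a : ℝ, a = sInf ((fun p : E => inner ℝ p n) '' K) := ⟨_, rfl⟩
  obtain ⟨b, hb⟩ : ∃ b : ℝ, b = sSup ((fun p : E => inner ℝ p n) '' K) := ⟨_, rfl⟩
  rw [← ha, ← hb] at hT
  have hab : a ≤ b := by
    have hmem : sInf ((fun p : E => inner ℝ p n) '' K) ∈ (fun p : E => inner ℝ p n) '' K :=
      hTc.sInf_mem (hKne.image _)
    rw [← ha, hT] at hmem
    exact hmem.2
  have hmidT : (a + b) / 2 ∈ Icc a b := ⟨by linarith, by linarith⟩
  have hlevne : (Lev K n ((a + b) / 2)).Nonempty := by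
    have h := hmidT
    rw [← hT] at h
    obtain ⟨p, hp, hpt⟩ := h
    exact ⟨p, hp, hpt⟩
  obtain ⟨o, hsymm⟩ := hmidsym a b hT
  have hxex : ∀ i, ∃ x : E, x ∈ Lev K n ((a + b) / 2) ∧
      ∀ p ∈ Lev K n ((a + b) / 2), inner ℝ (p - o) (ν i) ≤ inner ℝ (x - o) (ν i) := by
    intro i
    obtain ⟨x, hx, hmax⟩ := (Lev_compact hKc n ((a + b) / 2)).exists_isMaxOn hlevne
      (f := fun p : E => inner ℝ (p - o) (ν i)) (by fun_prop : Continuous _).continuousOn
    exact ⟨x, hx, fun p hp => isMaxOn_iff.mp hmax p hp⟩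
  choose x hx hxmax using hxex
  have hproj : ∀ i, volume ((Submodule.span ℝ {u i})ᗮ.orthogonalProjectionOnto '' K)
      ≤ ENNReal.ofReal ((b - a) * (2 * inner ℝ (x i - o) (ν i))) := by
    intro i
    have h1 := plane_coords hE (hu i) hn (hν1 i) (hnν i) (hnu i) (hνu i)
      ((Submodule.span ℝ {u i})ᗮ.orthogonalProjectionOnto '' K)
    have h2 : (fun z : (Submodule.span ℝ {u i})ᗮ =>
        (inner ℝ n (z : E), inner ℝ (ν i) (z : E))) ''
        ((Submodule.span ℝ {u i})ᗮ.orthogonalProjectionOnto '' K) = Sh K n (ν i) := by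
      rw [image_image, Sh]
      exact image_congr (fun p _ => by rw [inner_proj (hnu i) p, inner_proj (hνu i) p])
    rw [← h1, h2]
    exact shadow_sym_bound hK hKc hab hT o hsymm (hxmax i)
  have hpos : ∀ i, volume ((Submodule.span ℝ {u i})ᗮ.orthogonalProjectionOnto '' K) ≠ 0 := by
    intro i
    obtain ⟨c, hc⟩ := sec_pos hKi (u i)
    exact (lt_of_lt_of_le hc (measure_mono (image_mono (fun p hp => hp.1)))).ne'
  have hprod : ∀ i, 0 < (b - a) * (2 * inner ℝ (x i - o) (ν i)) := by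
    intro i
    by_contra h
    have h0 := hproj i
    rw [ENNReal.ofReal_of_nonpos (not_lt.mp h)] at h0
    exact hpos i (le_antisymm h0 bot_le)
  obtain ⟨i₀, -⟩ := hcov _ hKne.some_mem
  have hba : 0 < b - a := by
    rcases hab.eq_or_lt with h | h
    · have h1 := hprod i₀
      rw [h, sub_self, zero_mul] at h1
      exact absurd h1 (lt_irrefl 0)
    · exact sub_pos.mpr h
  have hhpos : ∀ i, 0 < inner ℝ (x i - o) (ν i) := by
    intro i
    by_contra hneg
    rw [not_lt] at hneg
    have h1 : (b - a) * (2 * inner ℝ (x i - o) (ν i)) ≤ 0 :=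
      mul_nonpos_of_nonneg_of_nonpos hba.le (by linarith)
    linarith [hprod i]
  have hmain := sym_core hK hKc ν
    (fun i => (fun z : (Submodule.span ℝ {u i})ᗮ =>
      (inner ℝ n (z : E), inner ℝ (ν i) (z : E))) '' B i)
    (by
      intro p hp
      obtain ⟨i, hi⟩ := hcov p hp
      refine ⟨i, _, hi, ?_⟩
      beta_reduce
      rw [inner_proj (hnu i) p, inner_proj (hνu i) p])
    (sub_pos.mp hba) hT o hsymm x (fun i => inner ℝ (x i - o) (ν i)) hhpos hx (fun i => rfl)
  simp only [hvol] at hmain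
  have hc0 : ENNReal.ofReal (b - a) ≠ 0 := (ENNReal.ofReal_pos.mpr hba).ne'
  have hctop : ENNReal.ofReal (b - a) ≠ ⊤ := ENNReal.ofReal_ne_top
  have hterm : ∀ i, volume (B i) / ENNReal.ofReal (2 * inner ℝ (x i - o) (ν i))
      ≤ ENNReal.ofReal (b - a) * (volume (B i)
        / volume ((Submodule.span ℝ {u i})ᗮ.orthogonalProjectionOnto '' K)) := by
    intro i
    calc volume (B i) / ENNReal.ofReal (2 * inner ℝ (x i - o) (ν i))
        = (ENNReal.ofReal (b - a) * volume (B i))
            / (ENNReal.ofReal (b - a) * ENNReal.ofReal (2 * inner ℝ (x i - o) (ν i))) :=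
          (ENNReal.mul_div_mul_left _ _ hc0 hctop).symm
      _ ≤ (ENNReal.ofReal (b - a) * volume (B i))
            / volume ((Submodule.span ℝ {u i})ᗮ.orthogonalProjectionOnto '' K) := by
          refine ENNReal.div_le_div_left ?_ _
          rw [← ENNReal.ofReal_mul hba.le]
          exact hproj i
      _ = ENNReal.ofReal (b - a) * (volume (B i)
            / volume ((Submodule.span ℝ {u i})ᗮ.orthogonalProjectionOnto '' K)) :=
          mul_div_assoc _ _ _
  have hsum : ENNReal.ofReal (b - a) * 2⁻¹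
      ≤ ENNReal.ofReal (b - a) * ∑ i, volume (B i)
        / volume ((Submodule.span ℝ {u i})ᗮ.orthogonalProjectionOnto '' K) := by
    rw [Finset.mul_sum]
    calc ENNReal.ofReal (b - a) * 2⁻¹ = ENNReal.ofReal ((b - a) / 2) := by
          rw [div_eq_mul_inv, ENNReal.ofReal_mul hba.le,
            ENNReal.ofReal_inv_of_pos (by norm_num)]
          simp
      _ ≤ ∑ i, volume (B i) / ENNReal.ofReal (2 * inner ℝ (x i - o) (ν i)) := hmain
      _ ≤ ∑ i, ENNReal.ofReal (b - a) * (volume (B i)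
            / volume ((Submodule.span ℝ {u i})ᗮ.orthogonalProjectionOnto '' K)) :=
          Finset.sum_le_sum (fun i _ => hterm i)
  have hhalf := (ENNReal.mul_le_mul_iff_right hc0 hctop).mp hsum
  calc (1 : ENNReal) = 2 * 2⁻¹ :=
        (ENNReal.mul_inv_cancel two_ne_zero ENNReal.ofNat_ne_top).symm
    _ ≤ 2 * ∑ i, volume (B i)
          / volume ((Submodule.span ℝ {u i})ᗮ.orthogonalProjectionOnto '' K) := by gcongr

/-- The relative half-area inequality for centrally symmetric bodies. -/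
theorem euclid_sym [FiniteDimensional ℝ E] [MeasurableSpace E] [BorelSpace E]
    (hE : Module.finrank ℝ E = 3) (K : Set E) (hK : Convex ℝ K) (hKc : IsCompact K)
    (hKi : (interior K).Nonempty) (o : E) (hsymK : ∀ p ∈ K, o + o - p ∈ K) (n : E)
    (hn : ‖n‖ = 1) {ι : Type u} [Fintype ι] (u : ι → E) (hu : ∀ i, ‖u i‖ = 1)
    (hun : ∀ i, inner ℝ (u i) n = 0) (B : ∀ i, Set (Submodule.span ℝ {u i})ᗮ)
    (hcov : ∀ p ∈ K, ∃ i, (Submodule.span ℝ {u i})ᗮ.orthogonalProjectionOnto p ∈ B i) :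
    1 ≤ 2 * ∑ i, volume (B i)
      / volume ((Submodule.span ℝ {u i})ᗮ.orthogonalProjectionOnto '' K) := by
  refine euclid_mid hE K hK hKc hKi n hn ?_ u hu hun B hcov
  intro a b hT
  have hKne : K.Nonempty := hKi.mono interior_subset
  have hab : a ≤ b := by
    obtain ⟨p, hp⟩ := hKne
    have h1 : inner ℝ p n ∈ Icc a b := by
      rw [← hT]
      exact ⟨p, hp, rfl⟩
    exact h1.1.trans h1.2
  have hrefl : ∀ t ∈ Icc a b, 2 * inner ℝ o n - t ∈ Icc a b := by
    intro t ht
    rw [← hT] at ht ⊢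
    obtain ⟨p, hp, rfl⟩ := ht
    refine ⟨o + o - p, hsymK p hp, ?_⟩
    beta_reduce
    rw [inner_sub_left, inner_add_left]
    ring
  have hmid : (a + b) / 2 = inner ℝ o n := by
    have h1 := hrefl a ⟨le_refl a, hab⟩
    have h2 := hrefl b ⟨hab, le_refl b⟩
    linarith [h1.2, h2.1]
  refine ⟨o, fun p hp => ⟨hsymK p hp.1, ?_⟩⟩
  rw [inner_sub_left, inner_add_left, hp.2, ← hmid]
  ring

/-- The relative half-area inequality for bodies invariant under the half-turn about the line
through `o` parallel to the common normal `n` of the cylinder axes. -/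
theorem euclid_axial [FiniteDimensional ℝ E] [MeasurableSpace E] [BorelSpace E]
    (hE : Module.finrank ℝ E = 3) (K : Set E) (hK : Convex ℝ K) (hKc : IsCompact K)
    (hKi : (interior K).Nonempty) (n : E) (hn : ‖n‖ = 1) (o : E)
    (hsymK : ∀ p ∈ K, o + o - p + (2 * inner ℝ (p - o) n) • n ∈ K)
    {ι : Type u} [Fintype ι] (u : ι → E) (hu : ∀ i, ‖u i‖ = 1)
    (hun : ∀ i, inner ℝ (u i) n = 0) (B : ∀ i, Set (Submodule.span ℝ {u i})ᗮ)
    (hcov : ∀ p ∈ K, ∃ i, (Submodule.span ℝ {u i})ᗮ.orthogonalProjectionOnto p ∈ B i) :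
    1 ≤ 2 * ∑ i, volume (B i)
      / volume ((Submodule.span ℝ {u i})ᗮ.orthogonalProjectionOnto '' K) := by
  refine euclid_mid hE K hK hKc hKi n hn ?_ u hu hun B hcov
  intro a b _
  have hnn : inner ℝ n n = (1 : ℝ) := by
    rw [real_inner_self_eq_norm_sq, hn]
    norm_num
  refine ⟨o + ((a + b) / 2 - inner ℝ o n) • n, fun p hp => ?_⟩
  have hq := hsymK p hp.1
  have e : o + ((a + b) / 2 - inner ℝ o n) • n + (o + ((a + b) / 2 - inner ℝ o n) • n) - p
      = o + o - p + (2 * inner ℝ (p - o) n) • n := by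
    rw [inner_sub_left, hp.2]
    module
  rw [e]
  refine ⟨hq, ?_⟩
  rw [inner_add_left, inner_sub_left, inner_add_left, real_inner_smul_left, hnn, inner_sub_left,
    hp.2]
  ring

end Vale.Agent.Lib.BallSection
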