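import Mathlib
import Vale.Agent.Lib.BangStrip

namespace Vale.Agent.Lib.BangMeas

open Set MeasureTheory Vale.Agent.Lib.BangStrip

/-- Heights `y` of `S` at which the whole horizontal section of `S` lies over `X`. -/
def Y (S : Set (ℝ × ℝ)) (X : Set ℝ) : Set ℝ :=
  {y | y ∈ Prod.snd '' S ∧ ∀ p ∈ S, p.2 = y → p.1 ∈ X}

/-- Points of `S` strictly to the left of `C`. -/
def LeftPart (S : Set (ℝ × ℝ)) (C : Set ℝ) : Set (ℝ × ℝ) := {p | p ∈ S ∧ ∀ c ∈ C, p.1 < c}

/-- Points of `S` strictly to the right of `C`. -/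
def RightPart (S : Set (ℝ × ℝ)) (C : Set ℝ) : Set (ℝ × ℝ) := {p | p ∈ S ∧ ∀ c ∈ C, c < p.1}

theorem convex_snd_image {A : Set (ℝ × ℝ)} (hA : Convex ℝ A) : Convex ℝ (Prod.snd '' A) := by
  rintro _ ⟨p, hp, rfl⟩ _ ⟨q, hq, rfl⟩ a b ha hb hab
  exact ⟨a • p + b • q, hA hp hq ha hb hab, rfl⟩

theorem leftPart_convex {S : Set (ℝ × ℝ)} (hS : Convex ℝ S) (C : Set ℝ) :
    Convex ℝ (LeftPart S C) := by
  intro p hp q hq a b ha hb hab
  refine ⟨hS hp.1 hq.1 ha hb hab, ?_⟩
  intro c hcC
  have h1 := hp.2 c hcC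
  have h2 := hq.2 c hcC
  show a * p.1 + b * q.1 < c
  have hb' : b = 1 - a := by linarith
  subst hb'
  rcases ha.eq_or_lt with h | h
  · rw [← h]; simpa using h2
  · nlinarith [mul_pos h (sub_pos.mpr h1), mul_nonneg hb (sub_nonneg.mpr h2.le)]

theorem rightPart_convex {S : Set (ℝ × ℝ)} (hS : Convex ℝ S) (C : Set ℝ) :
    Convex ℝ (RightPart S C) := by
  intro p hp q hq a b ha hb hab
  refine ⟨hS hp.1 hq.1 ha hb hab, ?_⟩
  intro c hcC
  have h1 := hp.2 c hcC
  have h2 := hq.2 c hcC
  show c < a * p.1 + b * q.1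
  have hb' : b = 1 - a := by linarith
  subst hb'
  rcases ha.eq_or_lt with h | h
  · rw [← h]; simpa using h2
  · nlinarith [mul_pos h (sub_pos.mpr h1), mul_nonneg hb (sub_nonneg.mpr h2.le)]

/-- A point of `S` not over the order-connected set `C` is to its left or to its right. -/
theorem left_or_right {S : Set (ℝ × ℝ)} {C : Set ℝ} (hC : C.OrdConnected) {p : ℝ × ℝ}
    (hp : p ∈ S) (hnot : p.1 ∉ C) : p ∈ LeftPart S C ∨ p ∈ RightPart S C := by
  by_cases hl : ∀ c ∈ C, p.1 < c
  · exact Or.inl ⟨hp, hl⟩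
  by_cases hr : ∀ c ∈ C, c < p.1
  · exact Or.inr ⟨hp, hr⟩
  exfalso
  obtain ⟨c₁, hc₁, h1⟩ : ∃ c ∈ C, ¬ p.1 < c := by
    by_contra hcon
    exact hl (fun c hc => by_contra (fun h => hcon ⟨c, hc, h⟩))
  obtain ⟨c₂, hc₂, h2⟩ : ∃ c ∈ C, ¬ c < p.1 := by
    by_contra hcon
    exact hr (fun c hc => by_contra (fun h => hcon ⟨c, hc, h⟩))
  exact hnot (hC.out hc₁ hc₂ ⟨not_lt.mp h1, not_lt.mp h2⟩)

theorem Y_eq_diff {S : Set (ℝ × ℝ)} {C : Set ℝ} (hC : C.OrdConnected) :
    Y S C = Prod.snd '' S \ (Prod.snd '' LeftPart S C ∪ Prod.snd '' RightPart S C) := by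
  ext y
  constructor
  · rintro ⟨hyJ, hy⟩
    refine ⟨hyJ, ?_⟩
    rintro (⟨p, hp, rfl⟩ | ⟨p, hp, rfl⟩)
    · exact lt_irrefl _ (hp.2 _ (hy p hp.1 rfl))
    · exact lt_irrefl _ (hp.2 _ (hy p hp.1 rfl))
  · rintro ⟨hyJ, hyN⟩
    refine ⟨hyJ, ?_⟩
    intro p hp hpy
    by_contra hnot
    rcases left_or_right hC hp hnot with h | h
    · exact hyN (Or.inl ⟨p, h, hpy⟩)
    · exact hyN (Or.inr ⟨p, h, hpy⟩)

theorem convex_fst_image {A : Set (ℝ × ℝ)} (hA : Convex ℝ A) : Convex ℝ (Prod.fst '' A) := by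
  rintro _ ⟨p, hp, rfl⟩ _ ⟨q, hq, rfl⟩ a b ha hb hab
  exact ⟨a • p + b • q, hA hp hq ha hb hab, rfl⟩

/-- The two-strip inequality for an order-connected vertical strip `C × ℝ` and the exact set of
heights not covered by it. -/
theorem key_real {S : Set (ℝ × ℝ)} (hS : Convex ℝ S) (hc : IsCompact S) (hne : S.Nonempty)
    {C : Set ℝ} (hC : C.OrdConnected) :
    (volume (Prod.fst '' S)).toReal * (volume (Prod.snd '' S)).toReal
      ≤ (volume (C ∩ Prod.fst '' S)).toReal * (volume (Prod.snd '' S)).toReal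
        + (volume (Prod.snd '' LeftPart S C ∪ Prod.snd '' RightPart S C)).toReal
          * (volume (Prod.fst '' S)).toReal := by
  have hLsub : Prod.snd '' LeftPart S C ⊆ Prod.snd '' S := image_mono (fun p hp => hp.1)
  have hRsub : Prod.snd '' RightPart S C ⊆ Prod.snd '' S := image_mono (fun p hp => hp.1)
  have hLord : (Prod.snd '' LeftPart S C).OrdConnected :=
    (convex_snd_image (leftPart_convex hS C)).ordConnected
  have hRord : (Prod.snd '' RightPart S C).OrdConnected :=
    (convex_snd_image (rightPart_convex hS C)).ordConnected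
  have hJfin : volume (Prod.snd '' S) ≠ ⊤ := (hc.image continuous_snd).measure_lt_top.ne
  have hIfin : volume (Prod.fst '' S) ≠ ⊤ := (hc.image continuous_fst).measure_lt_top.ne
  by_cases hint : (Prod.snd '' LeftPart S C ∩ Prod.snd '' RightPart S C).Nonempty
  · have hNord : (Prod.snd '' LeftPart S C ∪ Prod.snd '' RightPart S C).OrdConnected :=
      (IsPreconnected.union' hint hLord.isPreconnected hRord.isPreconnected).ordConnected
    have hs := strip hS hc hne hC hNord (by
      intro p hp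
      by_cases h : p.1 ∈ C
      · exact Or.inl h
      · rcases left_or_right hC hp h with h' | h'
        · exact Or.inr (Or.inl ⟨p, h', rfl⟩)
        · exact Or.inr (Or.inr ⟨p, h', rfl⟩))
    rwa [inter_eq_left.mpr (union_subset hLsub hRsub)] at hs
  · have hdisj : Disjoint (Prod.snd '' LeftPart S C) (Prod.snd '' RightPart S C) :=
      disjoint_iff_inter_eq_empty.mpr (not_nonempty_iff_eq_empty.mp hint)
    have hCne : C.Nonempty := by
      by_contra hCe
      rw [not_nonempty_iff_eq_empty] at hCe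
      apply hint
      obtain ⟨p, hp⟩ := hne
      refine ⟨p.2, ⟨p, ⟨hp, ?_⟩, rfl⟩, ⟨p, ⟨hp, ?_⟩, rfl⟩⟩
      · intro c hcC; rw [hCe] at hcC; exact absurd hcC (notMem_empty c)
      · intro c hcC; rw [hCe] at hcC; exact absurd hcC (notMem_empty c)
    obtain ⟨c₀, hc₀⟩ := hCne
    have hELord : ({x : ℝ | ∃ c ∈ C, c ≤ x}).OrdConnected := ⟨fun x hx y _ z hz => by
      obtain ⟨c, hcC, hcx⟩ := hx
      exact ⟨c, hcC, hcx.trans hz.1⟩⟩
    have hERord : ({x : ℝ | ∃ c ∈ C, x ≤ c}).OrdConnected := ⟨fun x _ y hy z hz => by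
      obtain ⟨c, hcC, hcy⟩ := hy
      exact ⟨c, hcC, hz.2.trans hcy⟩⟩
    have hsL := strip hS hc hne hELord hLord (by
      intro p hp
      by_cases h : ∃ c ∈ C, c ≤ p.1
      · exact Or.inl h
      · refine Or.inr ⟨p, ⟨hp, ?_⟩, rfl⟩
        intro c hcC
        by_contra hlt
        exact h ⟨c, hcC, not_lt.mp hlt⟩)
    have hsR := strip hS hc hne hERord hRord (by
      intro p hp
      by_cases h : ∃ c ∈ C, p.1 ≤ c
      · exact Or.inl h
      · refine Or.inr ⟨p, ⟨hp, ?_⟩, rfl⟩
        intro c hcC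
        by_contra hlt
        exact h ⟨c, hcC, not_lt.mp hlt⟩)
    rw [inter_eq_left.mpr hLsub] at hsL
    rw [inter_eq_left.mpr hRsub] at hsR
    have hIord : (Prod.fst '' S).OrdConnected := (convex_fst_image hS).ordConnected
    have hun : ({x : ℝ | ∃ c ∈ C, c ≤ x} ∩ Prod.fst '' S) ∪
        ({x : ℝ | ∃ c ∈ C, x ≤ c} ∩ Prod.fst '' S) = Prod.fst '' S := by
      ext x
      constructor
      · rintro (h | h)
        · exact h.2
        · exact h.2
      · intro hx
        rcases le_total c₀ x with h | h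
        · exact Or.inl ⟨⟨c₀, hc₀, h⟩, hx⟩
        · exact Or.inr ⟨⟨c₀, hc₀, h⟩, hx⟩
    have hin : ({x : ℝ | ∃ c ∈ C, c ≤ x} ∩ Prod.fst '' S) ∩
        ({x : ℝ | ∃ c ∈ C, x ≤ c} ∩ Prod.fst '' S) = C ∩ Prod.fst '' S := by
      ext x
      constructor
      · rintro ⟨⟨⟨c₁, hc₁, h1⟩, hx⟩, ⟨⟨c₂, hc₂, h2⟩, _⟩⟩
        exact ⟨hC.out hc₁ hc₂ ⟨h1, h2⟩, hx⟩
      · rintro ⟨hxC, hx⟩
        exact ⟨⟨⟨x, hxC, le_refl x⟩, hx⟩, ⟨⟨x, hxC, le_refl x⟩, hx⟩⟩
    have hmeasR : MeasurableSet ({x : ℝ | ∃ c ∈ C, x ≤ c} ∩ Prod.fst '' S) :=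
      (hERord.inter hIord).measurableSet
    have h1 := measure_union_add_inter (μ := volume)
      ({x : ℝ | ∃ c ∈ C, c ≤ x} ∩ Prod.fst '' S) hmeasR
    rw [hun, hin] at h1
    have h2 := measure_union (μ := volume) hdisj hRord.measurableSet
    have hELfin : volume ({x : ℝ | ∃ c ∈ C, c ≤ x} ∩ Prod.fst '' S) ≠ ⊤ :=
      ne_top_of_le_ne_top hIfin (measure_mono inter_subset_right)
    have hERfin : volume ({x : ℝ | ∃ c ∈ C, x ≤ c} ∩ Prod.fst '' S) ≠ ⊤ :=
      ne_top_of_le_ne_top hIfin (measure_mono inter_subset_right)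
    have hCfin : volume (C ∩ Prod.fst '' S) ≠ ⊤ :=
      ne_top_of_le_ne_top hIfin (measure_mono inter_subset_right)
    have hLfin : volume (Prod.snd '' LeftPart S C) ≠ ⊤ :=
      ne_top_of_le_ne_top hJfin (measure_mono hLsub)
    have hRfin : volume (Prod.snd '' RightPart S C) ≠ ⊤ :=
      ne_top_of_le_ne_top hJfin (measure_mono hRsub)
    have h1' := congrArg ENNReal.toReal h1
    rw [ENNReal.toReal_add hIfin hCfin, ENNReal.toReal_add hELfin hERfin] at h1'
    have h2' := congrArg ENNReal.toReal h2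
    rw [ENNReal.toReal_add hLfin hRfin] at h2'
    rw [h2']
    have h3 := congrArg (fun z : ℝ => z * (volume (Prod.snd '' S)).toReal) h1'
    beta_reduce at h3
    linarith

/-- The interval case: for an order-connected `C`, the set of heights whose whole section lies
over `C` is relatively no larger than `C`. -/
theorem Y_ordConnected {S : Set (ℝ × ℝ)} (hS : Convex ℝ S) (hc : IsCompact S) (hne : S.Nonempty)
    {C : Set ℝ} (hC : C.OrdConnected) :
    volume (Y S C) * volume (Prod.fst '' S)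
      ≤ volume (C ∩ Prod.fst '' S) * volume (Prod.snd '' S) := by
  have hk := key_real hS hc hne hC
  have hLsub : Prod.snd '' LeftPart S C ⊆ Prod.snd '' S := image_mono (fun p hp => hp.1)
  have hRsub : Prod.snd '' RightPart S C ⊆ Prod.snd '' S := image_mono (fun p hp => hp.1)
  have hLord : (Prod.snd '' LeftPart S C).OrdConnected :=
    (convex_snd_image (leftPart_convex hS C)).ordConnected
  have hRord : (Prod.snd '' RightPart S C).OrdConnected :=
    (convex_snd_image (rightPart_convex hS C)).ordConnected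
  have hJfin : volume (Prod.snd '' S) ≠ ⊤ := (hc.image continuous_snd).measure_lt_top.ne
  have hIfin : volume (Prod.fst '' S) ≠ ⊤ := (hc.image continuous_fst).measure_lt_top.ne
  have hNsub : Prod.snd '' LeftPart S C ∪ Prod.snd '' RightPart S C ⊆ Prod.snd '' S :=
    union_subset hLsub hRsub
  have hNmeas : MeasurableSet (Prod.snd '' LeftPart S C ∪ Prod.snd '' RightPart S C) :=
    hLord.measurableSet.union hRord.measurableSet
  have hsplit := measure_inter_add_sdiff (μ := volume) (Prod.snd '' S) hNmeas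
  rw [inter_eq_right.mpr hNsub, ← Y_eq_diff hC] at hsplit
  have hNfin : volume (Prod.snd '' LeftPart S C ∪ Prod.snd '' RightPart S C) ≠ ⊤ :=
    ne_top_of_le_ne_top hJfin (measure_mono hNsub)
  have hYfin : volume (Y S C) ≠ ⊤ :=
    ne_top_of_le_ne_top hJfin (measure_mono (fun y hy => hy.1))
  have hCfin : volume (C ∩ Prod.fst '' S) ≠ ⊤ :=
    ne_top_of_le_ne_top hIfin (measure_mono inter_subset_right)
  have hsplit' := congrArg ENNReal.toReal hsplit
  rw [ENNReal.toReal_add hNfin hYfin] at hsplit'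
  rw [← ENNReal.toReal_le_toReal (ENNReal.mul_ne_top hYfin hIfin)
    (ENNReal.mul_ne_top hCfin hJfin), ENNReal.toReal_mul, ENNReal.toReal_mul]
  have h3 := congrArg (fun z : ℝ => z * (volume (Prod.fst '' S)).toReal) hsplit'
  beta_reduce at h3
  linarith

/-- The open case, by decomposing an open set into its order-connected components. -/
theorem Y_open {S : Set (ℝ × ℝ)} (hS : Convex ℝ S) (hc : IsCompact S) (hne : S.Nonempty)
    {G : Set ℝ} (hG : IsOpen G) :
    volume (Y S G) * volume (Prod.fst '' S)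
      ≤ volume (G ∩ Prod.fst '' S) * volume (Prod.snd '' S) := by
  have hopen : ∀ x, IsOpen (ordConnectedComponent G x) := by
    intro x
    rw [isOpen_iff_mem_nhds]
    intro y hy
    have hyG : y ∈ G := ordConnectedComponent_subset hy
    have h1 : ordConnectedComponent G y ∈ nhds y :=
      ordConnectedComponent_mem_nhds.mpr (hG.mem_nhds hyG)
    have h2 : ordConnectedComponent G x = ordConnectedComponent G y :=
      ordConnectedComponent_eq hy
    rw [h2]
    exact h1
  have hdisj : (ordConnectedSection G).PairwiseDisjoint (ordConnectedComponent G) := by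
    intro x hx x' hx' hne'
    rw [Function.onFun, Set.disjoint_left]
    intro z hz hz'
    apply hne'
    refine eq_of_mem_ordConnectedSection_of_uIcc_subset hx hx' ?_
    exact (uIcc_subset_uIcc_union_uIcc (b := z)).trans
      (union_subset hz (by rw [uIcc_comm]; exact hz'))
  have hcount : (ordConnectedSection G).Countable :=
    hdisj.countable_of_isOpen (fun x _ => hopen x)
      (fun x hx => ⟨x, self_mem_ordConnectedComponent.mpr (ordConnectedSection_subset hx)⟩)
  have hsub : Y S G ⊆ ⋃ x ∈ ordConnectedSection G, Y S (ordConnectedComponent G x) := by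
    rintro y ⟨hyJ, hy⟩
    obtain ⟨p₀, hp₀, rfl⟩ := hyJ
    have hp₀G : p₀.1 ∈ G := hy p₀ hp₀ rfl
    refine mem_iUnion₂.mpr ⟨ordConnectedProj G ⟨p₀.1, hp₀G⟩, mem_range_self _,
      ⟨⟨p₀, hp₀, rfl⟩, ?_⟩⟩
    intro p hp hpy
    rw [ordConnectedComponent_ordConnectedProj]
    show Set.uIcc p₀.1 p.1 ⊆ G
    intro z hz
    have hzseg : z ∈ segment ℝ p₀.1 p.1 := by rw [segment_eq_uIcc]; exact hz
    obtain ⟨a, b, ha, hb, hab, hz'⟩ := hzseg
    have hmem := hS hp₀ hp ha hb hab
    have e : a • p₀ + b • p = (z, p₀.2) := by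
      refine Prod.ext ?_ ?_
      · exact hz'
      · show a * p₀.2 + b * p.2 = p₀.2
        rw [hpy, ← add_mul, hab, one_mul]
    rw [e] at hmem
    exact hy (z, p₀.2) hmem rfl
  have hImeas : MeasurableSet (Prod.fst '' S) := (hc.image continuous_fst).measurableSet
  have hdisj' : (ordConnectedSection G).PairwiseDisjoint
      (fun x => ordConnectedComponent G x ∩ Prod.fst '' S) :=
    fun x hx x' hx' hne' => (hdisj hx hx' hne').mono inter_subset_left inter_subset_left
  calc volume (Y S G) * volume (Prod.fst '' S)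
      ≤ (∑' x : ordConnectedSection G, volume (Y S (ordConnectedComponent G x)))
          * volume (Prod.fst '' S) := by
        gcongr
        exact (measure_mono hsub).trans (measure_biUnion_le volume hcount _)
    _ = ∑' x : ordConnectedSection G, volume (Y S (ordConnectedComponent G x))
          * volume (Prod.fst '' S) := ENNReal.tsum_mul_right.symm
    _ ≤ ∑' x : ordConnectedSection G, volume (ordConnectedComponent G x ∩ Prod.fst '' S)
          * volume (Prod.snd '' S) :=
        ENNReal.tsum_le_tsum (fun x => Y_ordConnected hS hc hne inferInstance)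
    _ = (∑' x : ordConnectedSection G, volume (ordConnectedComponent G x ∩ Prod.fst '' S))
          * volume (Prod.snd '' S) := ENNReal.tsum_mul_right
    _ = volume (⋃ x ∈ ordConnectedSection G, ordConnectedComponent G x ∩ Prod.fst '' S)
          * volume (Prod.snd '' S) := by
        rw [measure_biUnion hcount hdisj' (fun x _ => (hopen x).measurableSet.inter hImeas)]
    _ ≤ volume (G ∩ Prod.fst '' S) * volume (Prod.snd '' S) := by
        gcongr
        exact iUnion₂_subset (fun x _ => inter_subset_inter_left _ ordConnectedComponent_subset)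

/-- The general case, by outer regularity. -/
theorem Y_any {S : Set (ℝ × ℝ)} (hS : Convex ℝ S) (hc : IsCompact S) (hne : S.Nonempty)
    (E : Set ℝ) :
    volume (Y S E) * volume (Prod.fst '' S)
      ≤ volume (E ∩ Prod.fst '' S) * volume (Prod.snd '' S) := by
  have hJfin : volume (Prod.snd '' S) ≠ ⊤ := (hc.image continuous_snd).measure_lt_top.ne
  have hIfin : volume (Prod.fst '' S) ≠ ⊤ := (hc.image continuous_fst).measure_lt_top.ne
  have hEfin : volume (E ∩ Prod.fst '' S) ≠ ⊤ :=
    ne_top_of_le_ne_top hIfin (measure_mono inter_subset_right)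
  rcases eq_or_ne (volume (Prod.snd '' S)) 0 with h0 | h0
  · have hY0 : volume (Y S E) = 0 := measure_mono_null (fun y hy => hy.1) h0
    rw [hY0, zero_mul]
    exact bot_le
  apply ENNReal.le_of_forall_pos_le_add
  intro ε hε _
  have hδ : (ε : ENNReal) / volume (Prod.snd '' S) ≠ 0 := by
    rw [Ne, ENNReal.div_eq_zero_iff, not_or]
    exact ⟨by simpa using hε.ne', hJfin⟩
  obtain ⟨U, hEU, hUo, hU⟩ := (E ∩ Prod.fst '' S).exists_isOpen_lt_add hEfin hδ
  have hYsub : Y S E ⊆ Y S U := by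
    rintro y ⟨hyJ, hy⟩
    exact ⟨hyJ, fun p hp hpy => hEU ⟨hy p hp hpy, mem_image_of_mem _ hp⟩⟩
  calc volume (Y S E) * volume (Prod.fst '' S)
      ≤ volume (Y S U) * volume (Prod.fst '' S) := by gcongr
    _ ≤ volume (U ∩ Prod.fst '' S) * volume (Prod.snd '' S) := Y_open hS hc hne hUo
    _ ≤ volume U * volume (Prod.snd '' S) := by
        gcongr
        exact inter_subset_left
    _ ≤ (volume (E ∩ Prod.fst '' S) + ε / volume (Prod.snd '' S)) * volume (Prod.snd '' S) := by
        gcongr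
    _ = volume (E ∩ Prod.fst '' S) * volume (Prod.snd '' S) + ε := by
        rw [add_mul, ENNReal.div_mul_cancel h0 hJfin]

/-- The planar two-strip inequality for arbitrary sets `E`, `F` of reals: if a convex compact
planar set `S` is covered by `E × ℝ` and `ℝ × F`, then `|E ∩ I| / |I| + |F ∩ J| / |J| ≥ 1`,
where `I`, `J` are the coordinate projections of `S` (outer measures; stated without
division). -/
theorem strip_gen {S : Set (ℝ × ℝ)} (hS : Convex ℝ S) (hc : IsCompact S) (hne : S.Nonempty)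
    {E F : Set ℝ} (hcov : ∀ p ∈ S, p.1 ∈ E ∨ p.2 ∈ F) :
    (volume (Prod.fst '' S)).toReal * (volume (Prod.snd '' S)).toReal
      ≤ (volume (E ∩ Prod.fst '' S)).toReal * (volume (Prod.snd '' S)).toReal
        + (volume (F ∩ Prod.snd '' S)).toReal * (volume (Prod.fst '' S)).toReal := by
  have hY := Y_any hS hc hne E
  have hJsub : Prod.snd '' S ⊆ (F ∩ Prod.snd '' S) ∪ Y S E := by
    intro y hyJ
    by_cases h : ∀ p ∈ S, p.2 = y → p.1 ∈ E
    · exact Or.inr ⟨hyJ, h⟩
    · left
      obtain ⟨p, hp, hpy, hpE⟩ : ∃ p ∈ S, p.2 = y ∧ p.1 ∉ E := by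
        by_contra hcon
        exact h (fun p hp hpy => by_contra (fun hE => hcon ⟨p, hp, hpy, hE⟩))
      rcases hcov p hp with h' | h'
      · exact absurd h' hpE
      · exact ⟨hpy ▸ h', hyJ⟩
  have hle : volume (Prod.snd '' S) ≤ volume (F ∩ Prod.snd '' S) + volume (Y S E) :=
    (measure_mono hJsub).trans (measure_union_le _ _)
  have hJfin : volume (Prod.snd '' S) ≠ ⊤ := (hc.image continuous_snd).measure_lt_top.ne
  have hIfin : volume (Prod.fst '' S) ≠ ⊤ := (hc.image continuous_fst).measure_lt_top.ne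
  have hEfin : volume (E ∩ Prod.fst '' S) ≠ ⊤ :=
    ne_top_of_le_ne_top hIfin (measure_mono inter_subset_right)
  have hFfin : volume (F ∩ Prod.snd '' S) ≠ ⊤ :=
    ne_top_of_le_ne_top hJfin (measure_mono inter_subset_right)
  have hYfin : volume (Y S E) ≠ ⊤ :=
    ne_top_of_le_ne_top hJfin (measure_mono (fun y hy => hy.1))
  have hle' := ENNReal.toReal_mono (ENNReal.add_ne_top.mpr ⟨hFfin, hYfin⟩) hle
  rw [ENNReal.toReal_add hFfin hYfin] at hle'
  have hY' := ENNReal.toReal_mono (ENNReal.mul_ne_top hEfin hJfin) hY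
  rw [ENNReal.toReal_mul, ENNReal.toReal_mul] at hY'
  have hi : 0 ≤ (volume (Prod.fst '' S)).toReal := ENNReal.toReal_nonneg
  have h4 := mul_le_mul_of_nonneg_left hle' hi
  linarith

end Vale.Agent.Lib.BangMeas
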