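import Mathlib
import Vale.Agent.Lib.BangStrip
import Vale.Agent.Lib.BangConcave
import Vale.Agent.Lib.BangSlices
import Vale.Agent.Lib.BangMeas

namespace Vale.Agent.Lib.BangTwo

open Set MeasureTheory Vale.Agent.Lib.BangStrip Vale.Agent.Lib.BangConcave
  Vale.Agent.Lib.BangSlices Vale.Agent.Lib.BangMeas

/-- The projection of `K` along the second coordinate (the `x`-axis), as a subset of the
`(t, y)`-plane. -/
def PX (K : Set (ℝ × ℝ × ℝ)) : Set (ℝ × ℝ) := {p | ∃ x : ℝ, (p.1, x, p.2) ∈ K}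

/-- The projection of `K` along the third coordinate (the `y`-axis), as a subset of the
`(t, x)`-plane. -/
def PY (K : Set (ℝ × ℝ × ℝ)) : Set (ℝ × ℝ) := {p | ∃ y : ℝ, (p.1, p.2, y) ∈ K}

variable {K : Set (ℝ × ℝ × ℝ)}

theorem PX_compact (hKc : IsCompact K) : IsCompact (PX K) := by
  have h : PX K = (fun q : ℝ × ℝ × ℝ => (q.1, q.2.2)) '' K := by
    ext p
    constructor
    · rintro ⟨x, hx⟩
      exact ⟨(p.1, x, p.2), hx, rfl⟩
    · rintro ⟨q, hq, rfl⟩
      exact ⟨q.2.1, hq⟩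
  rw [h]
  exact hKc.image (by fun_prop)

theorem PY_compact (hKc : IsCompact K) : IsCompact (PY K) := by
  have h : PY K = (fun q : ℝ × ℝ × ℝ => (q.1, q.2.1)) '' K := by
    ext p
    constructor
    · rintro ⟨y, hy⟩
      exact ⟨(p.1, p.2, y), hy, rfl⟩
    · rintro ⟨q, hq, rfl⟩
      exact ⟨q.2.2, hq⟩
  rw [h]
  exact hKc.image (by fun_prop)

theorem PX_convex (hK : Convex ℝ K) : Convex ℝ (PX K) := by
  rintro p ⟨x, hx⟩ q ⟨x', hx'⟩ a b ha hb hab
  exact ⟨a • x + b • x', hK hx hx' ha hb hab⟩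

theorem PY_convex (hK : Convex ℝ K) : Convex ℝ (PY K) := by
  rintro p ⟨y, hy⟩ q ⟨y', hy'⟩ a b ha hb hab
  exact ⟨a • y + b • y', hK hy hy' ha hb hab⟩

theorem fst_PX : Prod.fst '' PX K = Prod.fst '' K := by
  ext t
  constructor
  · rintro ⟨p, ⟨x, hx⟩, rfl⟩
    exact ⟨_, hx, rfl⟩
  · rintro ⟨q, hq, rfl⟩
    exact ⟨(q.1, q.2.2), ⟨q.2.1, hq⟩, rfl⟩

theorem fst_PY : Prod.fst '' PY K = Prod.fst '' K := by
  ext t
  constructor
  · rintro ⟨p, ⟨y, hy⟩, rfl⟩
    exact ⟨_, hy, rfl⟩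
  · rintro ⟨q, hq, rfl⟩
    exact ⟨(q.1, q.2.1), ⟨q.2.2, hq⟩, rfl⟩

theorem snd_slice (K : Set (ℝ × ℝ × ℝ)) (t : ℝ) :
    Prod.snd '' (Prod.mk t ⁻¹' K) = Prod.mk t ⁻¹' PX K := by
  ext y
  constructor
  · rintro ⟨p, hp, rfl⟩
    exact ⟨p.1, hp⟩
  · rintro ⟨x, hx⟩
    exact ⟨(x, y), hx, rfl⟩

theorem fst_slice (K : Set (ℝ × ℝ × ℝ)) (t : ℝ) :
    Prod.fst '' (Prod.mk t ⁻¹' K) = Prod.mk t ⁻¹' PY K := by
  ext x
  constructor
  · rintro ⟨p, hp, rfl⟩
    exact ⟨p.2, hp⟩
  · rintro ⟨y, hy⟩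
    exact ⟨(x, y), hy, rfl⟩

theorem pointwise {a b e₁ e₂ A B : ℝ} (ha : 0 ≤ a) (hb : 0 ≤ b) (he₁ : e₁ ≤ a) (he₂ : e₂ ≤ b)
    (he₁0 : 0 ≤ e₁) (he₂0 : 0 ≤ e₂) (hA : 0 ≤ A) (hB : 0 ≤ B)
    (hs : b * a ≤ e₂ * a + e₁ * b) : min (B * a) (A * b) ≤ B * e₁ + A * e₂ := by
  have hR : 0 ≤ B * e₁ + A * e₂ := by positivity
  rcases ha.eq_or_lt with h | hapos
  · exact min_le_of_left_le (by rw [← h, mul_zero]; exact hR)
  rcases hb.eq_or_lt with h | hbpos
  · exact min_le_of_right_le (by rw [← h, mul_zero]; exact hR)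
  rcases le_total (B * a) (A * b) with hAB | hAB
  · refine min_le_of_left_le ?_
    have h1 := mul_le_mul_of_nonneg_left hs hA
    have h2 := mul_nonneg (sub_nonneg.mpr hAB) (sub_nonneg.mpr he₁)
    by_contra hcon
    have hcon' := not_le.mp hcon
    nlinarith [mul_pos hapos (sub_pos.mpr hcon')]
  · refine min_le_of_right_le ?_
    have h1 := mul_le_mul_of_nonneg_left hs hB
    have h2 := mul_nonneg (sub_nonneg.mpr hAB) (sub_nonneg.mpr he₂)
    by_contra hcon
    have hcon' := not_le.mp hcon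
    nlinarith [mul_pos hbpos (sub_pos.mpr hcon')]

/-- Assembly: if in every slice `t = const` the two-strip inequality holds, then the two-cylinder
inequality holds for `K`. -/
theorem assembly (hK : Convex ℝ K) (hKc : IsCompact K)
    {B₁ B₂ : Set (ℝ × ℝ)} (hm₁ : MeasurableSet B₁) (hm₂ : MeasurableSet B₂)
    (hslice : ∀ t : ℝ, sl (PY K) t * sl (PX K) t
      ≤ sl (B₂ ∩ PY K) t * sl (PX K) t + sl (B₁ ∩ PX K) t * sl (PY K) t) :
    volume (PX K) * volume (PY K)
      ≤ 2 * (volume B₁ * volume (PY K) + volume B₂ * volume (PX K)) := by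
  have hXc := PX_compact hKc
  have hYc := PY_compact hKc
  have hXm : MeasurableSet (PX K) := hXc.measurableSet
  have hYm : MeasurableSet (PY K) := hYc.measurableSet
  have hXfin : volume (PX K) ≠ ⊤ := hXc.measure_lt_top.ne
  have hYfin : volume (PY K) ≠ ⊤ := hYc.measure_lt_top.ne
  have h1fin : volume (B₁ ∩ PX K) ≠ ⊤ :=
    ne_top_of_le_ne_top hXfin (measure_mono inter_subset_right)
  have h2fin : volume (B₂ ∩ PY K) ≠ ⊤ :=
    ne_top_of_le_ne_top hYfin (measure_mono inter_subset_right)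
  obtain ⟨hai, haI⟩ := sl_integrable hXm hXfin
  obtain ⟨hbi, hbI⟩ := sl_integrable hYm hYfin
  obtain ⟨he₁i, he₁I⟩ := sl_integrable (hm₁.inter hXm) h1fin
  obtain ⟨he₂i, he₂I⟩ := sl_integrable (hm₂.inter hYm) h2fin
  have hreal : (volume (PX K)).toReal * (volume (PY K)).toReal ≤
      2 * ((volume (PY K)).toReal * (volume (B₁ ∩ PX K)).toReal
        + (volume (PX K)).toReal * (volume (B₂ ∩ PY K)).toReal) := by
    rcases K.eq_empty_or_nonempty with hKe | hKne
    · have h0 : PX K = ∅ := by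
        ext p
        simp [PX, hKe]
      rw [h0]
      simp
    · obtain ⟨A, hA⟩ : ∃ A : ℝ, A = (volume (PX K)).toReal := ⟨_, rfl⟩
      obtain ⟨B, hB⟩ : ∃ B : ℝ, B = (volume (PY K)).toReal := ⟨_, rfl⟩
      rw [← hA, ← hB]
      rw [← hA] at haI
      rw [← hB] at hbI
      have hA0 : 0 ≤ A := by rw [hA]; exact ENNReal.toReal_nonneg
      have hB0 : 0 ≤ B := by rw [hB]; exact ENNReal.toReal_nonneg
      have hTc : IsCompact (Prod.fst '' K) := hKc.image continuous_fst
      have hTconn : IsConnected (Prod.fst '' K) :=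
        (hK.isConnected hKne).image _ continuous_fst.continuousOn
      have hT : Prod.fst '' K = Icc (sInf (Prod.fst '' K)) (sSup (Prod.fst '' K)) :=
        eq_Icc_of_connected_compact hTconn hTc
      obtain ⟨t₀, ht₀⟩ : ∃ t₀ : ℝ, t₀ = sInf (Prod.fst '' K) := ⟨_, rfl⟩
      obtain ⟨t₁, ht₁⟩ : ∃ t₁ : ℝ, t₁ = sSup (Prod.fst '' K) := ⟨_, rfl⟩
      rw [← ht₀, ← ht₁] at hT
      have h01 : t₀ ≤ t₁ := by
        have hmem : sInf (Prod.fst '' K) ∈ Prod.fst '' K := hTc.sInf_mem (hKne.image _)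
        rw [← ht₀, hT] at hmem
        exact hmem.2
      have hca : ConcaveOn ℝ (Icc t₀ t₁) (sl (PX K)) := by
        have h := sl_concave (PX_convex hK) hXc
        rwa [fst_PX, hT] at h
      have hcb : ConcaveOn ℝ (Icc t₀ t₁) (sl (PY K)) := by
        have h := sl_concave (PY_convex hK) hYc
        rwa [fst_PY, hT] at h
      have hza : ∀ t, t ∉ Icc t₀ t₁ → sl (PX K) t = 0 := by
        intro t ht
        apply sl_eq_zero
        rw [fst_PX, hT]
        exact ht
      have hzb : ∀ t, t ∉ Icc t₀ t₁ → sl (PY K) t = 0 := by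
        intro t ht
        apply sl_eq_zero
        rw [fst_PY, hT]
        exact ht
      have hf : ConcaveOn ℝ (Icc t₀ t₁) (fun t => B * sl (PX K) t) := hca.smul hB0
      have hg : ConcaveOn ℝ (Icc t₀ t₁) (fun t => A * sl (PY K) t) := hcb.smul hA0
      have hfi : Integrable (fun t => B * sl (PX K) t) := hai.const_mul B
      have hgi : Integrable (fun t => A * sl (PY K) t) := hbi.const_mul A
      have hmi : Integrable (fun t => min (B * sl (PX K) t) (A * sl (PY K) t)) := hfi.inf hgi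
      have key := min_integral_le h01 hf hg (fun t _ => mul_nonneg hB0 (sl_nonneg _ _))
        (fun t _ => mul_nonneg hA0 (sl_nonneg _ _)) hfi.intervalIntegrable
        hgi.intervalIntegrable hmi.intervalIntegrable
      rw [integral_eq_interval h01 (h := fun t => B * sl (PX K) t)
          (by intro t ht; simp [hza t ht]),
        integral_eq_interval h01 (h := fun t => A * sl (PY K) t)
          (by intro t ht; simp [hzb t ht]),
        integral_eq_interval h01 (h := fun t => min (B * sl (PX K) t) (A * sl (PY K) t))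
          (by intro t ht; simp [hza t ht, hzb t ht]),
        integral_const_mul, integral_const_mul, haI, hbI] at key
      have hpt : ∀ t, min (B * sl (PX K) t) (A * sl (PY K) t)
          ≤ B * sl (B₁ ∩ PX K) t + A * sl (B₂ ∩ PY K) t := by
        intro t
        refine pointwise (sl_nonneg _ _) (sl_nonneg _ _) ?_ ?_ (sl_nonneg _ _) (sl_nonneg _ _)
          hA0 hB0 (hslice t)
        · exact ENNReal.toReal_mono (slice_compact hXc t).measure_lt_top.ne
            (measure_mono (preimage_mono inter_subset_right))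
        · exact ENNReal.toReal_mono (slice_compact hYc t).measure_lt_top.ne
            (measure_mono (preimage_mono inter_subset_right))
      have hsum : Integrable (fun t => B * sl (B₁ ∩ PX K) t + A * sl (B₂ ∩ PY K) t) :=
        (he₁i.const_mul B).add (he₂i.const_mul A)
      have hmono : ∫ t, min (B * sl (PX K) t) (A * sl (PY K) t)
          ≤ ∫ t, (B * sl (B₁ ∩ PX K) t + A * sl (B₂ ∩ PY K) t) := integral_mono hmi hsum hpt
      rw [integral_add (he₁i.const_mul B) (he₂i.const_mul A), integral_const_mul,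
        integral_const_mul, he₁I, he₂I] at hmono
      have hmin : min (B * A) (A * B) = A * B := by rw [mul_comm B A, min_self]
      rw [hmin] at key
      linarith
  calc volume (PX K) * volume (PY K)
      ≤ 2 * (volume (B₁ ∩ PX K) * volume (PY K) + volume (B₂ ∩ PY K) * volume (PX K)) := by
        rw [← ENNReal.toReal_le_toReal (ENNReal.mul_ne_top hXfin hYfin)
          (ENNReal.mul_ne_top (by simp) (ENNReal.add_ne_top.mpr
            ⟨ENNReal.mul_ne_top h1fin hYfin, ENNReal.mul_ne_top h2fin hXfin⟩))]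
        rw [ENNReal.toReal_mul, ENNReal.toReal_mul, ENNReal.toReal_add
          (ENNReal.mul_ne_top h1fin hYfin) (ENNReal.mul_ne_top h2fin hXfin),
          ENNReal.toReal_mul, ENNReal.toReal_mul]
        simp only [ENNReal.toReal_ofNat]
        linarith
    _ ≤ 2 * (volume B₁ * volume (PY K) + volume B₂ * volume (PX K)) := by
        gcongr <;> exact inter_subset_left

/-- The second (half-area) form follows from the relative form. -/
theorem min_form {p₁ p₂ b₁ b₂ : ENNReal} (h1 : p₁ ≠ ⊤) (h2 : p₂ ≠ ⊤)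
    (h : p₁ * p₂ ≤ 2 * (b₁ * p₂ + b₂ * p₁)) : min p₁ p₂ ≤ 2 * (b₁ + b₂) := by
  rcases le_total p₁ p₂ with h12 | h12
  · refine min_le_of_left_le ?_
    rcases eq_or_ne p₂ 0 with h0 | h0
    · rw [h0] at h12
      exact le_trans h12 (by simp)
    · rw [← ENNReal.mul_le_mul_iff_left h0 h2]
      calc p₁ * p₂ ≤ 2 * (b₁ * p₂ + b₂ * p₁) := h
        _ ≤ 2 * (b₁ * p₂ + b₂ * p₂) := by gcongr
        _ = 2 * (b₁ + b₂) * p₂ := by ring
  · refine min_le_of_right_le ?_
    rcases eq_or_ne p₁ 0 with h0 | h0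
    · rw [h0] at h12
      exact le_trans h12 (by simp)
    · rw [← ENNReal.mul_le_mul_iff_right h0 h1]
      calc p₁ * p₂ ≤ 2 * (b₁ * p₂ + b₂ * p₁) := h
        _ ≤ 2 * (b₁ * p₁ + b₂ * p₁) := by gcongr
        _ = p₁ * (2 * (b₁ + b₂)) := by ring

theorem vol_closure {B : Set (ℝ × ℝ)} (hB : Convex ℝ B) : volume (closure B) = volume B := by
  refine le_antisymm ?_ (measure_mono subset_closure)
  rw [closure_eq_self_union_frontier]
  calc volume (B ∪ frontier B) ≤ volume B + volume (frontier B) := measure_union_le _ _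
    _ = volume B := by
        have h0 : volume (frontier B) = 0 := hB.addHaar_frontier volume
        rw [h0, add_zero]

/-- Two cylinders with convex measurable bases. -/
theorem two_convex_meas (hK : Convex ℝ K) (hKc : IsCompact K) {B₁ B₂ : Set (ℝ × ℝ)}
    (hB₁ : Convex ℝ B₁) (hB₂ : Convex ℝ B₂) (hm₁ : MeasurableSet B₁) (hm₂ : MeasurableSet B₂)
    (hcov : ∀ t x y : ℝ, (t, x, y) ∈ K → (t, y) ∈ B₁ ∨ (t, x) ∈ B₂) :
    volume (PX K) * volume (PY K)
      ≤ 2 * (volume B₁ * volume (PY K) + volume B₂ * volume (PX K)) := by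
  refine assembly hK hKc hm₁ hm₂ ?_
  intro t
  rcases (Prod.mk t ⁻¹' K).eq_empty_or_nonempty with he | hne
  · have h0 : sl (PX K) t = 0 := by
      apply sl_eq_zero
      rw [fst_PX]
      rintro ⟨q, hq, rfl⟩
      have hmem : q.2 ∈ Prod.mk q.1 ⁻¹' K := hq
      rw [he] at hmem
      exact hmem
    have h0' : sl (PY K) t = 0 := by
      apply sl_eq_zero
      rw [fst_PY]
      rintro ⟨q, hq, rfl⟩
      have hmem : q.2 ∈ Prod.mk q.1 ⁻¹' K := hq
      rw [he] at hmem
      exact hmem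
    rw [h0, h0']
    simp
  · have hs := strip (S := Prod.mk t ⁻¹' K) (slice_convex hK t) (slice_compact hKc t) hne
      (E := Prod.mk t ⁻¹' B₂) (F := Prod.mk t ⁻¹' B₁) (slice_convex hB₂ t).ordConnected
      (slice_convex hB₁ t).ordConnected (fun p hp => (hcov t p.1 p.2 hp).symm)
    rw [fst_slice, snd_slice] at hs
    exact hs

/-- Two cylinders with convex bases (no measurability hypothesis). -/
theorem two_convex (hK : Convex ℝ K) (hKc : IsCompact K) {B₁ B₂ : Set (ℝ × ℝ)}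
    (hB₁ : Convex ℝ B₁) (hB₂ : Convex ℝ B₂)
    (hcov : ∀ t x y : ℝ, (t, x, y) ∈ K → (t, y) ∈ B₁ ∨ (t, x) ∈ B₂) :
    volume (PX K) * volume (PY K)
      ≤ 2 * (volume B₁ * volume (PY K) + volume B₂ * volume (PX K)) := by
  have h := two_convex_meas hK hKc hB₁.closure hB₂.closure isClosed_closure.measurableSet
    isClosed_closure.measurableSet
    (fun t x y h => (hcov t x y h).imp (fun h' => subset_closure h') (fun h' => subset_closure h'))
  rwa [vol_closure hB₁, vol_closure hB₂] at h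

/-- Two cylinders with Borel measurable bases. -/
theorem two_meas (hK : Convex ℝ K) (hKc : IsCompact K) {B₁ B₂ : Set (ℝ × ℝ)}
    (hm₁ : MeasurableSet B₁) (hm₂ : MeasurableSet B₂)
    (hcov : ∀ t x y : ℝ, (t, x, y) ∈ K → (t, y) ∈ B₁ ∨ (t, x) ∈ B₂) :
    volume (PX K) * volume (PY K)
      ≤ 2 * (volume B₁ * volume (PY K) + volume B₂ * volume (PX K)) := by
  refine assembly hK hKc hm₁ hm₂ ?_
  intro t
  rcases (Prod.mk t ⁻¹' K).eq_empty_or_nonempty with he | hne
  · have h0 : sl (PX K) t = 0 := by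
      apply sl_eq_zero
      rw [fst_PX]
      rintro ⟨q, hq, rfl⟩
      have hmem : q.2 ∈ Prod.mk q.1 ⁻¹' K := hq
      rw [he] at hmem
      exact hmem
    have h0' : sl (PY K) t = 0 := by
      apply sl_eq_zero
      rw [fst_PY]
      rintro ⟨q, hq, rfl⟩
      have hmem : q.2 ∈ Prod.mk q.1 ⁻¹' K := hq
      rw [he] at hmem
      exact hmem
    rw [h0, h0']
    simp
  · have hs := strip_gen (S := Prod.mk t ⁻¹' K) (slice_convex hK t) (slice_compact hKc t) hne
      (E := Prod.mk t ⁻¹' B₂) (F := Prod.mk t ⁻¹' B₁) (fun p hp => (hcov t p.1 p.2 hp).symm)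
    rw [fst_slice, snd_slice] at hs
    exact hs

/-- Two cylinders with arbitrary bases (outer Lebesgue measure). -/
theorem two_any (hK : Convex ℝ K) (hKc : IsCompact K) {B₁ B₂ : Set (ℝ × ℝ)}
    (hcov : ∀ t x y : ℝ, (t, x, y) ∈ K → (t, y) ∈ B₁ ∨ (t, x) ∈ B₂) :
    volume (PX K) * volume (PY K)
      ≤ 2 * (volume B₁ * volume (PY K) + volume B₂ * volume (PX K)) := by
  have h := two_meas hK hKc (measurableSet_toMeasurable volume B₁)
    (measurableSet_toMeasurable volume B₂)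
    (fun t x y h => (hcov t x y h).imp (fun h' => subset_toMeasurable volume B₁ h')
      (fun h' => subset_toMeasurable volume B₂ h'))
  rwa [measure_toMeasurable, measure_toMeasurable] at h

/-- Finitely many cylinders in each of the two directions. -/
theorem two_families (hK : Convex ℝ K) (hKc : IsCompact K)
    {ι₁ ι₂ : Type*} [Fintype ι₁] [Fintype ι₂] (B₁ : ι₁ → Set (ℝ × ℝ)) (B₂ : ι₂ → Set (ℝ × ℝ))
    (hcov : ∀ t x y : ℝ, (t, x, y) ∈ K → (∃ i, (t, y) ∈ B₁ i) ∨ (∃ j, (t, x) ∈ B₂ j)) :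
    volume (PX K) * volume (PY K)
      ≤ 2 * ((∑ i, volume (B₁ i)) * volume (PY K) + (∑ j, volume (B₂ j)) * volume (PX K)) := by
  have h := two_any hK hKc (B₁ := ⋃ i, B₁ i) (B₂ := ⋃ j, B₂ j)
    (fun t x y h => (hcov t x y h).imp (fun ⟨i, hi⟩ => mem_iUnion.mpr ⟨i, hi⟩)
      (fun ⟨j, hj⟩ => mem_iUnion.mpr ⟨j, hj⟩))
  refine h.trans ?_
  gcongr
  · exact measure_iUnion_fintype_le volume B₁
  · exact measure_iUnion_fintype_le volume B₂

end Vale.Agent.Lib.BangTwo
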