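import Mathlib
import Vale.Agent.Lib.BangTwo

namespace Vale.Agent.Lib.BangAxes

open Set MeasureTheory Vale.Agent.Lib.BangTwo

/-- The linear map `(t, x, y) ↦ t • w + x • u₁ + y • u₂`. -/
def lin3 {W : Type*} [AddCommGroup W] [Module ℝ W] (w u₁ u₂ : W) : ℝ × ℝ × ℝ →ₗ[ℝ] W where
  toFun q := q.1 • w + q.2.1 • u₁ + q.2.2 • u₂
  map_add' := by
    intro a b
    simp only [Prod.fst_add, Prod.snd_add, add_smul]
    abel
  map_smul' := by
    intro c a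
    simp only [Prod.smul_fst, Prod.smul_snd, smul_eq_mul, mul_smul, smul_add, RingHom.id_apply]

/-- The linear map `(s, r) ↦ s • a + r • b`. -/
def lin2 {W : Type*} [AddCommGroup W] [Module ℝ W] (a b : W) : ℝ × ℝ →ₗ[ℝ] W where
  toFun r := r.1 • a + r.2 • b
  map_add' := by
    intro p q
    simp only [Prod.fst_add, Prod.snd_add, add_smul]
    abel
  map_smul' := by
    intro c p
    simp only [Prod.smul_fst, Prod.smul_snd, smul_eq_mul, mul_smul, smul_add, RingHom.id_apply]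

theorem lin3_apply {W : Type*} [AddCommGroup W] [Module ℝ W] (w u₁ u₂ : W) (q : ℝ × ℝ × ℝ) :
    lin3 w u₁ u₂ q = q.1 • w + q.2.1 • u₁ + q.2.2 • u₂ := rfl

theorem lin2_apply {W : Type*} [AddCommGroup W] [Module ℝ W] (a b : W) (r : ℝ × ℝ) :
    lin2 a b r = r.1 • a + r.2 • b := rfl

theorem det_ne_zero_of_surjective {ψ : ℝ × ℝ →ₗ[ℝ] ℝ × ℝ} (h : Function.Surjective ψ) :
    LinearMap.det ψ ≠ 0 := by
  have hinj : Function.Injective ψ := LinearMap.injective_iff_surjective.mpr h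
  have hu := LinearEquiv.isUnit_det' (LinearEquiv.ofBijective ψ ⟨hinj, h⟩)
  have e : ((LinearEquiv.ofBijective ψ ⟨hinj, h⟩ : (ℝ × ℝ) ≃ₗ[ℝ] (ℝ × ℝ)) : (ℝ × ℝ) →ₗ[ℝ] (ℝ × ℝ))
      = ψ := by
    ext <;> rfl
  rw [e] at hu
  exact hu.ne_zero

/-- Two cylinders with arbitrary distinct axes: `φ₁`, `φ₂` are linear surjections of a
three-dimensional space onto the plane whose kernels (the axes) meet only in `0`. -/
theorem general_two {V : Type*} [NormedAddCommGroup V] [NormedSpace ℝ V] [FiniteDimensional ℝ V]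
    (hV : Module.finrank ℝ V = 3) {K : Set V} (hK : Convex ℝ K) (hKc : IsCompact K)
    (φ₁ φ₂ : V →ₗ[ℝ] ℝ × ℝ) (hφ₁ : Function.Surjective φ₁) (hφ₂ : Function.Surjective φ₂)
    (hax : LinearMap.ker φ₁ ⊓ LinearMap.ker φ₂ = ⊥)
    {B₁ B₂ : Set (ℝ × ℝ)} (hcov : ∀ p ∈ K, φ₁ p ∈ B₁ ∨ φ₂ p ∈ B₂) :
    volume (φ₁ '' K) * volume (φ₂ '' K)
      ≤ 2 * (volume B₁ * volume (φ₂ '' K) + volume B₂ * volume (φ₁ '' K)) := by
  have hlt : Module.finrank ℝ (ℝ × ℝ) < Module.finrank ℝ V := by rw [hV]; simp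
  obtain ⟨u₁, hu₁k, hu₁0⟩ := Submodule.exists_mem_ne_zero_of_ne_bot
    (LinearMap.ker_ne_bot_of_finrank_lt (f := φ₁) hlt)
  obtain ⟨u₂, hu₂k, hu₂0⟩ := Submodule.exists_mem_ne_zero_of_ne_bot
    (LinearMap.ker_ne_bot_of_finrank_lt (f := φ₂) hlt)
  have hu₁ : φ₁ u₁ = 0 := LinearMap.mem_ker.mp hu₁k
  have hu₂ : φ₂ u₂ = 0 := LinearMap.mem_ker.mp hu₂k
  have hφ₂u₁ : φ₂ u₁ ≠ 0 := by
    intro h
    have hmem : u₁ ∈ LinearMap.ker φ₁ ⊓ LinearMap.ker φ₂ := ⟨hu₁k, LinearMap.mem_ker.mpr h⟩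
    rw [hax] at hmem
    exact hu₁0 ((Submodule.mem_bot ℝ).mp hmem)
  have hφ₁u₂ : φ₁ u₂ ≠ 0 := by
    intro h
    have hmem : u₂ ∈ LinearMap.ker φ₁ ⊓ LinearMap.ker φ₂ := ⟨LinearMap.mem_ker.mpr h, hu₂k⟩
    rw [hax] at hmem
    exact hu₂0 ((Submodule.mem_bot ℝ).mp hmem)
  obtain ⟨w, hw⟩ : ∃ w : V, w ∉ Submodule.span ℝ ({u₁, u₂} : Set V) := by
    by_contra hcon
    have htop : Submodule.span ℝ ({u₁, u₂} : Set V) = ⊤ := by
      rw [Submodule.eq_top_iff']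
      intro w
      by_contra hw
      exact hcon ⟨w, hw⟩
    classical
    have h1 := finrank_span_finset_le_card (R := ℝ) ({u₁, u₂} : Finset V)
    have h2 : (({u₁, u₂} : Finset V) : Set V) = {u₁, u₂} := by simp
    rw [Set.finrank, h2, htop, finrank_top, hV] at h1
    have h3 : ({u₁, u₂} : Finset V).card ≤ 2 := Finset.card_le_two
    omega
  -- the coordinate change
  have hLinj : Function.Injective (lin3 w u₁ u₂) := by
    rw [injective_iff_map_eq_zero]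
    intro q hq
    have hq' : q.1 • w + q.2.1 • u₁ + q.2.2 • u₂ = 0 := hq
    have ht : q.1 = 0 := by
      by_contra ht
      apply hw
      have h1 : q.1 • w = -(q.2.1 • u₁ + q.2.2 • u₂) := by
        rw [eq_neg_iff_add_eq_zero, ← add_assoc]
        exact hq'
      have h2 : q.1 • w ∈ Submodule.span ℝ ({u₁, u₂} : Set V) := by
        rw [h1]
        exact Submodule.neg_mem _ (Submodule.add_mem _
          (Submodule.smul_mem _ _ (Submodule.subset_span (by simp)))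
          (Submodule.smul_mem _ _ (Submodule.subset_span (by simp))))
      have h3 := Submodule.smul_mem _ (q.1)⁻¹ h2
      rwa [smul_smul, inv_mul_cancel₀ ht, one_smul] at h3
    rw [ht, zero_smul, zero_add] at hq'
    have hy : q.2.2 = 0 := by
      have h := congrArg φ₁ hq'
      rw [map_add, map_smul, map_smul, hu₁, smul_zero, zero_add, map_zero] at h
      exact (smul_eq_zero.mp h).resolve_right hφ₁u₂
    have hx : q.2.1 = 0 := by
      have h := congrArg φ₂ hq'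
      rw [map_add, map_smul, map_smul, hu₂, smul_zero, add_zero, map_zero] at h
      exact (smul_eq_zero.mp h).resolve_right hφ₂u₁
    exact Prod.ext ht (Prod.ext hx hy)
  have hfin3 : Module.finrank ℝ (ℝ × ℝ × ℝ) = Module.finrank ℝ V := by rw [hV]; simp
  have hLsurj : Function.Surjective (lin3 w u₁ u₂) :=
    (LinearMap.injective_iff_surjective_of_finrank_eq_finrank hfin3).mp hLinj
  have hK' : Convex ℝ (lin3 w u₁ u₂ ⁻¹' K) := hK.linear_preimage (lin3 w u₁ u₂)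
  have hKc' : IsCompact (lin3 w u₁ u₂ ⁻¹' K) := by
    have h1 : lin3 w u₁ u₂ ⁻¹' K
        = (LinearEquiv.ofBijective (lin3 w u₁ u₂) ⟨hLinj, hLsurj⟩).symm '' K := by
      rw [LinearEquiv.image_symm_eq_preimage]
      rfl
    rw [h1]
    exact hKc.image (LinearMap.continuous_of_finiteDimensional
      (LinearEquiv.ofBijective (lin3 w u₁ u₂) ⟨hLinj, hLsurj⟩).symm.toLinearMap)
  -- the induced maps of the base planes
  have hφ₁L : ∀ q : ℝ × ℝ × ℝ, φ₁ (lin3 w u₁ u₂ q) = lin2 (φ₁ w) (φ₁ u₂) (q.1, q.2.2) := by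
    intro q
    rw [lin3_apply, lin2_apply, map_add, map_add, map_smul, map_smul, map_smul, hu₁, smul_zero,
      add_zero]
  have hφ₂L : ∀ q : ℝ × ℝ × ℝ, φ₂ (lin3 w u₁ u₂ q) = lin2 (φ₂ w) (φ₂ u₁) (q.1, q.2.1) := by
    intro q
    rw [lin3_apply, lin2_apply, map_add, map_add, map_smul, map_smul, map_smul, hu₂, smul_zero,
      add_zero]
  have hψ₁s : Function.Surjective (lin2 (φ₁ w) (φ₁ u₂)) := by
    intro v
    obtain ⟨p, rfl⟩ := hφ₁ v
    obtain ⟨q, rfl⟩ := hLsurj p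
    exact ⟨(q.1, q.2.2), (hφ₁L q).symm⟩
  have hψ₂s : Function.Surjective (lin2 (φ₂ w) (φ₂ u₁)) := by
    intro v
    obtain ⟨p, rfl⟩ := hφ₂ v
    obtain ⟨q, rfl⟩ := hLsurj p
    exact ⟨(q.1, q.2.1), (hφ₂L q).symm⟩
  have hψ₁i : Function.Injective (lin2 (φ₁ w) (φ₁ u₂)) :=
    LinearMap.injective_iff_surjective.mpr hψ₁s
  have hψ₂i : Function.Injective (lin2 (φ₂ w) (φ₂ u₁)) :=
    LinearMap.injective_iff_surjective.mpr hψ₂s
  have hd₁ := det_ne_zero_of_surjective hψ₁s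
  have hd₂ := det_ne_zero_of_surjective hψ₂s
  -- the covering in coordinates
  have hmain := two_any hK' hKc' (B₁ := lin2 (φ₁ w) (φ₁ u₂) ⁻¹' B₁)
    (B₂ := lin2 (φ₂ w) (φ₂ u₁) ⁻¹' B₂) (by
      intro t x y h
      rcases hcov _ h with h' | h'
      · left
        rw [hφ₁L] at h'
        exact h'
      · right
        rw [hφ₂L] at h'
        exact h')
  have hPX : PX (lin3 w u₁ u₂ ⁻¹' K) = lin2 (φ₁ w) (φ₁ u₂) ⁻¹' (φ₁ '' K) := by
    ext r
    constructor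
    · rintro ⟨x, hx⟩
      exact ⟨_, hx, hφ₁L _⟩
    · rintro ⟨k, hk, hkr⟩
      obtain ⟨q, rfl⟩ := hLsurj k
      rw [hφ₁L] at hkr
      have hqr := hψ₁i hkr
      refine ⟨q.2.1, ?_⟩
      have e : (r.1, q.2.1, r.2) = q := by
        rw [← hqr]
      rw [e]
      exact hk
  have hPY : PY (lin3 w u₁ u₂ ⁻¹' K) = lin2 (φ₂ w) (φ₂ u₁) ⁻¹' (φ₂ '' K) := by
    ext r
    constructor
    · rintro ⟨y, hy⟩
      exact ⟨_, hy, hφ₂L _⟩
    · rintro ⟨k, hk, hkr⟩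
      obtain ⟨q, rfl⟩ := hLsurj k
      rw [hφ₂L] at hkr
      have hqr := hψ₂i hkr
      refine ⟨q.2.2, ?_⟩
      have e : (r.1, r.2, q.2.2) = q := by
        rw [← hqr]
      rw [e]
      exact hk
  rw [hPX, hPY, Measure.addHaar_preimage_linearMap volume hd₁,
    Measure.addHaar_preimage_linearMap volume hd₂, Measure.addHaar_preimage_linearMap volume hd₁,
    Measure.addHaar_preimage_linearMap volume hd₂] at hmain
  have hd₁0 : ENNReal.ofReal |(LinearMap.det (lin2 (φ₁ w) (φ₁ u₂)))⁻¹| ≠ 0 := by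
    rw [Ne, ENNReal.ofReal_eq_zero, not_le]
    exact abs_pos.mpr (inv_ne_zero hd₁)
  have hd₂0 : ENNReal.ofReal |(LinearMap.det (lin2 (φ₂ w) (φ₂ u₁)))⁻¹| ≠ 0 := by
    rw [Ne, ENNReal.ofReal_eq_zero, not_le]
    exact abs_pos.mpr (inv_ne_zero hd₂)
  have e1 : ENNReal.ofReal |(LinearMap.det (lin2 (φ₁ w) (φ₁ u₂)))⁻¹| * volume (φ₁ '' K)
      * (ENNReal.ofReal |(LinearMap.det (lin2 (φ₂ w) (φ₂ u₁)))⁻¹| * volume (φ₂ '' K))
      = (ENNReal.ofReal |(LinearMap.det (lin2 (φ₁ w) (φ₁ u₂)))⁻¹|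
          * ENNReal.ofReal |(LinearMap.det (lin2 (φ₂ w) (φ₂ u₁)))⁻¹|)
        * (volume (φ₁ '' K) * volume (φ₂ '' K)) := by ring
  have e2 : 2 * (ENNReal.ofReal |(LinearMap.det (lin2 (φ₁ w) (φ₁ u₂)))⁻¹| * volume B₁
        * (ENNReal.ofReal |(LinearMap.det (lin2 (φ₂ w) (φ₂ u₁)))⁻¹| * volume (φ₂ '' K))
      + ENNReal.ofReal |(LinearMap.det (lin2 (φ₂ w) (φ₂ u₁)))⁻¹| * volume B₂
        * (ENNReal.ofReal |(LinearMap.det (lin2 (φ₁ w) (φ₁ u₂)))⁻¹| * volume (φ₁ '' K)))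
      = (ENNReal.ofReal |(LinearMap.det (lin2 (φ₁ w) (φ₁ u₂)))⁻¹|
          * ENNReal.ofReal |(LinearMap.det (lin2 (φ₂ w) (φ₂ u₁)))⁻¹|)
        * (2 * (volume B₁ * volume (φ₂ '' K) + volume B₂ * volume (φ₁ '' K))) := by ring
  rw [e1, e2] at hmain
  exact (ENNReal.mul_le_mul_iff_right (mul_ne_zero hd₁0 hd₂0)
    (ENNReal.mul_ne_top ENNReal.ofReal_ne_top ENNReal.ofReal_ne_top)).mp hmain

/-- Finitely many cylinders in each of two distinct axis directions. -/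
theorem general_families {V : Type*} [NormedAddCommGroup V] [NormedSpace ℝ V]
    [FiniteDimensional ℝ V] (hV : Module.finrank ℝ V = 3) {K : Set V} (hK : Convex ℝ K)
    (hKc : IsCompact K) (φ₁ φ₂ : V →ₗ[ℝ] ℝ × ℝ) (hφ₁ : Function.Surjective φ₁)
    (hφ₂ : Function.Surjective φ₂) (hax : LinearMap.ker φ₁ ⊓ LinearMap.ker φ₂ = ⊥)
    {ι₁ ι₂ : Type*} [Fintype ι₁] [Fintype ι₂] (B₁ : ι₁ → Set (ℝ × ℝ)) (B₂ : ι₂ → Set (ℝ × ℝ))
    (hcov : ∀ p ∈ K, (∃ i, φ₁ p ∈ B₁ i) ∨ (∃ j, φ₂ p ∈ B₂ j)) :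
    volume (φ₁ '' K) * volume (φ₂ '' K)
        ≤ 2 * ((∑ i, volume (B₁ i)) * volume (φ₂ '' K)
          + (∑ j, volume (B₂ j)) * volume (φ₁ '' K))
      ∧ min (volume (φ₁ '' K)) (volume (φ₂ '' K))
        ≤ 2 * ((∑ i, volume (B₁ i)) + ∑ j, volume (B₂ j)) := by
  have h := general_two hV hK hKc φ₁ φ₂ hφ₁ hφ₂ hax (B₁ := ⋃ i, B₁ i) (B₂ := ⋃ j, B₂ j)
    (fun p hp => (hcov p hp).imp (fun ⟨i, hi⟩ => mem_iUnion.mpr ⟨i, hi⟩)
      (fun ⟨j, hj⟩ => mem_iUnion.mpr ⟨j, hj⟩))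
  have h' : volume (φ₁ '' K) * volume (φ₂ '' K)
      ≤ 2 * ((∑ i, volume (B₁ i)) * volume (φ₂ '' K)
        + (∑ j, volume (B₂ j)) * volume (φ₁ '' K)) := by
    refine h.trans ?_
    gcongr
    · exact measure_iUnion_fintype_le volume B₁
    · exact measure_iUnion_fintype_le volume B₂
  have hf₁ : volume (φ₁ '' K) ≠ ⊤ :=
    (hKc.image (LinearMap.continuous_of_finiteDimensional φ₁)).measure_lt_top.ne
  have hf₂ : volume (φ₂ '' K) ≠ ⊤ :=
    (hKc.image (LinearMap.continuous_of_finiteDimensional φ₂)).measure_lt_top.ne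
  exact ⟨h', min_form hf₁ hf₂ h'⟩

end Vale.Agent.Lib.BangAxes
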