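import Mathlib
import Vale.Agent.Lib.BangAxes

namespace Vale.Agent.Lib.BangEuclid

open Set MeasureTheory Vale.Agent.Lib.BangAxes

/-- Orthonormal coordinates on a two-dimensional inner product space: a bijective linear map
onto `ℝ × ℝ` which preserves Lebesgue measure. -/
theorem exists_coords {F : Type*} [NormedAddCommGroup F] [InnerProductSpace ℝ F]
    [FiniteDimensional ℝ F] [MeasurableSpace F] [BorelSpace F] (hF : Module.finrank ℝ F = 2) :
    ∃ g : F →ₗ[ℝ] ℝ × ℝ, Function.Bijective g ∧ ∀ s : Set F, volume (g '' s) = volume s := by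
  let b : OrthonormalBasis (Fin 2) ℝ F := (stdOrthonormalBasis ℝ F).reindex (finCongr hF)
  let Φ : F ≃ᵐ ℝ × ℝ := b.measurableEquiv.trans
    ((MeasurableEquiv.toLp 2 (Fin 2 → ℝ)).symm.trans MeasurableEquiv.finTwoArrow)
  have hΦ : MeasurePreserving Φ volume volume :=
    ((volume_preserving_finTwoArrow ℝ).comp
      (EuclideanSpace.volume_preserving_symm_measurableEquiv_toLp (Fin 2))).comp
      b.measurePreserving_measurableEquiv
  let g : F →ₗ[ℝ] ℝ × ℝ :=
    { toFun := fun z => (b.repr z 0, b.repr z 1)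
      map_add' := by intro x y; simp
      map_smul' := by intro c x; simp }
  have hg : ∀ z, g z = Φ z := fun z => rfl
  refine ⟨g, ?_, ?_⟩
  · have h1 : (g : F → ℝ × ℝ) = Φ := funext hg
    rw [h1]
    exact Φ.bijective
  · intro s
    have h1 : g '' s = Φ.symm ⁻¹' s := by
      rw [← MeasurableEquiv.image_eq_preimage_symm]
      exact image_congr (fun z _ => hg z)
    rw [h1]
    exact (hΦ.symm Φ).measure_preimage_equiv s

/-- Two distinct lines through `0` spanned by unit vectors meet only in `0`. -/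
theorem axes_disjoint {E : Type*} [NormedAddCommGroup E] [NormedSpace ℝ E] {u₁ u₂ : E}
    (hu₁ : ‖u₁‖ = 1) (hu₂ : ‖u₂‖ = 1) (hne : u₁ ≠ u₂) (hne' : u₁ ≠ -u₂) {z : E}
    (h1 : z ∈ Submodule.span ℝ {u₁}) (h2 : z ∈ Submodule.span ℝ {u₂}) : z = 0 := by
  rw [Submodule.mem_span_singleton] at h1 h2
  obtain ⟨a, ha⟩ := h1
  obtain ⟨b, hb⟩ := h2
  by_contra hz
  have ha0 : a ≠ 0 := by
    rintro rfl
    rw [zero_smul] at ha
    exact hz ha.symm
  have hab : |a| = |b| := by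
    have h3 : ‖a • u₁‖ = ‖b • u₂‖ := by rw [ha, hb]
    rwa [norm_smul, norm_smul, hu₁, hu₂, mul_one, mul_one, Real.norm_eq_abs,
      Real.norm_eq_abs] at h3
  rcases abs_eq_abs.mp hab with h | h
  · apply hne
    have h4 : a • u₁ = a • u₂ := by rw [ha, h, hb]
    exact smul_right_injective _ ha0 h4
  · apply hne'
    have h4 : a • u₁ = a • (-u₂) := by rw [ha, smul_neg, ← neg_smul, h, neg_neg, hb]
    exact smul_right_injective _ ha0 h4

/-- Bang's inequality in Euclidean form for cylinders with axes in two distinct directions. -/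
theorem euclid_two {E : Type*} [NormedAddCommGroup E] [InnerProductSpace ℝ E]
    [FiniteDimensional ℝ E] [MeasurableSpace E] [BorelSpace E] (hE : Module.finrank ℝ E = 3)
    (K : Set E) (hK : Convex ℝ K) (hKc : IsCompact K)
    (u₁ u₂ : E) (hu₁ : ‖u₁‖ = 1) (hu₂ : ‖u₂‖ = 1) (hne : u₁ ≠ u₂)
    (hne' : u₁ ≠ -u₂) {ι₁ ι₂ : Type*} [Fintype ι₁] [Fintype ι₂]
    (B₁ : ι₁ → Set (Submodule.span ℝ {u₁})ᗮ) (B₂ : ι₂ → Set (Submodule.span ℝ {u₂})ᗮ)
    (hcov : ∀ p ∈ K, (∃ i, (Submodule.span ℝ {u₁})ᗮ.orthogonalProjectionOnto p ∈ B₁ i) ∨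
      (∃ j, (Submodule.span ℝ {u₂})ᗮ.orthogonalProjectionOnto p ∈ B₂ j)) :
    volume ((Submodule.span ℝ {u₁})ᗮ.orthogonalProjectionOnto '' K)
        * volume ((Submodule.span ℝ {u₂})ᗮ.orthogonalProjectionOnto '' K)
      ≤ 2 * ((∑ i, volume (B₁ i))
            * volume ((Submodule.span ℝ {u₂})ᗮ.orthogonalProjectionOnto '' K)
          + (∑ j, volume (B₂ j))
            * volume ((Submodule.span ℝ {u₁})ᗮ.orthogonalProjectionOnto '' K))
    ∧ (⨅ u : {u : E // ‖u‖ = 1},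
        volume ((Submodule.span ℝ {(u : E)})ᗮ.orthogonalProjectionOnto '' K))
      ≤ 2 * ((∑ i, volume (B₁ i)) + ∑ j, volume (B₂ j)) := by
  have hfact : Fact (Module.finrank ℝ E = 2 + 1) := ⟨hE⟩
  have hu₁0 : u₁ ≠ 0 := by
    intro h
    rw [h, norm_zero] at hu₁
    exact zero_ne_one hu₁
  have hu₂0 : u₂ ≠ 0 := by
    intro h
    rw [h, norm_zero] at hu₂
    exact zero_ne_one hu₂
  have hF₁ : Module.finrank ℝ (Submodule.span ℝ {u₁})ᗮ = 2 :=
    Submodule.finrank_orthogonal_span_singleton hu₁0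
  have hF₂ : Module.finrank ℝ (Submodule.span ℝ {u₂})ᗮ = 2 :=
    Submodule.finrank_orthogonal_span_singleton hu₂0
  obtain ⟨g₁, hg₁b, hg₁v⟩ := exists_coords hF₁
  obtain ⟨g₂, hg₂b, hg₂v⟩ := exists_coords hF₂
  have hπ₁s : Function.Surjective (Submodule.span ℝ {u₁})ᗮ.orthogonalProjectionOnto :=
    fun z => ⟨z, Submodule.orthogonalProjectionOnto_mem_subspace_eq_self z⟩
  have hπ₂s : Function.Surjective (Submodule.span ℝ {u₂})ᗮ.orthogonalProjectionOnto :=
    fun z => ⟨z, Submodule.orthogonalProjectionOnto_mem_subspace_eq_self z⟩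
  have hφ₁ : Function.Surjective
      (g₁.comp (Submodule.span ℝ {u₁})ᗮ.orthogonalProjectionOnto.toLinearMap) := by
    intro v
    obtain ⟨z, rfl⟩ := hg₁b.surjective v
    obtain ⟨p, rfl⟩ := hπ₁s z
    exact ⟨p, rfl⟩
  have hφ₂ : Function.Surjective
      (g₂.comp (Submodule.span ℝ {u₂})ᗮ.orthogonalProjectionOnto.toLinearMap) := by
    intro v
    obtain ⟨z, rfl⟩ := hg₂b.surjective v
    obtain ⟨p, rfl⟩ := hπ₂s z
    exact ⟨p, rfl⟩
  have hax : LinearMap.ker
        (g₁.comp (Submodule.span ℝ {u₁})ᗮ.orthogonalProjectionOnto.toLinearMap)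
      ⊓ LinearMap.ker
        (g₂.comp (Submodule.span ℝ {u₂})ᗮ.orthogonalProjectionOnto.toLinearMap) = ⊥ := by
    rw [Submodule.eq_bot_iff]
    rintro z ⟨hz₁, hz₂⟩
    have h1 : (Submodule.span ℝ {u₁})ᗮ.orthogonalProjectionOnto z = 0 :=
      hg₁b.injective (by rw [map_zero]; exact LinearMap.mem_ker.mp hz₁)
    have h2 : (Submodule.span ℝ {u₂})ᗮ.orthogonalProjectionOnto z = 0 :=
      hg₂b.injective (by rw [map_zero]; exact LinearMap.mem_ker.mp hz₂)
    rw [Submodule.orthogonalProjectionOnto_eq_zero_iff, Submodule.orthogonal_orthogonal] at h1 h2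
    exact axes_disjoint hu₁ hu₂ hne hne' h1 h2
  have h := general_families hE hK hKc _ _ hφ₁ hφ₂ hax (fun i => g₁ '' B₁ i)
    (fun j => g₂ '' B₂ j) (by
      intro p hp
      rcases hcov p hp with ⟨i, hi⟩ | ⟨j, hj⟩
      · exact Or.inl ⟨i, ⟨_, hi, rfl⟩⟩
      · exact Or.inr ⟨j, ⟨_, hj, rfl⟩⟩)
  simp only [LinearMap.coe_comp, ContinuousLinearMap.coe_coe, Set.image_comp, hg₁v, hg₂v] at h
  refine ⟨h.1, ?_⟩
  rcases le_total (volume ((Submodule.span ℝ {u₁})ᗮ.orthogonalProjectionOnto '' K))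
      (volume ((Submodule.span ℝ {u₂})ᗮ.orthogonalProjectionOnto '' K)) with h12 | h12
  · have h3 := h.2
    rw [min_eq_left h12] at h3
    exact (iInf_le (fun u : {u : E // ‖u‖ = 1} =>
      volume ((Submodule.span ℝ {(u : E)})ᗮ.orthogonalProjectionOnto '' K))
      ⟨u₁, hu₁⟩).trans h3
  · have h3 := h.2
    rw [min_eq_right h12] at h3
    exact (iInf_le (fun u : {u : E // ‖u‖ = 1} =>
      volume ((Submodule.span ℝ {(u : E)})ᗮ.orthogonalProjectionOnto '' K))
      ⟨u₂, hu₂⟩).trans h3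

end Vale.Agent.Lib.BangEuclid
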