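import Mathlib
import Vale.Agent.Lib.BangEuclid

namespace Vale.Agent.Lib.BangEuclidAny

open Set MeasureTheory Vale.Agent.Lib.BangEuclid

/-- Cylinders whose axes are all parallel to one line: the projection of `K` along the line is
covered by the bases, so its area is at most the total area of the bases. -/
theorem parallel_case {E : Type*} [NormedAddCommGroup E] [InnerProductSpace ℝ E]
    [FiniteDimensional ℝ E] [MeasurableSpace E] [BorelSpace E]
    (K : Set E) (S₁ S₂ : Submodule ℝ E) (hS : S₁ = S₂)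
    {ι₁ ι₂ : Type*} [Fintype ι₁] [Fintype ι₂]
    (B₁ : ι₁ → Set S₁ᗮ) (B₂ : ι₂ → Set S₂ᗮ)
    (hcov : ∀ p ∈ K, (∃ i, S₁ᗮ.orthogonalProjectionOnto p ∈ B₁ i) ∨
      (∃ j, S₂ᗮ.orthogonalProjectionOnto p ∈ B₂ j)) :
    volume (S₁ᗮ.orthogonalProjectionOnto '' K) ≤ (∑ i, volume (B₁ i)) + ∑ j, volume (B₂ j)
    ∧ volume (S₂ᗮ.orthogonalProjectionOnto '' K) = volume (S₁ᗮ.orthogonalProjectionOnto '' K) := by
  subst hS
  refine ⟨?_, rfl⟩
  have hsub : S₁ᗮ.orthogonalProjectionOnto '' K ⊆ (⋃ i, B₁ i) ∪ ⋃ j, B₂ j := by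
    rintro _ ⟨p, hp, rfl⟩
    rcases hcov p hp with ⟨i, hi⟩ | ⟨j, hj⟩
    · exact Or.inl (mem_iUnion.mpr ⟨i, hi⟩)
    · exact Or.inr (mem_iUnion.mpr ⟨j, hj⟩)
  calc volume (S₁ᗮ.orthogonalProjectionOnto '' K)
      ≤ volume ((⋃ i, B₁ i) ∪ ⋃ j, B₂ j) := measure_mono hsub
    _ ≤ volume (⋃ i, B₁ i) + volume (⋃ j, B₂ j) := measure_union_le _ _
    _ ≤ (∑ i, volume (B₁ i)) + ∑ j, volume (B₂ j) :=
        add_le_add (measure_iUnion_fintype_le _ _) (measure_iUnion_fintype_le _ _)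

/-- Bang's inequality in Euclidean form for cylinders with axes parallel to one of two unit
vectors, with no condition on the two vectors. -/
theorem euclid_two_any {E : Type*} [NormedAddCommGroup E] [InnerProductSpace ℝ E]
    [FiniteDimensional ℝ E] [MeasurableSpace E] [BorelSpace E] (hE : Module.finrank ℝ E = 3)
    (K : Set E) (hK : Convex ℝ K) (hKc : IsCompact K)
    (u₁ u₂ : E) (hu₁ : ‖u₁‖ = 1) (hu₂ : ‖u₂‖ = 1)
    {ι₁ ι₂ : Type*} [Fintype ι₁] [Fintype ι₂]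
    (B₁ : ι₁ → Set (Submodule.span ℝ {u₁})ᗮ) (B₂ : ι₂ → Set (Submodule.span ℝ {u₂})ᗮ)
    (hcov : ∀ p ∈ K, (∃ i, (Submodule.span ℝ {u₁})ᗮ.orthogonalProjectionOnto p ∈ B₁ i) ∨
      (∃ j, (Submodule.span ℝ {u₂})ᗮ.orthogonalProjectionOnto p ∈ B₂ j)) :
    volume ((Submodule.span ℝ {u₁})ᗮ.orthogonalProjectionOnto '' K)
        * volume ((Submodule.span ℝ {u₂})ᗮ.orthogonalProjectionOnto '' K)
      ≤ 2 * ((∑ i, volume (B₁ i))
            * volume ((Submodule.span ℝ {u₂})ᗮ.orthogonalProjectionOnto '' K)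
          + (∑ j, volume (B₂ j))
            * volume ((Submodule.span ℝ {u₁})ᗮ.orthogonalProjectionOnto '' K))
    ∧ (⨅ u : {u : E // ‖u‖ = 1},
        volume ((Submodule.span ℝ {(u : E)})ᗮ.orthogonalProjectionOnto '' K))
      ≤ 2 * ((∑ i, volume (B₁ i)) + ∑ j, volume (B₂ j)) := by
  by_cases hpar : Submodule.span ℝ {u₁} = Submodule.span ℝ {u₂}
  · obtain ⟨h1, h2⟩ := parallel_case K _ _ hpar B₁ B₂ hcov
    rw [h2]
    set P := volume ((Submodule.span ℝ {u₁})ᗮ.orthogonalProjectionOnto '' K) with hP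
    set S1 := ∑ i, volume (B₁ i) with hS1
    set S2 := ∑ j, volume (B₂ j) with hS2
    constructor
    · calc P * P ≤ (S1 + S2) * P := mul_le_mul_left h1 P
        _ = S1 * P + S2 * P := add_mul _ _ _
        _ ≤ 2 * (S1 * P + S2 * P) := by
            rw [two_mul]
            exact le_self_add
    · calc (⨅ u : {u : E // ‖u‖ = 1},
            volume ((Submodule.span ℝ {(u : E)})ᗮ.orthogonalProjectionOnto '' K))
          ≤ P := iInf_le (fun u : {u : E // ‖u‖ = 1} =>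
            volume ((Submodule.span ℝ {(u : E)})ᗮ.orthogonalProjectionOnto '' K)) ⟨u₁, hu₁⟩
        _ ≤ S1 + S2 := h1
        _ ≤ 2 * (S1 + S2) := by
            rw [two_mul]
            exact le_self_add
  · have hne : u₁ ≠ u₂ := by
      rintro rfl
      exact hpar rfl
    have hne' : u₁ ≠ -u₂ := by
      rintro rfl
      apply hpar
      rw [← Set.neg_singleton, Submodule.span_neg]
    exact euclid_two hE K hK hKc u₁ u₂ hu₁ hu₂ hne hne' B₁ B₂ hcov

end Vale.Agent.Lib.BangEuclidAny
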