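import Mathlib

namespace Vale.Agent.Lib.TetraMeasure

open Set MeasureTheory
open scoped Pointwise

/-- The tetrahedron with vertices `0, e₁, e₂, e₃` in coordinates `(β, γ, δ)`. -/
def Dl : Set (ℝ × ℝ × ℝ) :=
  {x | 0 ≤ x.1 ∧ 0 ≤ x.2.1 ∧ 0 ≤ x.2.2 ∧ x.1 + x.2.1 + x.2.2 ≤ 1}

/-- The octahedron of the points all of whose four barycentric coordinates are at most `1/2`. -/
def Mo : Set (ℝ × ℝ × ℝ) :=
  {x | 0 ≤ x.1 ∧ 0 ≤ x.2.1 ∧ 0 ≤ x.2.2 ∧ x.1 + x.2.1 + x.2.2 ≤ 1 ∧ x.1 ≤ 1 / 2 ∧ x.2.1 ≤ 1 / 2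
    ∧ x.2.2 ≤ 1 / 2 ∧ 1 / 2 ≤ x.1 + x.2.1 + x.2.2}

/-- The triangle with vertices `0, e₁, e₂`. -/
def T2 : Set (ℝ × ℝ) := {q | 0 ≤ q.1 ∧ 0 ≤ q.2 ∧ q.1 + q.2 ≤ 1}

/-- The triangle with vertices `0, e₁/2, e₂/2`. -/
def H2 : Set (ℝ × ℝ) := {q | 0 ≤ q.1 ∧ 0 ≤ q.2 ∧ q.1 + q.2 ≤ 1 / 2}

theorem Dl_closed : IsClosed Dl := by
  have h1 : IsClosed {x : ℝ × ℝ × ℝ | 0 ≤ x.1} := isClosed_le continuous_const (by fun_prop)
  have h2 : IsClosed {x : ℝ × ℝ × ℝ | 0 ≤ x.2.1} := isClosed_le continuous_const (by fun_prop)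
  have h3 : IsClosed {x : ℝ × ℝ × ℝ | 0 ≤ x.2.2} := isClosed_le continuous_const (by fun_prop)
  have h4 : IsClosed {x : ℝ × ℝ × ℝ | x.1 + x.2.1 + x.2.2 ≤ 1} :=
    isClosed_le (by fun_prop) continuous_const
  exact h1.inter (h2.inter (h3.inter h4))

theorem Mo_closed : IsClosed Mo := by
  have h1 : IsClosed {x : ℝ × ℝ × ℝ | 0 ≤ x.1} := isClosed_le continuous_const (by fun_prop)
  have h2 : IsClosed {x : ℝ × ℝ × ℝ | 0 ≤ x.2.1} := isClosed_le continuous_const (by fun_prop)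
  have h3 : IsClosed {x : ℝ × ℝ × ℝ | 0 ≤ x.2.2} := isClosed_le continuous_const (by fun_prop)
  have h4 : IsClosed {x : ℝ × ℝ × ℝ | x.1 + x.2.1 + x.2.2 ≤ 1} :=
    isClosed_le (by fun_prop) continuous_const
  have h5 : IsClosed {x : ℝ × ℝ × ℝ | x.1 ≤ 1 / 2} := isClosed_le (by fun_prop) continuous_const
  have h6 : IsClosed {x : ℝ × ℝ × ℝ | x.2.1 ≤ 1 / 2} :=
    isClosed_le (by fun_prop) continuous_const
  have h7 : IsClosed {x : ℝ × ℝ × ℝ | x.2.2 ≤ 1 / 2} :=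
    isClosed_le (by fun_prop) continuous_const
  have h8 : IsClosed {x : ℝ × ℝ × ℝ | 1 / 2 ≤ x.1 + x.2.1 + x.2.2} :=
    isClosed_le continuous_const (by fun_prop)
  exact h1.inter (h2.inter (h3.inter (h4.inter (h5.inter (h6.inter (h7.inter h8))))))

theorem H2_closed : IsClosed H2 := by
  have h1 : IsClosed {q : ℝ × ℝ | 0 ≤ q.1} := isClosed_le continuous_const (by fun_prop)
  have h2 : IsClosed {q : ℝ × ℝ | 0 ≤ q.2} := isClosed_le continuous_const (by fun_prop)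
  have h3 : IsClosed {q : ℝ × ℝ | q.1 + q.2 ≤ 1 / 2} :=
    isClosed_le (by fun_prop) continuous_const
  exact h1.inter (h2.inter h3)

theorem Mo_subset_Dl : Mo ⊆ Dl := fun _ hx => ⟨hx.1, hx.2.1, hx.2.2.1, hx.2.2.2.1⟩

/-- The sum of the lengths of the sections of the tetrahedron and of the octahedron by a line
parallel to the first coordinate axis is at most `1`. -/
theorem slice_le (q : ℝ × ℝ) :
    volume ((fun b : ℝ => (b, q)) ⁻¹' Dl) + volume ((fun b : ℝ => (b, q)) ⁻¹' Mo) ≤ 1 := by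
  by_cases hq : 0 ≤ q.1 ∧ 0 ≤ q.2
  · have hD : (fun b : ℝ => (b, q)) ⁻¹' Dl ⊆ Icc 0 (1 - q.1 - q.2) := by
      intro b hb
      have hb' : 0 ≤ b ∧ 0 ≤ q.1 ∧ 0 ≤ q.2 ∧ b + q.1 + q.2 ≤ 1 := hb
      exact ⟨hb'.1, by linarith [hb'.2.2.2]⟩
    have hM1 : (fun b : ℝ => (b, q)) ⁻¹' Mo ⊆ Icc (1 / 2 - q.1 - q.2) (1 / 2) := by
      intro b hb
      have hb' : 0 ≤ b ∧ 0 ≤ q.1 ∧ 0 ≤ q.2 ∧ b + q.1 + q.2 ≤ 1 ∧ b ≤ 1 / 2 ∧ q.1 ≤ 1 / 2
        ∧ q.2 ≤ 1 / 2 ∧ 1 / 2 ≤ b + q.1 + q.2 := hb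
      exact ⟨by linarith [hb'.2.2.2.2.2.2.2], hb'.2.2.2.2.1⟩
    have hM2 : (fun b : ℝ => (b, q)) ⁻¹' Mo ⊆ Icc 0 (1 - q.1 - q.2) :=
      fun b hb => hD (Mo_subset_Dl hb)
    have vD := measure_mono (μ := volume) hD
    have vM1 := measure_mono (μ := volume) hM1
    have vM2 := measure_mono (μ := volume) hM2
    rw [Real.volume_Icc] at vD vM1 vM2
    rcases le_total (q.1 + q.2) (1 / 2) with h | h
    · calc volume ((fun b : ℝ => (b, q)) ⁻¹' Dl) + volume ((fun b : ℝ => (b, q)) ⁻¹' Mo)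
          ≤ ENNReal.ofReal (1 - q.1 - q.2 - 0) + ENNReal.ofReal (1 / 2 - (1 / 2 - q.1 - q.2)) :=
            add_le_add vD vM1
        _ = ENNReal.ofReal ((1 - q.1 - q.2 - 0) + (1 / 2 - (1 / 2 - q.1 - q.2))) :=
            (ENNReal.ofReal_add (by linarith) (by linarith [hq.1, hq.2])).symm
        _ = 1 := by
            rw [show (1 - q.1 - q.2 - 0) + (1 / 2 - (1 / 2 - q.1 - q.2)) = (1 : ℝ) by ring]
            exact ENNReal.ofReal_one
    · calc volume ((fun b : ℝ => (b, q)) ⁻¹' Dl) + volume ((fun b : ℝ => (b, q)) ⁻¹' Mo)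
          ≤ ENNReal.ofReal (1 - q.1 - q.2 - 0) + ENNReal.ofReal (1 - q.1 - q.2 - 0) :=
            add_le_add vD vM2
        _ ≤ ENNReal.ofReal (1 / 2) + ENNReal.ofReal (1 / 2) :=
            add_le_add (ENNReal.ofReal_le_ofReal (by linarith))
              (ENNReal.ofReal_le_ofReal (by linarith))
        _ = ENNReal.ofReal (1 / 2 + 1 / 2) :=
            (ENNReal.ofReal_add (by norm_num) (by norm_num)).symm
        _ = 1 := by
            rw [show (1 / 2 + 1 / 2 : ℝ) = 1 by norm_num]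
            exact ENNReal.ofReal_one
  · have hD : (fun b : ℝ => (b, q)) ⁻¹' Dl = ∅ := by
      ext b
      simp only [mem_preimage, mem_empty_iff_false, iff_false]
      intro hb
      exact hq ⟨hb.2.1, hb.2.2.1⟩
    have hM : (fun b : ℝ => (b, q)) ⁻¹' Mo = ∅ := by
      ext b
      simp only [mem_preimage, mem_empty_iff_false, iff_false]
      intro hb
      exact hq ⟨hb.2.1, hb.2.2.1⟩
    rw [hD, hM, measure_empty, add_zero]
    exact zero_le_one

/-- For lines over the small triangle the two sections have total length exactly `1`. -/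
theorem slice_ge {q : ℝ × ℝ} (hq : q ∈ H2) :
    1 ≤ volume ((fun b : ℝ => (b, q)) ⁻¹' Dl) + volume ((fun b : ℝ => (b, q)) ⁻¹' Mo) := by
  obtain ⟨h1, h2, h3⟩ := hq
  have hD : Icc 0 (1 - q.1 - q.2) ⊆ (fun b : ℝ => (b, q)) ⁻¹' Dl := by
    intro b hb
    exact ⟨hb.1, h1, h2, by linarith [hb.2]⟩
  have hM : Icc (1 / 2 - q.1 - q.2) (1 / 2) ⊆ (fun b : ℝ => (b, q)) ⁻¹' Mo := by
    intro b hb
    have hb1 := hb.1
    have hb2 := hb.2
    refine ⟨by linarith, h1, h2, ?_, hb2, by linarith, by linarith, ?_⟩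
    · show b + q.1 + q.2 ≤ 1
      linarith
    · show 1 / 2 ≤ b + q.1 + q.2
      linarith
  have vD := measure_mono (μ := volume) hD
  have vM := measure_mono (μ := volume) hM
  rw [Real.volume_Icc] at vD vM
  calc (1 : ENNReal) = ENNReal.ofReal ((1 - q.1 - q.2 - 0) + (1 / 2 - (1 / 2 - q.1 - q.2))) := by
        rw [show (1 - q.1 - q.2 - 0) + (1 / 2 - (1 / 2 - q.1 - q.2)) = (1 : ℝ) by ring]
        exact ENNReal.ofReal_one.symm
    _ = ENNReal.ofReal (1 - q.1 - q.2 - 0) + ENNReal.ofReal (1 / 2 - (1 / 2 - q.1 - q.2)) :=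
        ENNReal.ofReal_add (by linarith) (by linarith)
    _ ≤ _ := add_le_add vD vM

/-- The measure `ν`: Lebesgue measure on the tetrahedron plus Lebesgue measure on the
octahedron. -/
noncomputable def nu : Measure (ℝ × ℝ × ℝ) := volume.restrict Dl + volume.restrict Mo

theorem nu_apply {U : Set (ℝ × ℝ × ℝ)} (hU : MeasurableSet U) :
    nu U = volume (U ∩ Dl) + volume (U ∩ Mo) := by
  rw [nu, Measure.add_apply, Measure.restrict_apply hU, Measure.restrict_apply hU]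

/-- A cylinder parallel to the first coordinate axis has `ν`-measure at most the area of its
base. -/
theorem cyl_le {S : Set (ℝ × ℝ)} (hS : MeasurableSet S) :
    nu (Prod.snd ⁻¹' S) ≤ volume S := by
  have hU : MeasurableSet (Prod.snd ⁻¹' S : Set (ℝ × ℝ × ℝ)) := measurable_snd hS
  have hmD : MeasurableSet (Prod.snd ⁻¹' S ∩ Dl : Set (ℝ × ℝ × ℝ)) :=
    hU.inter Dl_closed.measurableSet
  have hmM : MeasurableSet (Prod.snd ⁻¹' S ∩ Mo : Set (ℝ × ℝ × ℝ)) :=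
    hU.inter Mo_closed.measurableSet
  have e1 : volume (Prod.snd ⁻¹' S ∩ Dl : Set (ℝ × ℝ × ℝ))
      = ∫⁻ q : ℝ × ℝ, volume ((fun b : ℝ => (b, q)) ⁻¹' (Prod.snd ⁻¹' S ∩ Dl)) :=
    Measure.prod_apply_symm hmD
  have e2 : volume (Prod.snd ⁻¹' S ∩ Mo : Set (ℝ × ℝ × ℝ))
      = ∫⁻ q : ℝ × ℝ, volume ((fun b : ℝ => (b, q)) ⁻¹' (Prod.snd ⁻¹' S ∩ Mo)) :=
    Measure.prod_apply_symm hmM
  rw [nu_apply hU, e1, e2, ← lintegral_add_left (measurable_measure_prodMk_right hmD)]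
  calc ∫⁻ q : ℝ × ℝ, (volume ((fun b : ℝ => (b, q)) ⁻¹' (Prod.snd ⁻¹' S ∩ Dl))
          + volume ((fun b : ℝ => (b, q)) ⁻¹' (Prod.snd ⁻¹' S ∩ Mo)))
      ≤ ∫⁻ q : ℝ × ℝ, S.indicator 1 q := by
        refine lintegral_mono (fun q => ?_)
        by_cases hq : q ∈ S
        · have a1 : (fun b : ℝ => (b, q)) ⁻¹' (Prod.snd ⁻¹' S ∩ Dl)
              = (fun b : ℝ => (b, q)) ⁻¹' Dl := by
            ext b
            simp [hq]
          have a2 : (fun b : ℝ => (b, q)) ⁻¹' (Prod.snd ⁻¹' S ∩ Mo)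
              = (fun b : ℝ => (b, q)) ⁻¹' Mo := by
            ext b
            simp [hq]
          rw [a1, a2, indicator_of_mem hq]
          exact slice_le q
        · have a1 : (fun b : ℝ => (b, q)) ⁻¹' (Prod.snd ⁻¹' S ∩ Dl) = ∅ := by
            ext b
            simp [hq]
          have a2 : (fun b : ℝ => (b, q)) ⁻¹' (Prod.snd ⁻¹' S ∩ Mo) = ∅ := by
            ext b
            simp [hq]
          rw [a1, a2, measure_empty, add_zero]
          exact zero_le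
    _ = volume S := lintegral_indicator_one hS

/-- The cylinder over the small triangle has `ν`-measure at least the area of the triangle. -/
theorem cyl_ge : volume H2 ≤ nu (Prod.snd ⁻¹' H2) := by
  have hS : MeasurableSet H2 := H2_closed.measurableSet
  have hU : MeasurableSet (Prod.snd ⁻¹' H2 : Set (ℝ × ℝ × ℝ)) := measurable_snd hS
  have hmD : MeasurableSet (Prod.snd ⁻¹' H2 ∩ Dl : Set (ℝ × ℝ × ℝ)) :=
    hU.inter Dl_closed.measurableSet
  have hmM : MeasurableSet (Prod.snd ⁻¹' H2 ∩ Mo : Set (ℝ × ℝ × ℝ)) :=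
    hU.inter Mo_closed.measurableSet
  have e1 : volume (Prod.snd ⁻¹' H2 ∩ Dl : Set (ℝ × ℝ × ℝ))
      = ∫⁻ q : ℝ × ℝ, volume ((fun b : ℝ => (b, q)) ⁻¹' (Prod.snd ⁻¹' H2 ∩ Dl)) :=
    Measure.prod_apply_symm hmD
  have e2 : volume (Prod.snd ⁻¹' H2 ∩ Mo : Set (ℝ × ℝ × ℝ))
      = ∫⁻ q : ℝ × ℝ, volume ((fun b : ℝ => (b, q)) ⁻¹' (Prod.snd ⁻¹' H2 ∩ Mo)) :=
    Measure.prod_apply_symm hmM
  rw [nu_apply hU, e1, e2, ← lintegral_add_left (measurable_measure_prodMk_right hmD)]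
  calc volume H2 = ∫⁻ q : ℝ × ℝ, H2.indicator 1 q := (lintegral_indicator_one hS).symm
    _ ≤ ∫⁻ q : ℝ × ℝ, (volume ((fun b : ℝ => (b, q)) ⁻¹' (Prod.snd ⁻¹' H2 ∩ Dl))
          + volume ((fun b : ℝ => (b, q)) ⁻¹' (Prod.snd ⁻¹' H2 ∩ Mo))) := by
        refine lintegral_mono (fun q => ?_)
        by_cases hq : q ∈ H2
        · have a1 : (fun b : ℝ => (b, q)) ⁻¹' (Prod.snd ⁻¹' H2 ∩ Dl)
              = (fun b : ℝ => (b, q)) ⁻¹' Dl := by
            ext b
            simp [hq]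
          have a2 : (fun b : ℝ => (b, q)) ⁻¹' (Prod.snd ⁻¹' H2 ∩ Mo)
              = (fun b : ℝ => (b, q)) ⁻¹' Mo := by
            ext b
            simp [hq]
          rw [a1, a2, indicator_of_mem hq]
          exact slice_ge hq
        · rw [indicator_of_notMem hq]
          exact zero_le

/-- A symmetry of the configuration: a measure preserving map of the space which preserves the
tetrahedron and the octahedron. -/
structure Inv (σ : ℝ × ℝ × ℝ → ℝ × ℝ × ℝ) : Prop where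
  mp : MeasurePreserving σ volume volume
  hD : σ ⁻¹' Dl = Dl
  hM : σ ⁻¹' Mo = Mo

theorem Inv.comp {σ τ : ℝ × ℝ × ℝ → ℝ × ℝ × ℝ} (h1 : Inv σ) (h2 : Inv τ) : Inv (σ ∘ τ) :=
  ⟨h1.mp.comp h2.mp, by rw [preimage_comp, h1.hD, h2.hD], by rw [preimage_comp, h1.hM, h2.hM]⟩

theorem Inv.id : Inv id := ⟨MeasurePreserving.id volume, rfl, rfl⟩

theorem Inv.nu_preimage {σ : ℝ × ℝ × ℝ → ℝ × ℝ × ℝ} (h : Inv σ) {U : Set (ℝ × ℝ × ℝ)}
    (hU : MeasurableSet U) : nu (σ ⁻¹' U) = nu U := by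
  rw [nu_apply (h.mp.measurable hU), nu_apply hU]
  have e1 : σ ⁻¹' U ∩ Dl = σ ⁻¹' (U ∩ Dl) := by rw [preimage_inter, h.hD]
  have e2 : σ ⁻¹' U ∩ Mo = σ ⁻¹' (U ∩ Mo) := by rw [preimage_inter, h.hM]
  rw [e1, e2, h.mp.measure_preimage (hU.inter Dl_closed.measurableSet).nullMeasurableSet,
    h.mp.measure_preimage (hU.inter Mo_closed.measurableSet).nullMeasurableSet]

/-- Exchange of the last two coordinates. -/
def P23 (x : ℝ × ℝ × ℝ) : ℝ × ℝ × ℝ := (x.1, x.2.2, x.2.1)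

/-- Cyclic shift of the coordinates. -/
def Cyc (x : ℝ × ℝ × ℝ) : ℝ × ℝ × ℝ := (x.2.1, x.2.2, x.1)

/-- Exchange of the first coordinate with the fourth barycentric coordinate. -/
def Sw (x : ℝ × ℝ × ℝ) : ℝ × ℝ × ℝ := (1 - x.1 - x.2.1 - x.2.2, x.2.1, x.2.2)

theorem inv_P23 : Inv P23 := by
  refine ⟨?_, ?_, ?_⟩
  · exact (MeasurePreserving.id (volume : Measure ℝ)).prod
      (Measure.measurePreserving_swap (μ := (volume : Measure ℝ)) (ν := (volume : Measure ℝ)))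
  · ext x
    simp only [mem_preimage, Dl, P23, mem_ofPred_eq]
    constructor
    · rintro ⟨h1, h2, h3, h4⟩
      exact ⟨h1, h3, h2, by linarith⟩
    · rintro ⟨h1, h2, h3, h4⟩
      exact ⟨h1, h3, h2, by linarith⟩
  · ext x
    simp only [mem_preimage, Mo, P23, mem_ofPred_eq]
    constructor
    · rintro ⟨h1, h2, h3, h4, h5, h6, h7, h8⟩
      exact ⟨h1, h3, h2, by linarith, h5, h7, h6, by linarith⟩
    · rintro ⟨h1, h2, h3, h4, h5, h6, h7, h8⟩
      exact ⟨h1, h3, h2, by linarith, h5, h7, h6, by linarith⟩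

theorem inv_Cyc : Inv Cyc := by
  refine ⟨?_, ?_, ?_⟩
  · exact (volume_preserving_prodAssoc (α₁ := ℝ) (β₁ := ℝ) (γ₁ := ℝ)).comp
      (Measure.measurePreserving_swap (μ := (volume : Measure ℝ))
        (ν := (volume : Measure (ℝ × ℝ))))
  · ext x
    simp only [mem_preimage, Dl, Cyc, mem_ofPred_eq]
    constructor
    · rintro ⟨h1, h2, h3, h4⟩
      exact ⟨h3, h1, h2, by linarith⟩
    · rintro ⟨h1, h2, h3, h4⟩
      exact ⟨h2, h3, h1, by linarith⟩
  · ext x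
    simp only [mem_preimage, Mo, Cyc, mem_ofPred_eq]
    constructor
    · rintro ⟨h1, h2, h3, h4, h5, h6, h7, h8⟩
      exact ⟨h3, h1, h2, by linarith, h7, h5, h6, by linarith⟩
    · rintro ⟨h1, h2, h3, h4, h5, h6, h7, h8⟩
      exact ⟨h2, h3, h1, by linarith, h6, h7, h5, by linarith⟩

theorem inv_Sw : Inv Sw := by
  refine ⟨?_, ?_, ?_⟩
  · have hK : MeasurePreserving (fun p : (ℝ × ℝ) × ℝ => (p.1, 1 - p.1.1 - p.1.2 - p.2))
        volume volume := by
      have hgm : Measurable (Function.uncurry fun (q : ℝ × ℝ) (b : ℝ) => 1 - q.1 - q.2 - b) := by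
        have hc : Continuous (Function.uncurry fun (q : ℝ × ℝ) (b : ℝ) => 1 - q.1 - q.2 - b) := by
          unfold Function.uncurry
          fun_prop
        exact hc.measurable
      exact (MeasurePreserving.id (volume : Measure (ℝ × ℝ))).skew_product hgm
        (Filter.Eventually.of_forall (fun q =>
          ((volume : Measure ℝ).measurePreserving_sub_left (1 - q.1 - q.2)).map_eq))
    have h1 := (Measure.measurePreserving_swap (μ := (volume : Measure (ℝ × ℝ)))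
      (ν := (volume : Measure ℝ))).comp (hK.comp
        (Measure.measurePreserving_swap (μ := (volume : Measure ℝ))
          (ν := (volume : Measure (ℝ × ℝ)))))
    have e : Sw = Prod.swap ∘ (fun p : (ℝ × ℝ) × ℝ => (p.1, 1 - p.1.1 - p.1.2 - p.2))
        ∘ Prod.swap := by
      funext x
      simp only [Sw, Function.comp_apply, Prod.swap, Prod.mk.injEq, and_true]
      ring
    rw [e]
    exact h1
  · ext x
    simp only [mem_preimage, Dl, Sw, mem_ofPred_eq]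
    constructor
    · rintro ⟨h1, h2, h3, h4⟩
      exact ⟨by linarith, h2, h3, by linarith⟩
    · rintro ⟨h1, h2, h3, h4⟩
      exact ⟨by linarith, h2, h3, by linarith⟩
  · ext x
    simp only [mem_preimage, Mo, Sw, mem_ofPred_eq]
    constructor
    · rintro ⟨h1, h2, h3, h4, h5, h6, h7, h8⟩
      exact ⟨by linarith, h2, h3, by linarith, by linarith, h6, h7, by linarith⟩
    · rintro ⟨h1, h2, h3, h4, h5, h6, h7, h8⟩
      exact ⟨by linarith, h2, h3, by linarith, by linarith, h6, h7, by linarith⟩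

/-- The map whose last two coordinates are the barycentric coordinates belonging to the two
ends of the edge `cd`... here: `(β, γ, δ) ↦ (δ, β, 1 - β - γ - δ)`. -/
def sCD : ℝ × ℝ × ℝ → ℝ × ℝ × ℝ := Cyc ∘ Sw ∘ Cyc

theorem inv_sCD : Inv sCD := inv_Cyc.comp (inv_Sw.comp inv_Cyc)

theorem sCD_snd (x : ℝ × ℝ × ℝ) : (sCD x).2 = (x.1, 1 - x.1 - x.2.1 - x.2.2) := by
  simp only [sCD, Cyc, Sw, Function.comp_apply, Prod.mk.injEq, true_and]
  ring

theorem vol_T2 : volume T2 = 4 * volume H2 := by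
  have e : T2 = (2 : ℝ) • H2 := by
    ext q
    rw [mem_smul_set]
    constructor
    · rintro ⟨h1, h2, h3⟩
      refine ⟨(q.1 / 2, q.2 / 2), ⟨by positivity, by positivity, ?_⟩, ?_⟩
      · show q.1 / 2 + q.2 / 2 ≤ 1 / 2
        linarith
      · ext
        · simp
          ring
        · simp
          ring
    · rintro ⟨y, ⟨h1, h2, h3⟩, rfl⟩
      refine ⟨?_, ?_, ?_⟩
      · show 0 ≤ 2 * y.1
        linarith
      · show 0 ≤ 2 * y.2
        linarith
      · show 2 * y.1 + 2 * y.2 ≤ 1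
        linarith
  rw [e, Measure.addHaar_smul]
  have hf : Module.finrank ℝ (ℝ × ℝ) = 2 := by simp
  rw [hf]
  norm_num

theorem vol_line : volume {x : ℝ × ℝ × ℝ | x.2.1 + x.2.2 = 1 / 2} = 0 := by
  have hN2 : volume {q : ℝ × ℝ | q.1 + q.2 = 1 / 2} = 0 := by
    have hm : MeasurableSet {q : ℝ × ℝ | q.1 + q.2 = 1 / 2} :=
      (isClosed_eq (by fun_prop) continuous_const).measurableSet
    have h1 : volume {q : ℝ × ℝ | q.1 + q.2 = 1 / 2}
        = ∫⁻ a : ℝ, volume (Prod.mk a ⁻¹' {q : ℝ × ℝ | q.1 + q.2 = 1 / 2}) :=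
      Measure.prod_apply hm
    rw [h1]
    have h2 : ∀ a : ℝ, volume (Prod.mk a ⁻¹' {q : ℝ × ℝ | q.1 + q.2 = 1 / 2}) = 0 := by
      intro a
      have e : Prod.mk a ⁻¹' {q : ℝ × ℝ | q.1 + q.2 = 1 / 2} = {1 / 2 - a} := by
        ext b
        simp only [mem_preimage, mem_ofPred_eq, mem_singleton_iff]
        constructor
        · intro h
          linarith
        · intro h
          linarith
      rw [e]
      exact Real.volume_singleton
    rw [lintegral_congr h2, lintegral_zero]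
  have e : {x : ℝ × ℝ × ℝ | x.2.1 + x.2.2 = 1 / 2}
      = (univ : Set ℝ) ×ˢ {q : ℝ × ℝ | q.1 + q.2 = 1 / 2} := by
    ext x
    simp
  rw [e]
  have h3 : volume ((univ : Set ℝ) ×ˢ {q : ℝ × ℝ | q.1 + q.2 = 1 / 2})
      = volume (univ : Set ℝ) * volume {q : ℝ × ℝ | q.1 + q.2 = 1 / 2} :=
    Measure.prod_prod _ _
  rw [h3, hN2, mul_zero]

/-- The core inequality: if the tetrahedron is covered by cylinders, each of which becomes
parallel to the first coordinate axis after a symmetry of the configuration, then the total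
area of the bases is at least half the area of the triangle `T2`. -/
theorem core {ι : Type*} [Fintype ι] (σ : ι → ℝ × ℝ × ℝ → ℝ × ℝ × ℝ) (hσ : ∀ i, Inv (σ i))
    (S : ι → Set (ℝ × ℝ)) (hcov : ∀ x ∈ Dl, ∃ i, (σ i x).2 ∈ S i) :
    volume T2 ≤ 2 * ∑ i, volume (S i) := by
  have hDm : MeasurableSet Dl := Dl_closed.measurableSet
  have hMm : MeasurableSet Mo := Mo_closed.measurableSet
  have hHm : MeasurableSet H2 := H2_closed.measurableSet
  -- total mass from below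
  have hA : MeasurableSet (Prod.snd ⁻¹' H2 : Set (ℝ × ℝ × ℝ)) := measurable_snd hHm
  have hB : MeasurableSet (sCD ⁻¹' (Prod.snd ⁻¹' H2) : Set (ℝ × ℝ × ℝ)) :=
    inv_sCD.mp.measurable hA
  have hAB : nu (Prod.snd ⁻¹' H2 ∩ sCD ⁻¹' (Prod.snd ⁻¹' H2)) = 0 := by
    have hsub : Prod.snd ⁻¹' H2 ∩ sCD ⁻¹' (Prod.snd ⁻¹' H2)
        ⊆ {x : ℝ × ℝ × ℝ | x.2.1 + x.2.2 = 1 / 2} := by
      rintro x ⟨⟨h1, h2, h3⟩, hx2⟩
      have hx3 : (sCD x).2 ∈ H2 := hx2
      rw [sCD_snd] at hx3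
      obtain ⟨h4, h5, h6⟩ := hx3
      show x.2.1 + x.2.2 = 1 / 2
      have h6' : x.1 + (1 - x.1 - x.2.1 - x.2.2) ≤ 1 / 2 := h6
      linarith
    have hNm : MeasurableSet {x : ℝ × ℝ × ℝ | x.2.1 + x.2.2 = 1 / 2} :=
      (isClosed_eq (by fun_prop) continuous_const).measurableSet
    have h0 : nu {x : ℝ × ℝ × ℝ | x.2.1 + x.2.2 = 1 / 2} = 0 := by
      rw [nu_apply hNm]
      have a1 := measure_mono (μ := volume)
        (inter_subset_left : {x : ℝ × ℝ × ℝ | x.2.1 + x.2.2 = 1 / 2} ∩ Dl ⊆ _)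
      have a2 := measure_mono (μ := volume)
        (inter_subset_left : {x : ℝ × ℝ × ℝ | x.2.1 + x.2.2 = 1 / 2} ∩ Mo ⊆ _)
      rw [vol_line] at a1 a2
      rw [le_zero_iff.mp a1, le_zero_iff.mp a2, add_zero]
    exact le_zero_iff.mp ((measure_mono hsub).trans h0.le)
  have hmass : 2 * volume H2 ≤ nu univ := by
    have h1 := measure_union_add_inter (μ := nu) (Prod.snd ⁻¹' H2 : Set (ℝ × ℝ × ℝ)) hB
    rw [hAB, add_zero, inv_sCD.nu_preimage hA] at h1
    calc 2 * volume H2 = volume H2 + volume H2 := two_mul _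
      _ ≤ nu (Prod.snd ⁻¹' H2) + nu (Prod.snd ⁻¹' H2) := add_le_add cyl_ge cyl_ge
      _ = nu (Prod.snd ⁻¹' H2 ∪ sCD ⁻¹' (Prod.snd ⁻¹' H2)) := h1.symm
      _ ≤ nu univ := measure_mono (subset_univ _)
  -- the covering
  have hUm : ∀ i, MeasurableSet (σ i ⁻¹' (Prod.snd ⁻¹' toMeasurable volume (S i))) :=
    fun i => (hσ i).mp.measurable (measurable_snd (measurableSet_toMeasurable _ _))
  have hcovU : Dl ⊆ ⋃ i, σ i ⁻¹' (Prod.snd ⁻¹' toMeasurable volume (S i)) := by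
    intro x hx
    obtain ⟨i, hi⟩ := hcov x hx
    exact mem_iUnion.mpr ⟨i, subset_toMeasurable _ _ hi⟩
  have hunivD : nu univ = nu Dl := by
    rw [nu_apply MeasurableSet.univ, nu_apply hDm, univ_inter, univ_inter, inter_self,
      inter_eq_right.mpr Mo_subset_Dl]
  have hsum : nu univ ≤ ∑ i, volume (S i) := by
    calc nu univ = nu Dl := hunivD
      _ ≤ nu (⋃ i, σ i ⁻¹' (Prod.snd ⁻¹' toMeasurable volume (S i))) := measure_mono hcovU
      _ ≤ ∑ i, nu (σ i ⁻¹' (Prod.snd ⁻¹' toMeasurable volume (S i))) :=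
          measure_iUnion_fintype_le _ _
      _ ≤ ∑ i, volume (S i) := by
          refine Finset.sum_le_sum (fun i _ => ?_)
          rw [(hσ i).nu_preimage (measurable_snd (measurableSet_toMeasurable _ _))]
          exact (cyl_le (measurableSet_toMeasurable _ _)).trans (measure_toMeasurable _).le
  calc volume T2 = 4 * volume H2 := vol_T2
    _ = 2 * (2 * volume H2) := by
        rw [← mul_assoc]
        norm_num
    _ ≤ 2 * ∑ i, volume (S i) := by gcongr; exact hmass.trans hsum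

end Vale.Agent.Lib.TetraMeasure
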