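import Mathlib
import Vale.Agent.Lib.TetraMeasure
import Vale.Agent.Lib.BangEuclid

namespace Vale.Agent.Lib.TetraEuclid

open Set MeasureTheory Vale.Agent.Lib.TetraMeasure

/-- Affine maps of the coordinate space. -/
def Aff (σ : ℝ × ℝ × ℝ → ℝ × ℝ × ℝ) : Prop :=
  ∃ (A : (ℝ × ℝ × ℝ) →ₗ[ℝ] (ℝ × ℝ × ℝ)) (t : ℝ × ℝ × ℝ), ∀ x, σ x = A x + t

theorem Aff.comp {σ τ : ℝ × ℝ × ℝ → ℝ × ℝ × ℝ} (h1 : Aff σ) (h2 : Aff τ) : Aff (σ ∘ τ) := by
  obtain ⟨A, a, hA⟩ := h1
  obtain ⟨B, b, hB⟩ := h2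
  refine ⟨A.comp B, A b + a, fun x => ?_⟩
  simp only [Function.comp_apply, hA, hB, map_add, LinearMap.comp_apply, add_assoc]

theorem aff_id : Aff id := ⟨LinearMap.id, 0, fun x => by simp⟩

theorem aff_P23 : Aff P23 :=
  ⟨{ toFun := P23
     map_add' := fun _ _ => rfl
     map_smul' := fun _ _ => rfl }, 0, fun _ => (add_zero _).symm⟩

theorem aff_Cyc : Aff Cyc :=
  ⟨{ toFun := Cyc
     map_add' := fun _ _ => rfl
     map_smul' := fun _ _ => rfl }, 0, fun _ => (add_zero _).symm⟩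

theorem aff_Sw : Aff Sw := by
  refine ⟨{ toFun := fun x => (-x.1 - x.2.1 - x.2.2, x.2.1, x.2.2)
            map_add' := fun x y => ?_
            map_smul' := fun c x => ?_ }, (1, 0, 0), fun x => ?_⟩
  · simp only [Prod.fst_add, Prod.snd_add, Prod.mk_add_mk, Prod.mk.injEq, and_true]
    ring
  · simp only [Prod.smul_fst, Prod.smul_snd, Prod.smul_mk, smul_eq_mul, RingHom.id_apply,
      Prod.mk.injEq, and_true]
    ring
  · simp only [Sw, LinearMap.coe_mk, AddHom.coe_mk, Prod.mk_add_mk, add_zero, Prod.mk.injEq,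
      and_true]
    ring

/-- The vertices of the coordinate tetrahedron. -/
def cv : Fin 4 → ℝ × ℝ × ℝ := ![(0, 0, 0), (1, 0, 0), (0, 1, 0), (0, 0, 1)]

/-- The symmetry of the configuration which turns the direction of the edge joining the
vertices `j` and `k` into the direction of the first coordinate axis. -/
def em (j k : Fin 4) : ℝ × ℝ × ℝ → ℝ × ℝ × ℝ :=
  if (j = 0 ∧ k = 1) ∨ (j = 1 ∧ k = 0) then id
  else if (j = 0 ∧ k = 2) ∨ (j = 2 ∧ k = 0) then P23 ∘ Cyc
  else if (j = 0 ∧ k = 3) ∨ (j = 3 ∧ k = 0) then Cyc ∘ Cyc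
  else if (j = 1 ∧ k = 2) ∨ (j = 2 ∧ k = 1) then P23 ∘ Cyc ∘ Sw
  else if (j = 1 ∧ k = 3) ∨ (j = 3 ∧ k = 1) then Cyc ∘ Cyc ∘ Sw
  else if (j = 2 ∧ k = 3) ∨ (j = 3 ∧ k = 2) then Cyc ∘ Sw ∘ Cyc
  else id

theorem em_inv (j k : Fin 4) : Inv (em j k) := by
  unfold em
  split_ifs
  · exact Inv.id
  · exact inv_P23.comp inv_Cyc
  · exact inv_Cyc.comp inv_Cyc
  · exact inv_P23.comp (inv_Cyc.comp inv_Sw)
  · exact inv_Cyc.comp (inv_Cyc.comp inv_Sw)
  · exact inv_Cyc.comp (inv_Sw.comp inv_Cyc)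
  · exact Inv.id

theorem em_aff (j k : Fin 4) : Aff (em j k) := by
  unfold em
  split_ifs
  · exact aff_id
  · exact aff_P23.comp aff_Cyc
  · exact aff_Cyc.comp aff_Cyc
  · exact aff_P23.comp (aff_Cyc.comp aff_Sw)
  · exact aff_Cyc.comp (aff_Cyc.comp aff_Sw)
  · exact aff_Cyc.comp (aff_Sw.comp aff_Cyc)
  · exact aff_id

theorem em_edge (j k : Fin 4) (x : ℝ × ℝ × ℝ) (t : ℝ) :
    (em j k (x + t • (cv j - cv k))).2 = (em j k x).2 := by
  fin_cases j <;> fin_cases k <;>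
    simp [em, cv, P23, Cyc, Sw] <;> ring

theorem snd_mem_T2 {x : ℝ × ℝ × ℝ} (hx : x ∈ Dl) : x.2 ∈ T2 :=
  ⟨hx.2.1, hx.2.2.1, by have := hx.1; have := hx.2.2.2; linarith⟩

theorem vol_T2_ne_top : volume T2 ≠ ⊤ := by
  have hsub : T2 ⊆ Icc (0 : ℝ) 1 ×ˢ Icc (0 : ℝ) 1 := by
    rintro q ⟨h1, h2, h3⟩
    exact ⟨⟨h1, by linarith⟩, ⟨h2, by linarith⟩⟩
  have h := measure_mono (μ := volume) hsub
  rw [Measure.volume_eq_prod, Measure.prod_prod, Real.volume_Icc] at h
  exact ne_top_of_le_ne_top (by simp) h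

theorem vol_T2_ne_zero : volume T2 ≠ 0 := by
  have hsub : Icc (0 : ℝ) (1 / 2) ×ˢ Icc (0 : ℝ) (1 / 2) ⊆ T2 := by
    rintro q ⟨⟨h1, h2⟩, ⟨h3, h4⟩⟩
    exact ⟨h1, h3, by linarith⟩
  have h := measure_mono (μ := volume) hsub
  have e : volume (Icc (0 : ℝ) (1 / 2) ×ˢ Icc (0 : ℝ) (1 / 2))
      = ENNReal.ofReal (1 / 2 - 0) * ENNReal.ofReal (1 / 2 - 0) := by
    rw [Measure.volume_eq_prod, Measure.prod_prod, Real.volume_Icc]
  intro h0
  rw [e, h0] at h
  have hpos : (0 : ENNReal) < ENNReal.ofReal (1 / 2 - 0) * ENNReal.ofReal (1 / 2 - 0) := by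
    apply ENNReal.mul_pos <;> simp
  exact absurd h (not_le.mpr hpos)

theorem Dl_convex : Convex ℝ Dl := by
  intro x hx y hy a b ha hb hab
  obtain ⟨h1, h2, h3, h4⟩ := hx
  obtain ⟨k1, k2, k3, k4⟩ := hy
  refine ⟨?_, ?_, ?_, ?_⟩
  · show 0 ≤ a * x.1 + b * y.1
    positivity
  · show 0 ≤ a * x.2.1 + b * y.2.1
    positivity
  · show 0 ≤ a * x.2.2 + b * y.2.2
    positivity
  · show a * x.1 + b * y.1 + (a * x.2.1 + b * y.2.1) + (a * x.2.2 + b * y.2.2) ≤ 1
    nlinarith [mul_le_mul_of_nonneg_left h4 ha, mul_le_mul_of_nonneg_left k4 hb]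

/-- An affine map of a Euclidean plane to the coordinate plane multiplies all areas by a
constant. -/
theorem scale {F : Type*} [NormedAddCommGroup F] [InnerProductSpace ℝ F] [FiniteDimensional ℝ F]
    [MeasurableSpace F] [BorelSpace F] (hF : Module.finrank ℝ F = 2) (L : F →ₗ[ℝ] ℝ × ℝ)
    (t : ℝ × ℝ) :
    ∃ c : ENNReal, c ≠ ⊤ ∧ ∀ X : Set F, volume ((fun z => L z + t) '' X) = c * volume X := by
  obtain ⟨g, hgb, hgv⟩ := Vale.Agent.Lib.BangEuclid.exists_coords hF
  let ge : F ≃ₗ[ℝ] ℝ × ℝ := LinearEquiv.ofBijective g hgb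
  let T : ℝ × ℝ →ₗ[ℝ] ℝ × ℝ := L.comp ge.symm.toLinearMap
  refine ⟨ENNReal.ofReal |LinearMap.det T|, ENNReal.ofReal_ne_top, fun X => ?_⟩
  have h1 : (fun z => L z + t) '' X = (fun y => y + t) '' (T '' (g '' X)) := by
    rw [image_image, image_image]
    refine image_congr (fun z _ => ?_)
    have h2 : ge.symm (g z) = z := ge.symm_apply_apply z
    simp only [T, LinearMap.comp_apply, LinearEquiv.coe_coe, h2]
  rw [h1, image_add_right, measure_preimage_add_right, Measure.addHaar_image_linearMap, hgv]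

/-- One cylinder parallel to an edge: a map of its base plane to the coordinate plane which
carries the cylinder to a cylinder of the coordinate model and which compares the areas. -/
theorem single {E : Type*} [NormedAddCommGroup E] [InnerProductSpace ℝ E]
    [FiniteDimensional ℝ E] [MeasurableSpace E] [BorelSpace E] (hE : Module.finrank ℝ E = 3)
    (v : Fin 4 → E) (Λ : E →ₗ[ℝ] ℝ × ℝ × ℝ) (hΛ : ∀ m, Λ (v m - v 0) = cv m)
    (hK : ∀ p ∈ convexHull ℝ (range v), Λ (p - v 0) ∈ Dl)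
    (u : E) (hu : ‖u‖ = 1) (j k : Fin 4) (r : ℝ) (hur : u = r • (v j - v k)) :
    ∃ ψ : (Submodule.span ℝ {u})ᗮ → ℝ × ℝ,
      (∀ p, ψ ((Submodule.span ℝ {u})ᗮ.orthogonalProjectionOnto p)
        = (em j k (Λ (p - v 0))).2) ∧
      ∀ B : Set (Submodule.span ℝ {u})ᗮ, volume (ψ '' B) / volume T2
        ≤ volume B / volume ((Submodule.span ℝ {u})ᗮ.orthogonalProjectionOnto ''
            convexHull ℝ (range v)) := by
  have hfact : Fact (Module.finrank ℝ E = 2 + 1) := ⟨hE⟩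
  have hu0 : u ≠ 0 := by
    intro h
    rw [h, norm_zero] at hu
    exact zero_ne_one hu
  have hF : Module.finrank ℝ (Submodule.span ℝ {u})ᗮ = 2 :=
    Submodule.finrank_orthogonal_span_singleton hu0
  obtain ⟨A, a, hA⟩ := em_aff j k
  let L : (Submodule.span ℝ {u})ᗮ →ₗ[ℝ] ℝ × ℝ :=
    (LinearMap.snd ℝ ℝ (ℝ × ℝ)).comp (A.comp (Λ.comp (Submodule.span ℝ {u})ᗮ.subtype))
  let t : ℝ × ℝ := (a - A (Λ (v 0))).2
  obtain ⟨c, hc, hscale⟩ := scale hF L t
  have hψ : ∀ z : (Submodule.span ℝ {u})ᗮ, L z + t = (em j k (Λ ((z : E) - v 0))).2 := by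
    intro z
    rw [hA, map_sub, map_sub]
    simp only [L, t, LinearMap.comp_apply, LinearMap.snd_apply, Submodule.subtype_apply,
      Prod.snd_add, Prod.snd_sub]
    abel
  have hproj : ∀ p : E, (em j k (Λ ((((Submodule.span ℝ {u})ᗮ.orthogonalProjectionOnto p :
      (Submodule.span ℝ {u})ᗮ) : E) - v 0))).2 = (em j k (Λ (p - v 0))).2 := by
    intro p
    have h1 : p - (Submodule.span ℝ {u})ᗮ.starProjection p ∈ (Submodule.span ℝ {u})ᗮᗮ :=
      Submodule.sub_starProjection_mem_orthogonal p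
    rw [Submodule.orthogonal_orthogonal, Submodule.mem_span_singleton] at h1
    obtain ⟨s, hs⟩ := h1
    have h3 : (((Submodule.span ℝ {u})ᗮ.orthogonalProjectionOnto p :
        (Submodule.span ℝ {u})ᗮ) : E) = p - s • u := by
      rw [hs]
      show _ = p - (p - (Submodule.span ℝ {u})ᗮ.starProjection p)
      rw [sub_sub_cancel]
      rfl
    have h2 : (((Submodule.span ℝ {u})ᗮ.orthogonalProjectionOnto p :
        (Submodule.span ℝ {u})ᗮ) : E) - v 0
        = (p - v 0) + (-(s * r)) • ((v j - v 0) - (v k - v 0)) := by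
      have h4 : v j - v 0 - (v k - v 0) = v j - v k := by abel
      rw [h3, hur, h4, neg_smul, mul_smul]
      abel
    rw [h2, map_add, map_smul, map_sub Λ (v j - v 0) (v k - v 0), hΛ, hΛ, em_edge]
  refine ⟨fun z => L z + t, fun p => ?_, fun B => ?_⟩
  · show L _ + t = _
    rw [hψ, hproj]
  · rw [hscale B]
    have hle : c * volume ((Submodule.span ℝ {u})ᗮ.orthogonalProjectionOnto ''
        convexHull ℝ (range v)) ≤ volume T2 := by
      rw [← hscale]
      refine measure_mono ?_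
      rintro _ ⟨_, ⟨p, hp, rfl⟩, rfl⟩
      show L _ + t ∈ T2
      rw [hψ, hproj]
      apply snd_mem_T2
      have h5 := hK p hp
      have h6 : Λ (p - v 0) ∈ em j k ⁻¹' Dl := by
        rw [(em_inv j k).hD]
        exact h5
      exact h6
    by_cases hc0 : c = 0
    · rw [hc0, zero_mul, ENNReal.zero_div]
      exact zero_le
    · calc c * volume B / volume T2
          ≤ c * volume B / (c * volume ((Submodule.span ℝ {u})ᗮ.orthogonalProjectionOnto ''
              convexHull ℝ (range v))) := ENNReal.div_le_div_left hle _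
        _ = volume B / volume ((Submodule.span ℝ {u})ᗮ.orthogonalProjectionOnto ''
              convexHull ℝ (range v)) := ENNReal.mul_div_mul_left _ _ hc0 hc

/-- Every finite covering of a tetrahedron by cylinders whose axes are parallel to edges of the
tetrahedron satisfies the relative form of Bang's inequality with the constant `1/2`. -/
theorem tetra_edges {E : Type*} [NormedAddCommGroup E] [InnerProductSpace ℝ E]
    [FiniteDimensional ℝ E] [MeasurableSpace E] [BorelSpace E] (hE : Module.finrank ℝ E = 3)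
    (v : Fin 4 → E) (hli : LinearIndependent ℝ ![v 1 - v 0, v 2 - v 0, v 3 - v 0])
    {ι : Type*} [Fintype ι] (u : ι → E) (hu : ∀ i, ‖u i‖ = 1)
    (hedge : ∀ i, ∃ j k : Fin 4, ∃ r : ℝ, u i = r • (v j - v k))
    (B : ∀ i, Set (Submodule.span ℝ {u i})ᗮ)
    (hcov : ∀ p ∈ convexHull ℝ (range v),
      ∃ i, (Submodule.span ℝ {u i})ᗮ.orthogonalProjectionOnto p ∈ B i) :
    1 ≤ 2 * ∑ i, volume (B i)
      / volume ((Submodule.span ℝ {u i})ᗮ.orthogonalProjectionOnto ''
          convexHull ℝ (range v)) := by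
  classical
  have hcard : Fintype.card (Fin 3) = Module.finrank ℝ E := by
    rw [hE]
    rfl
  let bs : Module.Basis (Fin 3) ℝ E := basisOfLinearIndependentOfCardEqFinrank hli hcard
  have hbs : (bs : Fin 3 → E) = ![v 1 - v 0, v 2 - v 0, v 3 - v 0] :=
    coe_basisOfLinearIndependentOfCardEqFinrank hli hcard
  let Λ : E →ₗ[ℝ] ℝ × ℝ × ℝ := (bs.coord 0).prod ((bs.coord 1).prod (bs.coord 2))
  have hΛb : ∀ m n : Fin 3, bs.coord n (bs m) = if m = n then 1 else 0 := by
    intro m n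
    rw [Module.Basis.coord_apply, Module.Basis.repr_self, Finsupp.single_apply]
  have hb0 : v 1 - v 0 = bs 0 := by
    rw [hbs]
    rfl
  have hb1 : v 2 - v 0 = bs 1 := by
    rw [hbs]
    rfl
  have hb2 : v 3 - v 0 = bs 2 := by
    rw [hbs]
    rfl
  have hΛ : ∀ m, Λ (v m - v 0) = cv m := by
    intro m
    fin_cases m
    · show Λ (v 0 - v 0) = cv 0
      rw [sub_self, map_zero]
      rfl
    · show Λ (v 1 - v 0) = cv 1
      rw [hb0]
      simp [Λ, hΛb, cv]
    · show Λ (v 2 - v 0) = cv 2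
      rw [hb1]
      simp [Λ, hΛb, cv]
    · show Λ (v 3 - v 0) = cv 3
      rw [hb2]
      simp [Λ, hΛb, cv]
  have hK : ∀ p ∈ convexHull ℝ (range v), Λ (p - v 0) ∈ Dl := by
    have hconv : Convex ℝ ((fun p => Λ (p - v 0)) ⁻¹' Dl) := by
      intro p hp q hq a b ha hb hab
      have e : Λ (a • p + b • q - v 0) = a • Λ (p - v 0) + b • Λ (q - v 0) := by
        rw [← map_smul, ← map_smul, ← map_add]
        congr 1
        have h0 : a • v 0 + b • v 0 = v 0 := by rw [← add_smul, hab, one_smul]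
        rw [smul_sub, smul_sub]
        nth_rewrite 1 [← h0]
        abel
      show Λ (a • p + b • q - v 0) ∈ Dl
      rw [e]
      exact Dl_convex hp hq ha hb hab
    have hsub : range v ⊆ (fun p => Λ (p - v 0)) ⁻¹' Dl := by
      rintro _ ⟨m, rfl⟩
      show Λ (v m - v 0) ∈ Dl
      rw [hΛ]
      fin_cases m <;> simp [cv, Dl]
    exact fun p hp => convexHull_min hsub hconv hp
  have hsurj : ∀ x ∈ Dl, ∃ p ∈ convexHull ℝ (range v), Λ (p - v 0) = x := by
    intro x hx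
    obtain ⟨h1, h2, h3, h4⟩ := hx
    let w : Fin 4 → ℝ := ![1 - x.1 - x.2.1 - x.2.2, x.1, x.2.1, x.2.2]
    refine ⟨∑ m, w m • v m, ?_, ?_⟩
    · refine (convex_convexHull ℝ (range v)).sum_mem ?_ ?_ ?_
      · intro m _
        fin_cases m
        · show 0 ≤ 1 - x.1 - x.2.1 - x.2.2
          linarith
        · exact h1
        · exact h2
        · exact h3
      · rw [Fin.sum_univ_four]
        show 1 - x.1 - x.2.1 - x.2.2 + x.1 + x.2.1 + x.2.2 = 1
        ring
      · intro m _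
        exact subset_convexHull ℝ _ (mem_range_self m)
    · have e : ∑ m, w m • v m - v 0
          = x.1 • (v 1 - v 0) + x.2.1 • (v 2 - v 0) + x.2.2 • (v 3 - v 0) := by
        rw [Fin.sum_univ_four]
        show (1 - x.1 - x.2.1 - x.2.2) • v 0 + x.1 • v 1 + x.2.1 • v 2 + x.2.2 • v 3 - v 0 = _
        simp only [sub_smul, smul_sub, one_smul]
        abel
      rw [e, map_add, map_add, map_smul, map_smul, map_smul, hΛ, hΛ, hΛ]
      simp [cv]
  choose j k r hr using hedge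
  choose ψ hψ1 hψ2 using fun i => single hE v Λ hΛ hK (u i) (hu i) (j i) (k i) (r i) (hr i)
  have hcore := core (fun i => em (j i) (k i)) (fun i => em_inv (j i) (k i))
    (fun i => ψ i '' B i) (by
      intro x hx
      obtain ⟨p, hp, rfl⟩ := hsurj x hx
      obtain ⟨i, hi⟩ := hcov p hp
      exact ⟨i, ⟨_, hi, hψ1 i p⟩⟩)
  calc (1 : ENNReal) = volume T2 / volume T2 :=
        (ENNReal.div_self vol_T2_ne_zero vol_T2_ne_top).symm
    _ ≤ (2 * ∑ i, volume (ψ i '' B i)) / volume T2 := ENNReal.div_le_div_right hcore _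
    _ = 2 * ∑ i, volume (ψ i '' B i) / volume T2 := by
        rw [div_eq_mul_inv, mul_assoc, Finset.sum_mul]
        simp only [div_eq_mul_inv]
    _ ≤ 2 * ∑ i, volume (B i)
          / volume ((Submodule.span ℝ {u i})ᗮ.orthogonalProjectionOnto ''
              convexHull ℝ (range v)) := by
        exact mul_le_mul' le_rfl (Finset.sum_le_sum (fun i _ => hψ2 i (B i)))

end Vale.Agent.Lib.TetraEuclid
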