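import Mathlib
import Vale.Agent.Lib.BangEuclidAny
import Vale.Agent.Lib.BallSection
import Vale.Agent.Lib.TetraEuclid

namespace Vale.Agent.Lib.BangCombined

open Set MeasureTheory

universe u

variable {E : Type*} [NormedAddCommGroup E] [InnerProductSpace ℝ E] [FiniteDimensional ℝ E]

/-- Four points whose convex hull has interior points in a three-dimensional space: the three
edge vectors issuing from the first point are linearly independent. -/
theorem li_of_interior (hE : Module.finrank ℝ E = 3) (v : Fin 4 → E)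
    (h : (interior (convexHull ℝ (range v))).Nonempty) :
    LinearIndependent ℝ ![v 1 - v 0, v 2 - v 0, v 3 - v 0] := by
  have h1 : affineSpan ℝ (range v) = ⊤ :=
    interior_convexHull_nonempty_iff_affineSpan_eq_top.mp h
  have h2 : AffineIndependent ℝ v := by
    rw [affineIndependent_iff_finrank_vectorSpan_eq ℝ v (n := 3) (by simp)]
    rw [← direction_affineSpan, h1, AffineSubspace.direction_top, finrank_top, hE]
  have h3 := (affineIndependent_iff_linearIndependent_vsub ℝ v 0).mp h2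
  have h4 := h3.comp (fun m : Fin 3 => (⟨m.succ, Fin.succ_ne_zero m⟩ : {x : Fin 4 // x ≠ 0}))
    (by
      intro a b hab
      exact Fin.succ_injective _ (Subtype.mk.inj hab))
  have e : (![v 1 - v 0, v 2 - v 0, v 3 - v 0] : Fin 3 → E)
      = (fun i : {x : Fin 4 // x ≠ 0} => v (i : Fin 4) -ᵥ v 0)
        ∘ fun m : Fin 3 => (⟨m.succ, Fin.succ_ne_zero m⟩ : {x : Fin 4 // x ≠ 0}) := by
    funext m
    fin_cases m <;> rfl
  rw [e]
  exact h4

theorem proj_ne_top [MeasurableSpace E] [BorelSpace E] {K : Set E} (hKc : IsCompact K) (u : E) :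
    volume ((Submodule.span ℝ {u})ᗮ.orthogonalProjectionOnto '' K) ≠ ⊤ :=
  (hKc.image (Submodule.span ℝ {u})ᗮ.orthogonalProjectionOnto.continuous).measure_lt_top.ne

theorem proj_ne_zero [MeasurableSpace E] [BorelSpace E] {K : Set E}
    (hKi : (interior K).Nonempty) (u : E) :
    volume ((Submodule.span ℝ {u})ᗮ.orthogonalProjectionOnto '' K) ≠ 0 := by
  have hsurj : Function.Surjective (Submodule.span ℝ {u})ᗮ.orthogonalProjectionOnto :=
    fun z => ⟨z, Submodule.orthogonalProjectionOnto_mem_subspace_eq_self z⟩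
  have hopen : IsOpen ((Submodule.span ℝ {u})ᗮ.orthogonalProjectionOnto '' interior K) :=
    (Submodule.span ℝ {u})ᗮ.orthogonalProjectionOnto.isOpenMap hsurj _ isOpen_interior
  have hpos := hopen.measure_pos volume (hKi.image _)
  exact (lt_of_lt_of_le hpos (measure_mono (image_mono interior_subset))).ne'

/-- A base in the plane orthogonal to `u` is a base in the plane orthogonal to `a` when
`u = a`. -/
theorem transport [MeasurableSpace E] [BorelSpace E] {u a : E} (h : u = a)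
    (B : Set (Submodule.span ℝ {u})ᗮ) :
    ∃ B' : Set (Submodule.span ℝ {a})ᗮ, volume B' = volume B ∧
      ∀ p, (Submodule.span ℝ {a})ᗮ.orthogonalProjectionOnto p ∈ B' ↔
        (Submodule.span ℝ {u})ᗮ.orthogonalProjectionOnto p ∈ B := by
  subst h
  exact ⟨B, rfl, fun p => Iff.rfl⟩

/-- The relative form for one family of cylinders whose axis directions take at most two
values. -/
theorem two_dir [MeasurableSpace E] [BorelSpace E] (hE : Module.finrank ℝ E = 3)
    (K : Set E) (hK : Convex ℝ K) (hKc : IsCompact K) (hKi : (interior K).Nonempty)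
    {ι : Type*} [Fintype ι] (u : ι → E) (a b : E) (ha : ‖a‖ = 1) (hb : ‖b‖ = 1)
    (hab : ∀ i, u i = a ∨ u i = b) (B : ∀ i, Set (Submodule.span ℝ {u i})ᗮ)
    (hcov : ∀ p ∈ K, ∃ i, (Submodule.span ℝ {u i})ᗮ.orthogonalProjectionOnto p ∈ B i) :
    1 ≤ 2 * ∑ i, volume (B i)
      / volume ((Submodule.span ℝ {u i})ᗮ.orthogonalProjectionOnto '' K) := by
  classical
  choose B₁ hB₁v hB₁p using fun i : {i // u i = a} => transport i.2 (B i)
  choose B₂ hB₂v hB₂p using
    fun i : {i // ¬ u i = a} => transport ((hab i).resolve_left i.2) (B i)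
  have h := (Vale.Agent.Lib.BangEuclidAny.euclid_two_any hE K hK hKc a b ha hb B₁ B₂ (by
    intro p hp
    obtain ⟨i, hi⟩ := hcov p hp
    by_cases hia : u i = a
    · exact Or.inl ⟨⟨i, hia⟩, (hB₁p ⟨i, hia⟩ p).mpr hi⟩
    · exact Or.inr ⟨⟨i, hia⟩, (hB₂p ⟨i, hia⟩ p).mpr hi⟩)).1
  have hP₁0 := proj_ne_zero hKi a
  have hP₁t := proj_ne_top hKc a
  have hP₂0 := proj_ne_zero hKi b
  have hP₂t := proj_ne_top hKc b
  have hsum : ∑ i, volume (B i)
        / volume ((Submodule.span ℝ {u i})ᗮ.orthogonalProjectionOnto '' K)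
      = (∑ i, volume (B₁ i)) / volume ((Submodule.span ℝ {a})ᗮ.orthogonalProjectionOnto '' K)
        + (∑ i, volume (B₂ i))
          / volume ((Submodule.span ℝ {b})ᗮ.orthogonalProjectionOnto '' K) := by
    rw [← Fintype.sum_subtype_add_sum_subtype (fun i => u i = a)]
    congr 1
    · rw [div_eq_mul_inv, Finset.sum_mul]
      refine Finset.sum_congr rfl (fun i _ => ?_)
      rw [hB₁v i, div_eq_mul_inv]
      exact congrArg (fun x => volume (B (i : ι))
        * (volume ((Submodule.span ℝ {x})ᗮ.orthogonalProjectionOnto '' K))⁻¹) i.2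
    · rw [div_eq_mul_inv, Finset.sum_mul]
      refine Finset.sum_congr rfl (fun i _ => ?_)
      rw [hB₂v i, div_eq_mul_inv]
      exact congrArg (fun x => volume (B (i : ι))
        * (volume ((Submodule.span ℝ {x})ᗮ.orthogonalProjectionOnto '' K))⁻¹)
        ((hab i).resolve_left i.2)
  rw [hsum]
  have h5 := ENNReal.div_le_div_right h
    (volume ((Submodule.span ℝ {a})ᗮ.orthogonalProjectionOnto '' K)
      * volume ((Submodule.span ℝ {b})ᗮ.orthogonalProjectionOnto '' K))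
  rw [ENNReal.div_self (mul_ne_zero hP₁0 hP₂0) (ENNReal.mul_ne_top hP₁t hP₂t), mul_div_assoc,
    ENNReal.add_div, ENNReal.mul_div_mul_right _ _ hP₂0 hP₂t,
    mul_comm (volume ((Submodule.span ℝ {a})ᗮ.orthogonalProjectionOnto '' K))
      (volume ((Submodule.span ℝ {b})ᗮ.orthogonalProjectionOnto '' K)),
    ENNReal.mul_div_mul_right _ _ hP₁0 hP₁t] at h5
  exact h5

/-- The relative form when the axis directions take at most two values (no condition on the
two values). -/
theorem two_dir_any [MeasurableSpace E] [BorelSpace E] (hE : Module.finrank ℝ E = 3)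
    (K : Set E) (hK : Convex ℝ K) (hKc : IsCompact K) (hKi : (interior K).Nonempty)
    {ι : Type*} [Fintype ι] (u : ι → E) (hu : ∀ i, ‖u i‖ = 1) (a b : E)
    (hab : ∀ i, u i = a ∨ u i = b) (B : ∀ i, Set (Submodule.span ℝ {u i})ᗮ)
    (hcov : ∀ p ∈ K, ∃ i, (Submodule.span ℝ {u i})ᗮ.orthogonalProjectionOnto p ∈ B i) :
    1 ≤ 2 * ∑ i, volume (B i)
      / volume ((Submodule.span ℝ {u i})ᗮ.orthogonalProjectionOnto '' K) := by
  obtain ⟨p₀, hp₀⟩ := hKi
  obtain ⟨i₀, _⟩ := hcov p₀ (interior_subset hp₀)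
  by_cases h1 : ∃ i, u i = a
  · obtain ⟨i₁, hi₁⟩ := h1
    have ha : ‖a‖ = 1 := hi₁ ▸ hu i₁
    by_cases h2 : ∃ i, u i = b
    · obtain ⟨i₂, hi₂⟩ := h2
      exact two_dir hE K hK hKc ⟨p₀, hp₀⟩ u a b ha (hi₂ ▸ hu i₂) hab B hcov
    · exact two_dir hE K hK hKc ⟨p₀, hp₀⟩ u a a ha ha
        (fun i => Or.inl ((hab i).resolve_right (fun h => h2 ⟨i, h⟩))) B hcov
  · have hb : ∀ i, u i = b := fun i => (hab i).resolve_left (fun h => h1 ⟨i, h⟩)
    have hbn : ‖b‖ = 1 := hb i₀ ▸ hu i₀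
    exact two_dir hE K hK hKc ⟨p₀, hp₀⟩ u b b hbn hbn (fun i => Or.inl (hb i)) B hcov

/-- The relative form for axes parallel to a plane when the section of the body at middle
height is centrally symmetric. -/
theorem mid [MeasurableSpace E] [BorelSpace E] (hE : Module.finrank ℝ E = 3) (K : Set E)
    (hK : Convex ℝ K) (hKc : IsCompact K) (hKi : (interior K).Nonempty) (n : E) (hn : ‖n‖ = 1)
    (o p₁ p₂ : E) (hp₁ : p₁ ∈ K) (hp₂ : p₂ ∈ K)
    (hext : ∀ p ∈ K, inner ℝ p₁ n ≤ inner ℝ p n ∧ inner ℝ p n ≤ inner ℝ p₂ n)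
    (hmid : 2 * inner ℝ o n = inner ℝ p₁ n + inner ℝ p₂ n)
    (hsym : ∀ p ∈ K, inner ℝ p n = inner ℝ o n → o + o - p ∈ K)
    {ι : Type u} [Fintype ι] (u : ι → E) (hu : ∀ i, ‖u i‖ = 1)
    (hun : ∀ i, inner ℝ (u i) n = 0) (B : ∀ i, Set (Submodule.span ℝ {u i})ᗮ)
    (hcov : ∀ p ∈ K, ∃ i, (Submodule.span ℝ {u i})ᗮ.orthogonalProjectionOnto p ∈ B i) :
    1 ≤ 2 * ∑ i, volume (B i)
      / volume ((Submodule.span ℝ {u i})ᗮ.orthogonalProjectionOnto '' K) := by
  refine Vale.Agent.Lib.BallSection.euclid_mid hE K hK hKc hKi n hn ?_ u hu hun B hcov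
  intro a b hT
  have h1 : inner ℝ p₁ n ∈ Set.Icc a b := by
    rw [← hT]
    exact ⟨p₁, hp₁, rfl⟩
  have h2 : inner ℝ p₂ n ∈ Set.Icc a b := by
    rw [← hT]
    exact ⟨p₂, hp₂, rfl⟩
  have hab : a ≤ b := h1.1.trans h1.2
  have ha : a ∈ (fun p : E => inner ℝ p n) '' K := by
    rw [hT]
    exact ⟨le_refl a, hab⟩
  have hb : b ∈ (fun p : E => inner ℝ p n) '' K := by
    rw [hT]
    exact ⟨hab, le_refl b⟩
  obtain ⟨q₁, hq₁, hq₁a⟩ := ha
  obtain ⟨q₂, hq₂, hq₂b⟩ := hb
  have e1 : a = inner ℝ p₁ n := by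
    have h3 := (hext q₁ hq₁).1
    have h4 : inner ℝ q₁ n = a := hq₁a
    linarith [h1.1]
  have e2 : b = inner ℝ p₂ n := by
    have h3 := (hext q₂ hq₂).2
    have h4 : inner ℝ q₂ n = b := hq₂b
    linarith [h2.2]
  have hmid' : (a + b) / 2 = inner ℝ o n := by
    rw [e1, e2]
    linarith
  refine ⟨o, fun p hp => ⟨hsym p hp.1 (by rw [hp.2, hmid']), ?_⟩⟩
  rw [inner_sub_left, inner_add_left, hp.2, ← hmid']
  ring

/-- The relative form for a tetrahedron with interior points and axes parallel to its edges. -/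
theorem tetra [MeasurableSpace E] [BorelSpace E] (hE : Module.finrank ℝ E = 3) (K : Set E)
    (hKi : (interior K).Nonempty) (v : Fin 4 → E) (hKv : K = convexHull ℝ (range v))
    {ι : Type*} [Fintype ι] (u : ι → E) (hu : ∀ i, ‖u i‖ = 1)
    (hedge : ∀ i, ∃ j k : Fin 4, ∃ r : ℝ, u i = r • (v j - v k))
    (B : ∀ i, Set (Submodule.span ℝ {u i})ᗮ)
    (hcov : ∀ p ∈ K, ∃ i, (Submodule.span ℝ {u i})ᗮ.orthogonalProjectionOnto p ∈ B i) :
    1 ≤ 2 * ∑ i, volume (B i)
      / volume ((Submodule.span ℝ {u i})ᗮ.orthogonalProjectionOnto '' K) := by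
  subst hKv
  exact Vale.Agent.Lib.TetraEuclid.tetra_edges hE v (li_of_interior hE v hKi) u hu hedge B hcov

end Vale.Agent.Lib.BangCombined
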