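import Mathlib

/-!
# Kemperman's theorem (unique-representation form)

If `A`, `B` are finite subsets of a group and some element of `A * B` has exactly one
representation `a * b`, then `|A| + |B| ≤ |A * B| + 1`.
-/

open Finset MulOpposite
open scoped Pointwise

namespace Vale.Agent.Lib.Kemperman

variable {G : Type*} [Group G] [DecidableEq G]

/-- Auxiliary form: induction on `(|A*B|, 2|A*B| - (|A|+|B|), |A|)` in lexicographic order.
The hypothesis says that `x` is the only `y ∈ A` with `y⁻¹ ∈ B`, i.e. `1 = y * y⁻¹` has the single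
representation `x * x⁻¹` in `A * B`. -/
theorem aux : ∀ (n k a : ℕ) (A B : Finset G) (x : G),
    #(A * B) = n → 2 * n - (#A + #B) = k → #A = a →
    (∀ y, (y ∈ A ∧ y⁻¹ ∈ B) ↔ y = x) → #A + #B ≤ #(A * B) + 1 := by
  intro n
  induction n using Nat.strong_induction_on with
  | _ n ihn =>
  intro k
  induction k using Nat.strong_induction_on with
  | _ k ihk =>
  intro a
  induction a using Nat.strong_induction_on with
  | _ a iha =>
  intro A B x hn hk ha hx
  have hxA : x ∈ A := ((hx x).2 rfl).1
  have hxB : x⁻¹ ∈ B := ((hx x).2 rfl).2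
  by_cases hg : ∃ g : G, g ≠ 1 ∧ x * g ∈ A ∧ g * x⁻¹ ∈ B
  · obtain ⟨g, hg1, hgA, hgB⟩ := hg
    have hLsub := mulETransformLeft.fst_mul_snd_subset g (A, B)
    have hRsub := mulETransformRight.fst_mul_snd_subset g (A, B)
    have hcard := MulETransform.card g (A, B)
    simp only [mulETransformLeft, mulETransformRight] at hLsub hRsub hcard
    have memop : ∀ y : G, y ∈ op g • A ↔ y * g⁻¹ ∈ A := by
      intro y
      rw [mem_smul_finset]
      constructor
      · rintro ⟨z, hz, rfl⟩
        simpa using hz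
      · intro h
        exact ⟨y * g⁻¹, h, by simp⟩
    have meminv : ∀ y : G, y ∈ g⁻¹ • B ↔ g * y ∈ B := by
      intro y
      rw [mem_inv_smul_finset_iff]
      rfl
    -- the left transform keeps a unique representation, now at `x * g`
    have hLx : ∀ y, (y ∈ A ∩ op g • A ∧ y⁻¹ ∈ B ∪ g⁻¹ • B) ↔ y = x * g := by
      intro y
      rw [mem_inter, mem_union, memop, meminv]
      constructor
      · rintro ⟨⟨hyA, hygA⟩, hyB | hyB⟩
        · have hyx : y = x := (hx y).1 ⟨hyA, hyB⟩
          subst hyx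
          have h2 : y * g⁻¹ = y := (hx (y * g⁻¹)).1 ⟨hygA, by simpa using hgB⟩
          exact absurd (by simpa using h2) hg1
        · have h2 : y * g⁻¹ = x := (hx (y * g⁻¹)).1 ⟨hygA, by simpa using hyB⟩
          rw [← h2]; simp
      · rintro rfl
        refine ⟨⟨hgA, by simpa using hxA⟩, Or.inr (by simpa using hxB)⟩
    -- the right transform keeps the unique representation at `x`
    have hRx : ∀ y, (y ∈ A ∪ op g • A ∧ y⁻¹ ∈ B ∩ g⁻¹ • B) ↔ y = x := by
      intro y
      rw [mem_inter, mem_union, memop, meminv]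
      constructor
      · rintro ⟨hyA | hygA, hyB, hygB⟩
        · exact (hx y).1 ⟨hyA, hyB⟩
        · have h2 : y * g⁻¹ = x := (hx (y * g⁻¹)).1 ⟨hygA, by simpa using hygB⟩
          have h3 : y = x * g := by rw [← h2]; simp
          have h4 : y ∈ A := by rw [h3]; exact hgA
          exact (hx y).1 ⟨h4, hyB⟩
      · rintro rfl
        exact ⟨Or.inl hxA, hxB, hgB⟩
    have hLn : #((A ∩ op g • A) * (B ∪ g⁻¹ • B)) ≤ n := hn ▸ card_le_card hLsub
    have hRn : #((A ∪ op g • A) * (B ∩ g⁻¹ • B)) ≤ n := hn ▸ card_le_card hRsub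
    -- `x` is not in the left-transformed first set
    have hxL : x ∉ A ∩ op g • A := by
      rw [mem_inter, memop]
      rintro ⟨-, h⟩
      have h2 : x * g⁻¹ = x := (hx (x * g⁻¹)).1 ⟨h, by simpa using hgB⟩
      exact hg1 (by simpa using h2)
    have hLlt : #(A ∩ op g • A) < #A :=
      card_lt_card ⟨inter_subset_left, fun h => hxL (h hxA)⟩
    have hR1ne : (A ∪ op g • A).Nonempty := ⟨x, mem_union_left _ hxA⟩
    have hR2ne : (B ∩ g⁻¹ • B).Nonempty :=
      ⟨x⁻¹, mem_inter.2 ⟨hxB, (meminv _).2 hgB⟩⟩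
    have hR1le : #(A ∪ op g • A) ≤ #((A ∪ op g • A) * (B ∩ g⁻¹ • B)) :=
      card_le_card_mul_right hR2ne
    have hR2le : #(B ∩ g⁻¹ • B) ≤ #((A ∪ op g • A) * (B ∩ g⁻¹ • B)) :=
      card_le_card_mul_left hR1ne
    obtain hstg | hstg := le_or_lt_of_add_le_add hcard.ge
    · -- left transform does not decrease the total size
      have key : #(A ∩ op g • A) + #(B ∪ g⁻¹ • B) ≤
          #((A ∩ op g • A) * (B ∪ g⁻¹ • B)) + 1 := by
        rcases lt_or_eq_of_le hLn with hlt | heq
        · exact ihn _ hlt _ _ _ _ _ rfl rfl rfl hLx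
        · rcases lt_or_eq_of_le (show 2 * n - (#(A ∩ op g • A) + #(B ∪ g⁻¹ • B)) ≤ k by omega)
            with hlt | heq2
          · exact ihk _ hlt _ _ _ _ heq rfl rfl hLx
          · exact iha _ (ha ▸ hLlt) _ _ _ heq heq2 rfl hLx
      omega
    · -- right transform strictly increases the total size
      have key : #(A ∪ op g • A) + #(B ∩ g⁻¹ • B) ≤
          #((A ∪ op g • A) * (B ∩ g⁻¹ • B)) + 1 := by
        rcases lt_or_eq_of_le hRn with hlt | heq
        · exact ihn _ hlt _ _ _ _ _ rfl rfl rfl hRx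
        · exact ihk (2 * n - (#(A ∪ op g • A) + #(B ∩ g⁻¹ • B))) (by omega) _ _ _ _ heq rfl rfl hRx
      omega
  · -- no such `g`: the translates `A x⁻¹` and `x B` lie in `A * B` and meet in at most `{1}`
    have h1 : op x⁻¹ • A ⊆ A * B := by
      intro y hy
      rw [mem_smul_finset] at hy
      obtain ⟨z, hz, rfl⟩ := hy
      exact mul_mem_mul hz hxB
    have h2 : x • B ⊆ A * B := by
      intro y hy
      rw [mem_smul_finset] at hy
      obtain ⟨z, hz, rfl⟩ := hy
      exact mul_mem_mul hxA hz
    have h3 : op x⁻¹ • A ∩ x • B ⊆ {1} := by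
      intro y hy
      rw [mem_inter, mem_smul_finset, mem_smul_finset] at hy
      obtain ⟨⟨z, hz, rfl⟩, ⟨w, hw, hwz⟩⟩ := hy
      have hwz' : x * w = z * x⁻¹ := hwz
      by_contra hne
      apply hg
      refine ⟨x⁻¹ * z, ?_, by simpa using hz, ?_⟩
      · intro h
        have hzx : z = x := by
          have := congrArg (fun t => x * t) h
          simpa using this
        apply hne
        rw [mem_singleton, hzx]
        simp
      · have : x⁻¹ * z * x⁻¹ = w := by
          rw [mul_assoc, ← hwz']; simp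
        rw [this]; exact hw
    have hc1 : #(op x⁻¹ • A) = #A := card_smul_finset _ _
    have hc2 : #(x • B) = #B := card_smul_finset _ _
    have hu : #(op x⁻¹ • A ∪ x • B) ≤ #(A * B) := card_le_card (union_subset h1 h2)
    have hi : #(op x⁻¹ • A ∩ x • B) ≤ 1 := by
      simpa using card_le_card h3
    have := card_union_add_card_inter (op x⁻¹ • A) (x • B)
    omega

/-- **Kemperman's theorem**, unique-representation form: if `x` is the only element `y` of `A`
with `y⁻¹ ∈ B` (so that `1` has exactly one representation as a product in `A * B`), then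
`|A| + |B| ≤ |A * B| + 1`. -/
theorem card_add_card_le (A B : Finset G) (x : G)
    (hx : ∀ y, (y ∈ A ∧ y⁻¹ ∈ B) ↔ y = x) : #A + #B ≤ #(A * B) + 1 :=
  aux _ _ _ A B x rfl rfl rfl hx

end Vale.Agent.Lib.Kemperman
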